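import Mathlib

/-!
# P030: an integer quadratic is nonnegative on an interval; Gaussian integers on a real parameter
-/

namespace Vale.Agent.P030.H440

theorem quad_nonneg_on {α β γ t0 t1 t : ℝ} (h0 : t0 ≤ t) (h1 : t ≤ t1)
    (e0 : 0 ≤ α * t0 ^ 2 + β * t0 + γ) (e1 : 0 ≤ α * t1 ^ 2 + β * t1 + γ)
    (h : α ≤ 0 ∨ (0 ≤ α ∧ β ^ 2 ≤ 4 * α * γ) ∨ (0 ≤ α ∧ 0 ≤ 2 * α * t0 + β)
      ∨ (0 ≤ α ∧ 2 * α * t1 + β ≤ 0)) : 0 ≤ α * t ^ 2 + β * t + γ := by
  rcases h with h | ⟨ha, h⟩ | ⟨ha, h⟩ | ⟨ha, h⟩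
  · rcases (h0.trans h1).eq_or_lt with he | he
    · have : t = t0 := le_antisymm (h1.trans he.ge) h0
      rw [this]
      exact e0
    · have h2 : 0 ≤ (t1 - t0) * (α * t ^ 2 + β * t + γ) := by
        have e : (t1 - t0) * (α * t ^ 2 + β * t + γ)
            = (t1 - t) * (α * t0 ^ 2 + β * t0 + γ) + (t - t0) * (α * t1 ^ 2 + β * t1 + γ)
              + (-α) * ((t - t0) * (t1 - t) * (t1 - t0)) := by ring
        rw [e]
        have a1 : 0 ≤ t1 - t := by linarith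
        have a2 : 0 ≤ t - t0 := by linarith
        have a3 : 0 ≤ t1 - t0 := by linarith
        have a4 : 0 ≤ -α := by linarith
        positivity
      exact nonneg_of_mul_nonneg_right h2 (by linarith)
  · rcases ha.eq_or_lt with ha | ha
    · rw [← ha] at h
      have hb : β = 0 := by
        have : β ^ 2 ≤ 0 := by linarith
        exact pow_eq_zero_iff two_ne_zero |>.1 (le_antisymm this (sq_nonneg _))
      rw [← ha, hb] at e0 ⊢
      linarith
    · have h2 : 0 ≤ 4 * α * (α * t ^ 2 + β * t + γ) := by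
        have e : 4 * α * (α * t ^ 2 + β * t + γ)
            = (2 * α * t + β) ^ 2 + (4 * α * γ - β ^ 2) := by ring
        rw [e]
        have := sq_nonneg (2 * α * t + β)
        linarith
      exact nonneg_of_mul_nonneg_right h2 (by linarith)
  · have e : α * t ^ 2 + β * t + γ
        = (α * t0 ^ 2 + β * t0 + γ) + (t - t0) * (2 * α * t0 + β) + α * (t - t0) ^ 2 := by ring
    rw [e]
    have a2 : 0 ≤ t - t0 := by linarith
    positivity
  · have e : α * t ^ 2 + β * t + γ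
        = (α * t1 ^ 2 + β * t1 + γ) + (t1 - t) * (-(2 * α * t1 + β)) + α * (t - t1) ^ 2 := by ring
    rw [e]
    have a2 : 0 ≤ t1 - t := by linarith
    have a3 : 0 ≤ -(2 * α * t1 + β) := by linarith
    positivity

/-- integer test for `0 ≤ α t² + β t + γ` on `[t0, t1]` -/
def quadOn (α β γ t0 t1 : ℤ) : Bool :=
  decide (0 ≤ (α * t0 + β) * t0 + γ) && decide (0 ≤ (α * t1 + β) * t1 + γ) &&
    (decide (α ≤ 0) || decide (β * β ≤ 4 * α * γ) || decide (0 ≤ 2 * α * t0 + β)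
      || decide (2 * α * t1 + β ≤ 0))

theorem quadOn_spec {α β γ t0 t1 : ℤ} (h : quadOn α β γ t0 t1 = true) {t : ℝ}
    (h0 : (t0 : ℝ) ≤ t) (h1 : t ≤ t1) : 0 ≤ (α : ℝ) * t ^ 2 + β * t + γ := by
  simp only [quadOn, Bool.and_eq_true, Bool.or_eq_true, decide_eq_true_eq] at h
  obtain ⟨⟨e0, e1⟩, h⟩ := h
  refine quad_nonneg_on h0 h1 ?_ ?_ ?_
  · have : (0 : ℝ) ≤ (((α * t0 + β) * t0 + γ : ℤ) : ℝ) := by exact_mod_cast e0
    push_cast at this
    linarith
  · have : (0 : ℝ) ≤ (((α * t1 + β) * t1 + γ : ℤ) : ℝ) := by exact_mod_cast e1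
    push_cast at this
    linarith
  · rcases le_total α 0 with ha | ha
    · exact Or.inl (by exact_mod_cast ha)
    · have ha' : (0 : ℝ) ≤ α := by exact_mod_cast ha
      rcases h with ((h | h) | h) | h
      · exact Or.inl (by exact_mod_cast h)
      · refine Or.inr (Or.inl ⟨ha', ?_⟩)
        have : ((β * β : ℤ) : ℝ) ≤ ((4 * α * γ : ℤ) : ℝ) := by exact_mod_cast h
        push_cast at this
        linarith
      · refine Or.inr (Or.inr (Or.inl ⟨ha', ?_⟩))
        exact_mod_cast h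
      · refine Or.inr (Or.inr (Or.inr ⟨ha', ?_⟩))
        exact_mod_cast h

/-- Gaussian integer -/
def gi (u : ℤ × ℤ) : ℂ := ⟨u.1, u.2⟩

/-- the quadratic `‖u0 + t u1‖²` -/
theorem norm_gi_sq (u0 u1 : ℤ × ℤ) (t : ℝ) :
    ‖gi u0 + t * gi u1‖ ^ 2 = ((u1.1 * u1.1 + u1.2 * u1.2 : ℤ) : ℝ) * t ^ 2
      + ((2 * (u0.1 * u1.1 + u0.2 * u1.2) : ℤ) : ℝ) * t
      + ((u0.1 * u0.1 + u0.2 * u0.2 : ℤ) : ℝ) := by
  rw [← Complex.normSq_eq_norm_sq, Complex.normSq_apply]
  simp only [gi, Complex.add_re, Complex.add_im, Complex.mul_re, Complex.mul_im,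
    Complex.ofReal_re, Complex.ofReal_im]
  push_cast
  ring

end Vale.Agent.P030.H440
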