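import Vale.Agent.P030.H532.Table
import Vale.Agent.P030.H440.QuadOn

/-!
# P030, route N: the weight of the table on a piece of a wall is a sum of logarithms of quadratics
-/

open Vale.Agent.P030.H532

namespace Vale.Agent.P030.H440

theorem posOn_spec {Q : Quad} {t0 t1 : ℤ} (h : Q.posOn t0 t1 = true) {t : ℝ}
    (h0 : (t0 : ℝ) ≤ t) (h1 : t ≤ t1) : 0 ≤ Q.ev t := by
  obtain ⟨e0, e1, h⟩ := of_decide_eq_true h
  rw [Quad.evZ] at e0 e1
  unfold Quad.ev
  refine quad_nonneg_on h0 h1 (by exact_mod_cast e0) (by exact_mod_cast e1) ?_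
  rcases le_total Q.A 0 with ha | ha
  · exact Or.inl (by exact_mod_cast ha)
  · have ha' : (0 : ℝ) ≤ Q.A := by exact_mod_cast ha
    rcases h with h | h | h | h
    · exact Or.inl (by exact_mod_cast h)
    · exact Or.inr (Or.inr (Or.inl ⟨ha', by exact_mod_cast h⟩))
    · exact Or.inr (Or.inr (Or.inr ⟨ha', by exact_mod_cast h⟩))
    · exact Or.inr (Or.inl ⟨ha', by exact_mod_cast h⟩)

theorem ev_sub (Q P : Quad) (t : ℝ) : (Q.sub P).ev t = Q.ev t - P.ev t := by
  simp only [Quad.sub, Quad.ev]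
  push_cast
  ring

theorem out_ev (p : Piece) (s N : ℕ) (X Y : ℤ) (t : ℝ) :
    (p.out s N X Y).ev t = (s : ℝ) ^ 2 *
      ‖(N : ℂ) * p.num t - ((X : ℂ) + (Y : ℂ) * Complex.I) * p.den t‖ ^ 2 := by
  rw [← Complex.normSq_eq_norm_sq, Complex.normSq_apply]
  simp only [Piece.out, Quad.ev, Piece.num, Piece.den, Complex.add_re, Complex.add_im,
    Complex.sub_re, Complex.sub_im, Complex.mul_re, Complex.mul_im, Complex.ofReal_re,
    Complex.ofReal_im, Complex.intCast_re, Complex.intCast_im, Complex.natCast_re,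
    Complex.natCast_im, Complex.I_re, Complex.I_im]
  push_cast
  ring

theorem ins_ev (p : Piece) (s R : ℕ) (t : ℝ) :
    (p.ins s R).ev t = (s : ℝ) ^ 2 * ((R : ℝ) * ‖p.den t‖) ^ 2 := by
  rw [mul_pow, ← Complex.normSq_eq_norm_sq, Complex.normSq_apply]
  simp only [Piece.ins, Quad.ev, Piece.den, Complex.add_re, Complex.add_im,
    Complex.mul_re, Complex.mul_im, Complex.ofReal_re,
    Complex.ofReal_im, Complex.intCast_re, Complex.intCast_im, Complex.I_re, Complex.I_im]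
  push_cast
  ring

/-- one smeared atom -/
theorem lm_piece {p : Piece} {s N R : ℕ} {X Y t0 t1 : ℤ} (hN : 0 < N) (hs : 0 < s) (hR : 0 < R)
    (hok : p.pickOk s N R X Y t0 t1 = true) {t : ℝ} (h0 : (t0 : ℝ) ≤ t) (h1 : t ≤ t1)
    (hd : p.den t ≠ 0) :
    Real.log ((p.pick s N R X Y t0).ev t)
      = 2 * lm N R X Y (p.z t) + 2 * Real.log (s * N * ‖p.den t‖) := by
  have hN' : (0 : ℝ) < N := by exact_mod_cast hN
  have hs' : (0 : ℝ) < s := by exact_mod_cast hs
  have hR' : (0 : ℝ) < R := by exact_mod_cast hR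
  have hd' : 0 < ‖p.den t‖ := norm_pos_iff.2 hd
  set m : ℝ := ‖(N : ℂ) * p.num t - ((X : ℂ) + (Y : ℂ) * Complex.I) * p.den t‖ with hm
  have hm0 : 0 ≤ m := norm_nonneg _
  have hz : ‖p.z t - ((X : ℂ) + (Y : ℂ) * Complex.I) / N‖ = m / (N * ‖p.den t‖) := by
    have hNc : (N : ℂ) ≠ 0 := by exact_mod_cast hN.ne'
    have e : p.z t - ((X : ℂ) + (Y : ℂ) * Complex.I) / N
        = ((N : ℂ) * p.num t - ((X : ℂ) + (Y : ℂ) * Complex.I) * p.den t)
          / ((N : ℂ) * p.den t) := by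
      rw [Piece.z]
      field_simp
    rw [e, norm_div, norm_mul, Complex.norm_natCast]
  have hls : Real.log (s * N * ‖p.den t‖) = Real.log s + Real.log N + Real.log ‖p.den t‖ := by
    rw [Real.log_mul (mul_pos hs' hN').ne' hd'.ne', Real.log_mul hs'.ne' hN'.ne']
  have hlm : lm N R X Y (p.z t)
      = Real.log (max ((R : ℝ) / N) (m / (N * ‖p.den t‖))) := by rw [lm, hz]
  rw [Piece.pickOk] at hok
  rw [Piece.pick]
  split_ifs at hok ⊢ with hc
  · have h2 := posOn_spec hok h0 h1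
    rw [ev_sub, out_ev, ins_ev, ← hm] at h2
    have h3 : ((R : ℝ) * ‖p.den t‖) ^ 2 ≤ m ^ 2 := by
      have : (s : ℝ) ^ 2 * ((R : ℝ) * ‖p.den t‖) ^ 2 ≤ (s : ℝ) ^ 2 * m ^ 2 := by linarith
      exact le_of_mul_le_mul_left this (by positivity)
    have h4 : (R : ℝ) * ‖p.den t‖ ≤ m := (pow_le_pow_iff_left₀ (by positivity) hm0
      two_ne_zero).1 h3
    have hmp : 0 < m := lt_of_lt_of_le (by positivity) h4
    have h5 : (R : ℝ) / N ≤ m / (N * ‖p.den t‖) := by
      rw [div_le_div_iff₀ hN' (by positivity)]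
      calc (R : ℝ) * (N * ‖p.den t‖) = (R * ‖p.den t‖) * N := by ring
        _ ≤ m * N := mul_le_mul_of_nonneg_right h4 hN'.le
    rw [hlm, max_eq_right h5, out_ev, ← hm, Real.log_div hmp.ne' (by positivity),
      Real.log_mul hN'.ne' hd'.ne', ← mul_pow, Real.log_pow, Real.log_mul hs'.ne' hmp.ne', hls]
    push_cast
    ring
  · have h2 := posOn_spec hok h0 h1
    rw [ev_sub, out_ev, ins_ev, ← hm] at h2
    have h3 : m ^ 2 ≤ ((R : ℝ) * ‖p.den t‖) ^ 2 := by
      have : (s : ℝ) ^ 2 * m ^ 2 ≤ (s : ℝ) ^ 2 * ((R : ℝ) * ‖p.den t‖) ^ 2 := by linarith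
      exact le_of_mul_le_mul_left this (by positivity)
    have h4 : m ≤ (R : ℝ) * ‖p.den t‖ := (pow_le_pow_iff_left₀ hm0 (by positivity)
      two_ne_zero).1 h3
    have h5 : m / (N * ‖p.den t‖) ≤ (R : ℝ) / N := by
      rw [div_le_div_iff₀ (by positivity) hN']
      calc m * N ≤ (R * ‖p.den t‖) * N := mul_le_mul_of_nonneg_right h4 hN'.le
        _ = (R : ℝ) * (N * ‖p.den t‖) := by ring
    rw [hlm, max_eq_left h5, ins_ev, Real.log_div hR'.ne' hN'.ne', ← mul_pow, Real.log_pow,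
      Real.log_mul hs'.ne' (by positivity), Real.log_mul hR'.ne' hd'.ne', hls]
    push_cast
    ring

/-- on a real piece the conjugate atom has the same potential -/
theorem lm_real {p : Piece} (hp : p.isReal = true) (N R : ℕ) (X Y : ℤ) (t : ℝ) :
    lm N R X (-Y) (p.z t) = lm N R X Y (p.z t) := by
  simp only [Piece.isReal, Bool.and_eq_true, beq_iff_eq] at hp
  obtain ⟨⟨⟨h1, h2⟩, h3⟩, h4⟩ := hp
  have hz : (starRingEnd ℂ) (p.z t) = p.z t := by
    rw [Piece.z, map_div₀, Piece.num, Piece.den, h1, h2, h3, h4]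
    simp
  have e : p.z t - ((X : ℂ) + ((-Y : ℤ) : ℂ) * Complex.I) / N
      = (starRingEnd ℂ) (p.z t - ((X : ℂ) + (Y : ℂ) * Complex.I) / N) := by
    rw [map_sub, hz, map_div₀]
    simp
  rw [lm, lm, e, Complex.norm_conj]

theorem getD_two_mul (l : List ℤ) (b : ℕ) :
    (l.map fun x => 2 * x).getD b 0 = 2 * l.getD b 0 := by
  induction l generalizing b with
  | nil => simp
  | cons a l ih => cases b with
    | zero => simp
    | succ b => simpa using ih b

/-- one entry of the table -/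
theorem terms_sum {p : Piece} {s N : ℕ} {t0 t1 : ℤ} (hN : 0 < N) (hs : 0 < s) {e : Ent}
    (hR : 0 < e.R) (hok : p.termsOk s N t0 t1 e = true) {t : ℝ} (h0 : (t0 : ℝ) ≤ t)
    (h1 : t ≤ t1) (hd : p.den t ≠ 0) (b : ℕ) :
    ((p.terms s N t0 e).map fun x => ((x.2.getD b 0 : ℤ) : ℝ) * Real.log (x.1.ev t)).sum
      = 2 * ((e.q.getD b 0 : ℝ) * e.U N (p.z t))
        + ((e.q.getD b 0 * (if e.Y = 0 then 1 else 2) : ℤ) : ℝ)
          * (2 * Real.log (s * N * ‖p.den t‖)) := by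
  rw [Piece.termsOk] at hok
  rw [Piece.terms, Ent.U]
  by_cases hY : e.Y = 0
  · rw [if_pos hY] at hok
    rw [if_pos hY, if_pos hY, if_pos hY]
    simp only [List.map_cons, List.map_nil, List.sum_cons, List.sum_nil]
    rw [lm_piece hN hs hR hok h0 h1 hd]
    push_cast
    ring
  · rw [if_neg hY] at hok
    rw [if_neg hY, if_neg hY, if_neg hY]
    by_cases hp : p.isReal = true
    · rw [if_pos hp] at hok
      rw [if_pos hp]
      simp only [List.map_cons, List.map_nil, List.sum_cons, List.sum_nil]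
      rw [lm_piece hN hs hR hok h0 h1 hd, lm_real hp, getD_two_mul]
      push_cast
      ring
    · rw [if_neg hp, Bool.and_eq_true] at hok
      rw [if_neg hp]
      simp only [List.map_cons, List.map_nil, List.sum_cons, List.sum_nil]
      rw [lm_piece hN hs hR hok.1 h0 h1 hd, lm_piece hN hs hR hok.2 h0 h1 hd]
      push_cast
      ring

/-- **the bridge** -/
theorem bridge (D : Tab) (p : Piece) (s : ℕ) (t0 t1 : ℤ) (hN : 0 < D.N) (hL : 0 < D.L)
    (hs : 0 < s) (hR : ∀ e ∈ D.ents, 0 < e.R)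
    (hok : ∀ e ∈ D.ents, p.termsOk s D.N t0 t1 e = true) {t : ℝ} (h0 : (t0 : ℝ) ≤ t)
    (h1 : t ≤ t1) (hd : p.den t ≠ 0) (b : ℕ) :
    2 * (D.L : ℝ) * D.W b (p.z t)
      = ((D.ents.flatMap (p.terms s D.N t0)).map
          fun x => ((x.2.getD b 0 : ℤ) : ℝ) * Real.log (x.1.ev t)).sum
        + 2 * ((D.G.getD b 0 : ℤ) : ℝ)
        - (D.mass b : ℝ) * (2 * Real.log (s * D.N * ‖p.den t‖)) := by
  have hL' : (0 : ℝ) < D.L := by exact_mod_cast hL
  have key : ∀ l : List Ent, (∀ e ∈ l, 0 < e.R) → (∀ e ∈ l, p.termsOk s D.N t0 t1 e = true) →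
      ((l.flatMap (p.terms s D.N t0)).map
          fun x => ((x.2.getD b 0 : ℤ) : ℝ) * Real.log (x.1.ev t)).sum
        = 2 * (l.map fun e => (e.q.getD b 0 : ℝ) * e.U D.N (p.z t)).sum
          + (((l.map fun e => e.q.getD b 0 * (if e.Y = 0 then 1 else 2)).sum : ℤ) : ℝ)
            * (2 * Real.log (s * D.N * ‖p.den t‖)) := by
    intro l
    induction l with
    | nil => intro _ _; simp
    | cons e l ih =>
      intro hR hok
      have h2 := ih (fun e he => hR e (List.mem_cons_of_mem _ he))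
        (fun e he => hok e (List.mem_cons_of_mem _ he))
      rw [List.flatMap_cons, List.map_append, List.sum_append, h2,
        terms_sum hN hs (hR e List.mem_cons_self) (hok e List.mem_cons_self) h0 h1 hd b,
        List.map_cons, List.sum_cons, List.map_cons, List.sum_cons]
      push_cast
      ring
  rw [key D.ents hR hok, Tab.W, Tab.mass]
  have e : 2 * (D.L : ℝ) * (((D.ents.map fun e => (e.q.getD b 0 : ℝ) * e.U D.N (p.z t)).sum
      + (D.G.getD b 0 : ℤ)) / D.L)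
      = 2 * ((D.ents.map fun e => (e.q.getD b 0 : ℝ) * e.U D.N (p.z t)).sum
      + (D.G.getD b 0 : ℤ)) := by
    field_simp
  rw [e]
  ring

/-- pairs of blocks with equal total mass are compared through the quadratics -/
theorem W_le_of_terms (D : Tab) (p : Piece) (s : ℕ) (t0 t1 : ℤ) (hN : 0 < D.N) (hL : 0 < D.L)
    (hs : 0 < s) (hR : ∀ e ∈ D.ents, 0 < e.R)
    (hok : ∀ e ∈ D.ents, p.termsOk s D.N t0 t1 e = true) {t : ℝ} (h0 : (t0 : ℝ) ≤ t)
    (h1 : t ≤ t1) (hd : p.den t ≠ 0) (b c : ℕ) (hm : D.mass b = D.mass c)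
    (h : ((D.ents.flatMap (p.terms s D.N t0)).map
          fun x => ((x.2.getD b 0 : ℤ) : ℝ) * Real.log (x.1.ev t)).sum
        + 2 * ((D.G.getD b 0 : ℤ) : ℝ)
      ≤ ((D.ents.flatMap (p.terms s D.N t0)).map
          fun x => ((x.2.getD c 0 : ℤ) : ℝ) * Real.log (x.1.ev t)).sum
        + 2 * ((D.G.getD c 0 : ℤ) : ℝ)) : D.W b (p.z t) ≤ D.W c (p.z t) := by
  have hL' : (0 : ℝ) < 2 * D.L := by
    have : (0 : ℝ) < D.L := by exact_mod_cast hL
    linarith
  have h2 := bridge D p s t0 t1 hN hL hs hR hok h0 h1 hd b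
  have h3 := bridge D p s t0 t1 hN hL hs hR hok h0 h1 hd c
  rw [hm] at h2
  have h4 : 2 * (D.L : ℝ) * D.W b (p.z t) ≤ 2 * (D.L : ℝ) * D.W c (p.z t) := by linarith
  exact le_of_mul_le_mul_left h4 hL'

end Vale.Agent.P030.H440
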