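import Vale.Agent.P030.H440.Build3

/-!
# P030, route N: one kernel check for a chunk of a wall piece

`chunk_sound`: the check `chunk` (the atoms of the piece are built in the kernel from the table, then
the engine of H532 runs over the cells) gives the inequalities between the weights of the table on
the whole chunk.
-/

namespace Vale.Agent.P030.H440.Bd

open Vale.Agent.P030.H532
open Vale.Agent.P030.H462

/-- what has been built for all entries -/
structure All (N : ℕ) (p : Piece) (s t0 t1 : ℕ) (l : List KEnt) (la : List Atom) : Prop where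
  fine : ∀ a ∈ la, Fine a
  V : ∀ a ∈ la, a.V < 2 ^ (96 * 16) ∧ (∀ b < 16, fld a.V b < 2 ^ 32) ∧ ∀ b < 16, fld a.V b ≤ a.D
  fl : ∀ b < 16, (la.map fun a => fld a.V b).sum = (l.map fun e => e.mult * fld e.v b).sum
  dd : (la.map fun a => a.D).sum = (l.map fun e => e.mult * e.d).sum
  ev : ∀ t : ℝ, (t0 : ℝ) ≤ t → t ≤ t1 → p.den t ≠ 0 → 0 ≤ (imq p).ev t → ∀ b < 16,
    (la.map fun a => ((fld a.V b : ℕ) : ℝ) * Real.log (a.ev t)).sum
      = (l.map fun e => ((fld e.v b : ℕ) : ℝ) * (2 * (e.toEnt N).U (p.z t)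
        + e.mult * (2 * Real.log (s * ‖p.den t‖)))).sum
  len : la.length ≤ 2 * l.length

theorem bld_spec {N s : ℕ} {p : Piece} {pc : PC} (h : PCok N p s pc) {t0 t1 : ℕ}
    {k : List Atom → Bool} (l : List KEnt) : (∀ e ∈ l, e.ok = true) → ∀ acc : List Atom,
    bld pc.c0 pc.c1p pc.c1n pc.c2p pc.c2n pc.c3 pc.b0p pc.b0n pc.b1p pc.b1n pc.b2p pc.b2n
      pc.b3p pc.b3n pc.a0 pc.a1p pc.a1n pc.a2p pc.a2n pc.a3 pc.rl t0 t1 k l acc = true →
    ∃ la, k (la ++ acc) = true ∧ All N p s t0 t1 l la := by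
  induction l with
  | nil =>
    intro _ acc hk
    refine ⟨[], hk, ?_, ?_, ?_, ?_, ?_, ?_⟩
    · intro a ha; exact absurd ha List.not_mem_nil
    · intro a ha; exact absurd ha List.not_mem_nil
    · intro b _; rfl
    · rfl
    · intro t _ _ _ _ b _; rfl
    · simp
  | cons e l ih =>
    intro hok acc hk
    have hk' : stepB pc.c0 pc.c1p pc.c1n pc.c2p pc.c2n pc.c3 pc.b0p pc.b0n pc.b1p pc.b1n pc.b2p
      pc.b2n pc.b3p pc.b3n pc.a0 pc.a1p pc.a1n pc.a2p pc.a2n pc.a3 pc.rl t0 t1 e.kd e.xp e.xn e.y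
      e.r e.v e.d acc (bld pc.c0 pc.c1p pc.c1n pc.c2p pc.c2n pc.c3 pc.b0p pc.b0n pc.b1p pc.b1n
        pc.b2p pc.b2n pc.b3p pc.b3n pc.a0 pc.a1p pc.a1n pc.a2p pc.a2n pc.a3 pc.rl t0 t1 k l)
        = true := by
      cases e
      exact hk
    obtain ⟨la, h1, h2⟩ := stepB_spec h e (hok e List.mem_cons_self) hk'
    obtain ⟨lb, h3, h4⟩ := ih (fun x hx => hok x (List.mem_cons_of_mem _ hx)) _ h1
    refine ⟨lb ++ la, by rw [List.append_assoc]; exact h3, ?_, ?_, ?_, ?_, ?_, ?_⟩
    · intro a ha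
      rcases List.mem_append.1 ha with ha | ha
      · exact h4.fine a ha
      · exact h2.fine a ha
    · intro a ha
      rcases List.mem_append.1 ha with ha | ha
      · exact h4.V a ha
      · exact h2.V a ha
    · intro b hb
      rw [List.map_append, List.sum_append, h4.fl b hb, h2.fl b hb, List.map_cons,
        List.sum_cons, add_comm]
    · rw [List.map_append, List.sum_append, h4.dd, h2.dd, List.map_cons, List.sum_cons,
        add_comm]
    · intro t ht0 ht1 hd him b hb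
      rw [List.map_append, List.sum_append, h4.ev t ht0 ht1 hd him b hb,
        h2.ev t ht0 ht1 hd him b hb, List.map_cons, List.sum_cons, add_comm]
    · rw [List.length_append, List.length_cons]
      have := h4.len
      have := h2.len
      omega

/-- the table -/
structure KTab where
  N : ℕ
  L : ℕ
  ents : List KEnt
  G : List ℤ

/-- the table in the format of H462 -/
def KTab.toTab (D : KTab) : TA.Tab := ⟨D.L, D.ents.map (KEnt.toEnt D.N), D.G⟩

/-- total shifted charge of a block -/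
def KTab.T (D : KTab) (b : ℕ) : ℕ := (D.ents.map fun e => e.mult * fld e.v b).sum

/-- sum of the bounds of the charges -/
def KTab.SD (D : KTab) : ℕ := (D.ents.map fun e => e.mult * e.d).sum

/-- **the static check of the table** (once) -/
def KTab.ok (D : KTab) : Bool :=
  decide (0 < D.L ∧ D.ents.length ≤ 2 ^ 19) && (D.ents.all KEnt.ok) &&
    (List.range 8).all fun b => decide (D.T b = D.T 0)

/-- the comparison `x.1 ≤ x.2` in machine form -/
def KTab.mkC (D : KTab) (cs : List ℕ) (x : ℕ × ℕ) : Cmp :=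
  ⟨96 * x.1, 96 * x.2, cs.getD x.1 0 + 610 * D.SD, cs.getD x.2 0⟩

theorem q_getD (e : KEnt) {b : ℕ} (hb : b < 8) : e.q.getD b 0 = (fld e.v b : ℤ) - e.sh := by
  rw [KEnt.q, List.getD_eq_getElem?_getD, List.getElem?_map, List.getElem?_range hb]
  rfl

theorem toEnt_q (N : ℕ) (e : KEnt) : (e.toEnt N).q = e.q := by
  obtain ⟨kd, xp, xn, y, r, v, sh, d⟩ := e
  cases kd with
  | zero => rfl
  | succ n => cases n with
    | zero => rfl
    | succ n => rfl

theorem W_eq (D : KTab) {b : ℕ} (hb : b < 8) (z : ℂ) : D.toTab.W b z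
    = ((D.ents.map fun e => ((fld e.v b : ℕ) : ℝ) * (e.toEnt D.N).U z).sum
      - (D.ents.map fun e => (e.sh : ℝ) * (e.toEnt D.N).U z).sum + (D.G.getD b 0 : ℤ)) / D.L := by
  have key : ∀ l : List KEnt, ((l.map (KEnt.toEnt D.N)).map fun e => (e.q.getD b 0 : ℝ) * e.U z).sum
      = (l.map fun e => ((fld e.v b : ℕ) : ℝ) * (e.toEnt D.N).U z).sum
      - (l.map fun e => (e.sh : ℝ) * (e.toEnt D.N).U z).sum := by
    intro l
    induction l with
    | nil => simp
    | cons e l ih =>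
      simp only [List.map_cons, List.sum_cons]
      rw [ih, toEnt_q, q_getD e hb]
      push_cast
      ring
  rw [TA.Tab.W, KTab.toTab]
  simp only
  rw [key]

/-- **soundness of a chunk** -/
theorem chunk_sound (hlg : LgSpec) {D : KTab} (hD : D.ok = true) {p : Piece} {s : ℕ} {pc : PC}
    {t0 t1 : ℕ} (hp : pcOk D.N p s pc t0 t1 = true) {cs : List ℕ} (hcs : csOk cs D.G = true)
    {prs : List (ℕ × ℕ)} (hprs : ∀ x ∈ prs, x.1 < 8 ∧ x.2 < 8) {cmps : List Cmp}
    (hc : cmps = prs.map (D.mkC cs)) {cls : List Cell} (hne : cls ≠ [])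
    (h : chunk pc D.ents cmps cls t0 t1 = true) {t : ℝ} (h0 : (t0 : ℝ) ≤ t) (h1 : t ≤ t1)
    (h2 : t ≤ t0 + len cls) (hd : p.den t ≠ 0) :
    ∀ x ∈ prs, D.toTab.W x.1 (p.z t) ≤ D.toTab.W x.2 (p.z t) := by
  obtain ⟨hpc, him⟩ := pcOk_spec hp
  simp only [KTab.ok, Bool.and_eq_true, List.all_eq_true] at hD
  obtain ⟨⟨hD1, hD2⟩, hD3⟩ := hD
  obtain ⟨hL, hlen⟩ := of_decide_eq_true hD1
  have hT : ∀ b < 8, D.T b = D.T 0 := fun b hb => of_decide_eq_true (hD3 b (List.mem_range.2 hb))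
  have hk : bld pc.c0 pc.c1p pc.c1n pc.c2p pc.c2n pc.c3 pc.b0p pc.b0n pc.b1p pc.b1n pc.b2p
      pc.b2n pc.b3p pc.b3n pc.a0 pc.a1p pc.a1n pc.a2p pc.a2n pc.a3 pc.rl t0 t1
      (fun atoms => cells atoms cmps cls t0) D.ents [] = true := by
    cases pc
    exact h
  obtain ⟨la, h3, h4⟩ := bld_spec hpc D.ents hD2 [] hk
  rw [List.append_nil] at h3
  have htot : ∀ b < 16, tot la b = (D.ents.map fun e => e.mult * fld e.v b).sum := fun b hb =>
    h4.fl b hb
  have hsumD : sumD la = D.SD := h4.dd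
  have hst : static la prs = true := by
    rw [static, Bool.and_eq_true, Bool.and_eq_true, decide_eq_true_eq, List.all_eq_true,
      List.all_eq_true]
    refine ⟨⟨?_, fun a ha => ?_⟩, fun x hx => ?_⟩
    · have := h4.len
      omega
    · obtain ⟨f1, f2⟩ := h4.fine a ha
      obtain ⟨v1, v2, v3⟩ := h4.V a ha
      rw [okAtom, Bool.and_eq_true, decide_eq_true_eq, List.all_eq_true]
      refine ⟨⟨f1, f2, v1, v2⟩, fun x hx => ?_⟩
      obtain ⟨i1, i2⟩ := hprs x hx
      have w1 := v3 x.1 (by omega)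
      have w2 := v3 x.2 (by omega)
      exact decide_eq_true ⟨by omega, by omega⟩
    · obtain ⟨i1, i2⟩ := hprs x hx
      refine decide_eq_true ⟨by omega, by omega, ?_⟩
      rw [htot x.1 (by omega), htot x.2 (by omega)]
      have e1 := hT x.1 i1
      have e2 := hT x.2 i2
      rw [KTab.T] at e1 e2
      rw [e1, e2]
  have hcm : cmps = prs.map (mkCmp la cs) := by
    rw [hc]
    refine List.map_congr_left fun x _ => ?_
    rw [KTab.mkC, mkCmp, hsumD]
  rw [hcm] at h3
  have hpot := cells_sound hlg hne hst h3 h0 h2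
  have himt := posOn_spec him (by exact_mod_cast h0) (by exact_mod_cast h1)
  intro x hx
  obtain ⟨i1, i2⟩ := hprs x hx
  have hx1 := hpot x hx
  rw [pot, pot, h4.ev t h0 h1 hd himt x.1 (by omega), h4.ev t h0 h1 hd himt x.2 (by omega)] at hx1
  have hcs' : ∀ b < 8, ((cs.getD b 0 : ℕ) : ℝ) / 4294967296 = 2 * ((D.G.getD b 0 : ℤ) : ℝ)
      + ((cs.getD 0 0 : ℝ) / 2 ^ 32 - 2 * ((D.G.getD 0 0 : ℤ) : ℝ)) := by
    intro b hb
    have := csOk_spec hcs hb
    have h32 : (2 : ℝ) ^ 32 = 4294967296 := by norm_num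
    rw [← h32]
    exact this
  rw [hcs' _ i1, hcs' _ i2] at hx1
  have hsplit : ∀ b : ℕ, (D.ents.map fun e => ((fld e.v b : ℕ) : ℝ) * (2 * (e.toEnt D.N).U (p.z t)
        + e.mult * (2 * Real.log (s * ‖p.den t‖)))).sum
      = 2 * (D.ents.map fun e => ((fld e.v b : ℕ) : ℝ) * (e.toEnt D.N).U (p.z t)).sum
        + ((D.T b : ℕ) : ℝ) * (2 * Real.log (s * ‖p.den t‖)) := by
    intro b
    have key : ∀ l : List KEnt, (l.map fun e => ((fld e.v b : ℕ) : ℝ) * (2 * (e.toEnt D.N).U (p.z t)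
        + e.mult * (2 * Real.log (s * ‖p.den t‖)))).sum
      = 2 * (l.map fun e => ((fld e.v b : ℕ) : ℝ) * (e.toEnt D.N).U (p.z t)).sum
        + (((l.map fun e => e.mult * fld e.v b).sum : ℕ) : ℝ)
          * (2 * Real.log (s * ‖p.den t‖)) := by
      intro l
      induction l with
      | nil => simp
      | cons e l ih =>
        simp only [List.map_cons, List.sum_cons]
        rw [ih]
        push_cast
        ring
    exact key D.ents
  rw [hsplit, hsplit, hT _ i1, hT _ i2] at hx1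
  have hL' : (0 : ℝ) < D.L := by exact_mod_cast hL
  rw [W_eq D i1, W_eq D i2]
  refine div_le_div_of_nonneg_right ?_ hL'.le
  linarith

end Vale.Agent.P030.H440.Bd
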