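import Vale.Agent.P030.H440.Bridge

/-!
# P030, route N: the literal list of atoms of a piece matches the table
-/

open Vale.Agent.P030.H532

namespace Vale.Agent.P030.H440

/-- one atom matches one quadratic with multiplicities, up to a common shift of the multiplicities -/
def matchAtom (q : Quad × List ℤ) (a : Atom) : Bool :=
  decide ((a.A : ℤ) = q.1.A) && decide ((a.Bp : ℤ) = q.1.B + a.Bn) && decide ((a.C : ℤ) = q.1.C) &&
    (List.range 8).all fun b =>
      decide ((fld a.V b : ℤ) + q.2.getD 0 0 = q.2.getD b 0 + (fld a.V 0 : ℤ))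

/-- all atoms -/
def matchTerms : List (Quad × List ℤ) → List Atom → Bool
  | [], [] => true
  | q :: ts, a :: l => matchAtom q a && matchTerms ts l
  | _, _ => false

/-- the constants -/
def csOk (cs : List ℕ) (G : List ℤ) : Bool :=
  (List.range 8).all fun b =>
    decide ((cs.getD b 0 : ℤ) + 8589934592 * G.getD 0 0 = 8589934592 * G.getD b 0 + cs.getD 0 0)

/-- the potential of 532's engine -/
noncomputable def potE (atoms : List Atom) (cs : List ℕ) (b : ℕ) (t : ℝ) : ℝ :=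
  (cs.getD b 0 : ℝ) / 2 ^ 32 + (atoms.map fun a =>
    (fld a.V b : ℝ) * Real.log ((a.A : ℝ) * t ^ 2 + ((a.Bp : ℝ) - a.Bn) * t + a.C)).sum

theorem matchAtom_ev {q : Quad × List ℤ} {a : Atom} (h : matchAtom q a = true) (t : ℝ) :
    (a.A : ℝ) * t ^ 2 + ((a.Bp : ℝ) - a.Bn) * t + a.C = q.1.ev t := by
  simp only [matchAtom, Bool.and_eq_true, decide_eq_true_eq] at h
  obtain ⟨⟨⟨h1, h2⟩, h3⟩, -⟩ := h
  have e1 : (a.A : ℝ) = q.1.A := by exact_mod_cast congrArg (Int.cast : ℤ → ℝ) h1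
  have e2 : (a.Bp : ℝ) = q.1.B + a.Bn := by exact_mod_cast congrArg (Int.cast : ℤ → ℝ) h2
  have e3 : (a.C : ℝ) = q.1.C := by exact_mod_cast congrArg (Int.cast : ℤ → ℝ) h3
  rw [Quad.ev, e1, e2, e3]
  ring

theorem matchAtom_fld {q : Quad × List ℤ} {a : Atom} (h : matchAtom q a = true) {b : ℕ}
    (hb : b < 8) : (fld a.V b : ℝ) = ((q.2.getD b 0 : ℤ) : ℝ)
      + ((fld a.V 0 : ℝ) - ((q.2.getD 0 0 : ℤ) : ℝ)) := by
  simp only [matchAtom, Bool.and_eq_true, List.all_eq_true] at h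
  have h1 := of_decide_eq_true (h.2 b (List.mem_range.2 hb))
  have h2 : (fld a.V b : ℝ) + ((q.2.getD 0 0 : ℤ) : ℝ)
      = ((q.2.getD b 0 : ℤ) : ℝ) + (fld a.V 0 : ℝ) := by
    exact_mod_cast congrArg (Int.cast : ℤ → ℝ) h1
  linarith

theorem matchTerms_sum {ts : List (Quad × List ℤ)} {atoms : List Atom}
    (h : matchTerms ts atoms = true) (t : ℝ) : ∃ c : ℝ, ∀ b < 8,
      (atoms.map fun a =>
        (fld a.V b : ℝ) * Real.log ((a.A : ℝ) * t ^ 2 + ((a.Bp : ℝ) - a.Bn) * t + a.C)).sum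
      = (ts.map fun x => ((x.2.getD b 0 : ℤ) : ℝ) * Real.log (x.1.ev t)).sum + c := by
  induction ts generalizing atoms with
  | nil =>
    cases atoms with
    | nil => exact ⟨0, fun b _ => by simp⟩
    | cons a l => exact absurd h (by simp [matchTerms])
  | cons q ts ih =>
    cases atoms with
    | nil => exact absurd h (by simp [matchTerms])
    | cons a l =>
      rw [matchTerms, Bool.and_eq_true] at h
      obtain ⟨c, hc⟩ := ih h.2
      refine ⟨c + ((fld a.V 0 : ℝ) - ((q.2.getD 0 0 : ℤ) : ℝ)) * Real.log (q.1.ev t),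
        fun b hb => ?_⟩
      rw [List.map_cons, List.sum_cons, hc b hb, List.map_cons, List.sum_cons,
        matchAtom_ev h.1, matchAtom_fld h.1 hb]
      ring

theorem csOk_spec {cs : List ℕ} {G : List ℤ} (h : csOk cs G = true) {b : ℕ} (hb : b < 8) :
    (cs.getD b 0 : ℝ) / 2 ^ 32 = 2 * ((G.getD b 0 : ℤ) : ℝ)
      + ((cs.getD 0 0 : ℝ) / 2 ^ 32 - 2 * ((G.getD 0 0 : ℤ) : ℝ)) := by
  simp only [csOk, List.all_eq_true] at h
  have h1 := of_decide_eq_true (h b (List.mem_range.2 hb))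
  have h2 : (cs.getD b 0 : ℝ) + 8589934592 * ((G.getD 0 0 : ℤ) : ℝ)
      = 8589934592 * ((G.getD b 0 : ℤ) : ℝ) + (cs.getD 0 0 : ℝ) := by
    exact_mod_cast congrArg (Int.cast : ℤ → ℝ) h1
  have h3 : (2 : ℝ) ^ 32 = 4294967296 := by norm_num
  rw [h3]
  linarith

/-- **from the engine to the terms** -/
theorem terms_le {ts : List (Quad × List ℤ)} {atoms : List Atom} {cs : List ℕ} {G : List ℤ}
    (hm : matchTerms ts atoms = true) (hc : csOk cs G = true) {t : ℝ} {i j : ℕ} (hi : i < 8)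
    (hj : j < 8) (h : potE atoms cs i t ≤ potE atoms cs j t) :
    (ts.map fun x => ((x.2.getD i 0 : ℤ) : ℝ) * Real.log (x.1.ev t)).sum
        + 2 * ((G.getD i 0 : ℤ) : ℝ)
      ≤ (ts.map fun x => ((x.2.getD j 0 : ℤ) : ℝ) * Real.log (x.1.ev t)).sum
        + 2 * ((G.getD j 0 : ℤ) : ℝ) := by
  obtain ⟨c, hs⟩ := matchTerms_sum hm t
  rw [potE, potE, hs i hi, hs j hj, csOk_spec hc hi, csOk_spec hc hj] at h
  linarith

/-- the static check of a piece -/
def pieceCheck (D : Tab) (p : Piece) (s : ℕ) (t0 t1 : ℤ) (atoms : List Atom) (cs : List ℕ)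
    (prs : List (ℕ × ℕ)) : Bool :=
  decide (0 < D.N) && decide (0 < D.L) && decide (0 < s) &&
    (D.ents.all fun e => decide (0 < e.R) && p.termsOk s D.N t0 t1 e) &&
    matchTerms (D.ents.flatMap (p.terms s D.N t0)) atoms && csOk cs D.G &&
    prs.all fun x => decide (x.1 < 8) && decide (x.2 < 8) && decide (D.mass x.1 = D.mass x.2)

/-- **the weights on a piece** -/
theorem piece_le {D : Tab} {p : Piece} {s : ℕ} {t0 t1 : ℤ} {atoms : List Atom} {cs : List ℕ}
    {prs : List (ℕ × ℕ)} (h : pieceCheck D p s t0 t1 atoms cs prs = true) {t : ℝ}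
    (h0 : (t0 : ℝ) ≤ t) (h1 : t ≤ t1) (hd : p.den t ≠ 0)
    (hpot : ∀ x ∈ prs, potE atoms cs x.1 t ≤ potE atoms cs x.2 t) :
    ∀ x ∈ prs, D.W x.1 (p.z t) ≤ D.W x.2 (p.z t) := by
  simp only [pieceCheck, Bool.and_eq_true, List.all_eq_true, decide_eq_true_eq] at h
  obtain ⟨⟨⟨⟨⟨⟨hN, hL⟩, hs⟩, hents⟩, hm⟩, hc⟩, hp⟩ := h
  intro x hx
  obtain ⟨⟨hi, hj⟩, hmass⟩ := hp x hx
  exact W_le_of_terms D p s t0 t1 hN hL hs (fun e he => (hents e he).1)
    (fun e he => (hents e he).2) h0 h1 hd x.1 x.2 hmass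
    (terms_le hm hc hi hj (hpot x hx))

end Vale.Agent.P030.H440
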