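import Vale.Agent.P030.H440.BuildDef
import Vale.Agent.P030.H440.PieceOk
import Vale.Agent.P030.H532.Final
import Vale.Agent.P030.H462.TabA

/-!
# P030, route N: correctness of the in-kernel construction of the atoms, first part
-/

namespace Vale.Agent.P030.H440.Bd

open Vale.Agent.P030.H532
open Vale.Agent.P030.H462

/-! ### elimination of the continuation passing style -/

theorem quadK_eq (c0 c1p c1n c2p c2n c3 b0p b0n b1p b1n b2p b2n b3p b3n a0 a1p a1n a2p a2n a3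
    xp xn y S : ℕ) (k : ℕ → ℕ → ℕ → ℕ → Bool) :
    quadK c0 c1p c1n c2p c2n c3 b0p b0n b1p b1n b2p b2n b3p b3n a0 a1p a1n a2p a2n a3 xp xn y S k
      = k ((a0 + a1p * xn + a1n * xp + a2p * y + a3 * S) - (a1p * xp + a1n * xn + a2n * y))
          ((b0p + b1p * xn + b1n * xp + b2p * y + b3p * S)
            - (b0n + b1p * xp + b1n * xn + b2n * y + b3n * S))
          ((b0n + b1p * xp + b1n * xn + b2n * y + b3n * S)
            - (b0p + b1p * xn + b1n * xp + b2p * y + b3p * S))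
          ((c0 + c1p * xn + c1n * xp + c2p * y + c3 * S) - (c1p * xp + c1n * xn + c2n * y)) := by
  simp only [quadK, force_eq]
  rfl

theorem chk_spec {A b C A' b' C' t0 t1 : ℕ} {k : Bool} (h : chk A b C A' b' C' t0 t1 k = true) :
    k = true ∧ (A' * t1 + b') * t1 + C' ≤ (A * t1 + b) * t1 + C ∧
      (A ≤ A' ∨ 2 * A' * t0 + b' ≤ 2 * A * t0 + b ∨ 2 * A * t1 + b ≤ 2 * A' * t1 + b' ∨
        (C' ≤ C ∧ ((b - b') + (b' - b)) * ((b - b') + (b' - b)) ≤ 4 * (A - A') * (C - C'))) := by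
  have h1 : (Bool.rec false (Bool.rec (Bool.rec (Bool.rec (Bool.rec false
      (Bool.rec false k (Nat.ble (((b - b') + (b' - b)) * ((b - b') + (b' - b)))
        (4 * (A - A') * (C - C'))))
      (Nat.ble C' C))
      k (Nat.ble (2 * A * t1 + b) (2 * A' * t1 + b')))
      k (Nat.ble (2 * A' * t0 + b') (2 * A * t0 + b)))
      k (Nat.ble A A'))
    (Nat.ble ((A' * t1 + b') * t1 + C') ((A * t1 + b) * t1 + C)) : Bool) = true := h
  obtain ⟨h2, h3⟩ := brec_false h1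
  have h2' := ble_iff.1 h2
  rw [brec] at h3
  split_ifs at h3 with h4
  · exact ⟨h3, h2', Or.inl (ble_iff.1 h4)⟩
  rw [brec] at h3
  split_ifs at h3 with h5
  · exact ⟨h3, h2', Or.inr (Or.inl (ble_iff.1 h5))⟩
  rw [brec] at h3
  split_ifs at h3 with h6
  · exact ⟨h3, h2', Or.inr (Or.inr (Or.inl (ble_iff.1 h6)))⟩
  obtain ⟨h7, h8⟩ := brec_false h3
  obtain ⟨h9, h10⟩ := brec_false h8
  exact ⟨h10, h2', Or.inr (Or.inr (Or.inr ⟨ble_iff.1 h7, ble_iff.1 h9⟩))⟩

theorem chk_real {A b C A' b' C' t0 t1 : ℕ}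
    (h0 : (A' * t0 + b') * t0 + C' ≤ (A * t0 + b) * t0 + C)
    (h1 : (A' * t1 + b') * t1 + C' ≤ (A * t1 + b) * t1 + C)
    (h : A ≤ A' ∨ 2 * A' * t0 + b' ≤ 2 * A * t0 + b ∨ 2 * A * t1 + b ≤ 2 * A' * t1 + b' ∨
        (C' ≤ C ∧ ((b - b') + (b' - b)) * ((b - b') + (b' - b)) ≤ 4 * (A - A') * (C - C')))
    {t : ℝ} (ht0 : (t0 : ℝ) ≤ t) (ht1 : t ≤ t1) :
    (A' : ℝ) * t ^ 2 + b' * t + C' ≤ A * t ^ 2 + b * t + C := by
  have e0 : ((A' : ℝ) * t0 + b') * t0 + C' ≤ (A * t0 + b) * t0 + C := by exact_mod_cast h0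
  have e1 : ((A' : ℝ) * t1 + b') * t1 + C' ≤ (A * t1 + b) * t1 + C := by exact_mod_cast h1
  have key := quad_nonneg_on (α := (A : ℝ) - A') (β := (b : ℝ) - b') (γ := (C : ℝ) - C')
    ht0 ht1 (by linarith) (by linarith) (by
      rcases le_total A A' with ha | ha
      · left
        have : (A : ℝ) ≤ A' := by exact_mod_cast ha
        linarith
      · have ha' : (0 : ℝ) ≤ (A : ℝ) - A' := by
          have : (A' : ℝ) ≤ A := by exact_mod_cast ha
          linarith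
        rcases h with h | h | h | ⟨hc, h⟩
        · left
          have : (A : ℝ) ≤ A' := by exact_mod_cast h
          linarith
        · refine Or.inr (Or.inr (Or.inl ⟨ha', ?_⟩))
          have : 2 * (A' : ℝ) * t0 + b' ≤ 2 * A * t0 + b := by exact_mod_cast h
          linarith
        · refine Or.inr (Or.inr (Or.inr ⟨ha', ?_⟩))
          have : 2 * (A : ℝ) * t1 + b ≤ 2 * A' * t1 + b' := by exact_mod_cast h
          linarith
        · refine Or.inr (Or.inl ⟨ha', ?_⟩)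
          have h2 : (((b - b' : ℕ) : ℝ) + ((b' - b : ℕ) : ℝ))
              * (((b - b' : ℕ) : ℝ) + ((b' - b : ℕ) : ℝ))
              ≤ 4 * ((A - A' : ℕ) : ℝ) * ((C - C' : ℕ) : ℝ) := by exact_mod_cast h
          rw [Nat.cast_sub ha, Nat.cast_sub hc] at h2
          have h3 : (((b - b' : ℕ) : ℝ) + ((b' - b : ℕ) : ℝ))
              * (((b - b' : ℕ) : ℝ) + ((b' - b : ℕ) : ℝ)) = ((b : ℝ) - b') ^ 2 := by
            rcases le_total b b' with hb | hb
            · rw [Nat.sub_eq_zero_of_le hb, Nat.cast_sub hb]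
              push_cast
              ring
            · rw [Nat.sub_eq_zero_of_le hb, Nat.cast_sub hb]
              push_cast
              ring
          rw [h3] at h2
          exact h2)
  linarith

/-- discriminant and signs -/
def Fine (a : Atom) : Prop := (a.Bp + a.Bn) ^ 2 ≤ 4 * a.A * a.C ∧ (a.Bp = 0 ∨ a.Bn = 0)

theorem pickK_spec {A Bp Bn C a3 b3p b3n c3 r V D t0 t1 : ℕ} {k : Atom → Bool}
    (h : pickK A Bp Bn C a3 b3p b3n c3 r V D t0 t1 k = true)
    (hf : Fine ⟨A, Bp, Bn, C, V, D⟩)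
    (hg : Fine ⟨r * r * a3, r * r * b3p, r * r * b3n, r * r * c3, V, D⟩) :
    ∃ a : Atom, k a = true ∧ a.V = V ∧ a.D = D ∧ Fine a ∧
      ∀ t : ℝ, (t0 : ℝ) ≤ t → t ≤ t1 → a.ev t = max ((A : ℝ) * t ^ 2 + ((Bp : ℝ) - Bn) * t + C)
        ((r : ℝ) ^ 2 * (a3 * t ^ 2 + ((b3p : ℝ) - b3n) * t + c3)) := by
  simp only [pickK, force_eq] at h
  have h1 : (Bool.rec
    (chk (r * r * a3) (r * r * b3p + Bn) (r * r * c3) A (Bp + r * r * b3n) C t0 t1
      (k (Atom.mk (r * r * a3) (r * r * b3p) (r * r * b3n) (r * r * c3) V D)))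
    (chk A (Bp + r * r * b3n) C (r * r * a3) (r * r * b3p + Bn) (r * r * c3) t0 t1
      (k (Atom.mk A Bp Bn C V D)))
    (Nat.ble ((r * r * a3 * t0 + (r * r * b3p + Bn)) * t0 + r * r * c3)
      ((A * t0 + (Bp + r * r * b3n)) * t0 + C)) : Bool) = true := h
  rw [brec] at h1
  split_ifs at h1 with hc
  · obtain ⟨h2, h3, h4⟩ := chk_spec h1
    refine ⟨_, h2, rfl, rfl, hf, fun t ht0 ht1 => ?_⟩
    have h5 := chk_real (ble_iff.1 hc) h3 h4 ht0 ht1
    rw [Atom.ev, max_eq_left]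
    push_cast at h5
    linarith
  · obtain ⟨h2, h3, h4⟩ := chk_spec h1
    refine ⟨_, h2, rfl, rfl, hg, fun t ht0 ht1 => ?_⟩
    have hc' : (A * t0 + (Bp + r * r * b3n)) * t0 + C
        ≤ (r * r * a3 * t0 + (r * r * b3p + Bn)) * t0 + r * r * c3 := by
      rw [ble_iff, not_le] at hc
      exact hc.le
    have h5 := chk_real hc' h3 h4 ht0 ht1
    rw [Atom.ev, max_eq_right]
    · push_cast
      ring
    · push_cast at h5
      linarith

end Vale.Agent.P030.H440.Bd
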