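import Vale.Agent.P030.H440.Build1

/-!
# P030, route N: correctness of the in-kernel construction of the atoms, second part: one entry
-/

namespace Vale.Agent.P030.H440.Bd

open Vale.Agent.P030.H532
open Vale.Agent.P030.H462

/-- `Im (num conj den)` as a quadratic -/
def imq (p : Piece) : Quad :=
  ⟨p.ay' * p.bx' - p.ax' * p.by', p.ay * p.bx' - p.ax * p.by' + (p.ay' * p.bx - p.ax' * p.By),
    p.ay * p.bx - p.ax * p.By⟩

/-- the constants of the piece are right, the piece lies in the closed upper half plane -/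
def pcOk (N : ℕ) (p : Piece) (s : ℕ) (pc : PC) (t0 t1 : ℤ) : Bool :=
  decide (0 < N) && decide (0 < s) &&
  decide ((pc.c0 : ℤ) = s ^ 2 * N ^ 2 * (p.ax * p.ax + p.ay * p.ay)) &&
  decide ((pc.c1p : ℤ) - pc.c1n = 2 * s ^ 2 * N * (p.ax * p.bx + p.ay * p.By)) &&
  decide ((pc.c2p : ℤ) - pc.c2n = 2 * s ^ 2 * N * (p.ay * p.bx - p.ax * p.By)) &&
  decide ((pc.c3 : ℤ) = s ^ 2 * (p.bx * p.bx + p.By * p.By)) &&
  decide ((pc.b0p : ℤ) - pc.b0n = 2 * s ^ 2 * N ^ 2 * (p.ax * p.ax' + p.ay * p.ay')) &&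
  decide ((pc.b1p : ℤ) - pc.b1n = 2 * s ^ 2 * N *
    (p.ax * p.bx' + p.ay * p.by' + (p.ax' * p.bx + p.ay' * p.By))) &&
  decide ((pc.b2p : ℤ) - pc.b2n = 2 * s ^ 2 * N *
    (p.ay * p.bx' - p.ax * p.by' + (p.ay' * p.bx - p.ax' * p.By))) &&
  decide ((pc.b3p : ℤ) - pc.b3n = 2 * s ^ 2 * (p.bx * p.bx' + p.By * p.by')) &&
  decide (pc.b3p = 0 ∨ pc.b3n = 0) &&
  decide ((pc.a0 : ℤ) = s ^ 2 * N ^ 2 * (p.ax' * p.ax' + p.ay' * p.ay')) &&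
  decide ((pc.a1p : ℤ) - pc.a1n = 2 * s ^ 2 * N * (p.ax' * p.bx' + p.ay' * p.by')) &&
  decide ((pc.a2p : ℤ) - pc.a2n = 2 * s ^ 2 * N * (p.ay' * p.bx' - p.ax' * p.by')) &&
  decide ((pc.a3 : ℤ) = s ^ 2 * (p.bx' * p.bx' + p.by' * p.by')) &&
  (decide (pc.rl = 0) || p.isReal) && (imq p).posOn t0 t1

/-- the content of `pcOk` -/
structure PCok (N : ℕ) (p : Piece) (s : ℕ) (pc : PC) : Prop where
  hN : 0 < N
  hs : 0 < s
  c0 : (pc.c0 : ℤ) = s ^ 2 * N ^ 2 * (p.ax * p.ax + p.ay * p.ay)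
  c1 : (pc.c1p : ℤ) - pc.c1n = 2 * s ^ 2 * N * (p.ax * p.bx + p.ay * p.By)
  c2 : (pc.c2p : ℤ) - pc.c2n = 2 * s ^ 2 * N * (p.ay * p.bx - p.ax * p.By)
  c3 : (pc.c3 : ℤ) = s ^ 2 * (p.bx * p.bx + p.By * p.By)
  b0 : (pc.b0p : ℤ) - pc.b0n = 2 * s ^ 2 * N ^ 2 * (p.ax * p.ax' + p.ay * p.ay')
  b1 : (pc.b1p : ℤ) - pc.b1n = 2 * s ^ 2 * N *
    (p.ax * p.bx' + p.ay * p.by' + (p.ax' * p.bx + p.ay' * p.By))
  b2 : (pc.b2p : ℤ) - pc.b2n = 2 * s ^ 2 * N *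
    (p.ay * p.bx' - p.ax * p.by' + (p.ay' * p.bx - p.ax' * p.By))
  b3 : (pc.b3p : ℤ) - pc.b3n = 2 * s ^ 2 * (p.bx * p.bx' + p.By * p.by')
  b3s : pc.b3p = 0 ∨ pc.b3n = 0
  a0 : (pc.a0 : ℤ) = s ^ 2 * N ^ 2 * (p.ax' * p.ax' + p.ay' * p.ay')
  a1 : (pc.a1p : ℤ) - pc.a1n = 2 * s ^ 2 * N * (p.ax' * p.bx' + p.ay' * p.by')
  a2 : (pc.a2p : ℤ) - pc.a2n = 2 * s ^ 2 * N * (p.ay' * p.bx' - p.ax' * p.by')
  a3 : (pc.a3 : ℤ) = s ^ 2 * (p.bx' * p.bx' + p.by' * p.by')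
  rl : pc.rl = 0 ∨ p.isReal = true

theorem pcOk_spec {N : ℕ} {p : Piece} {s : ℕ} {pc : PC} {t0 t1 : ℤ}
    (h : pcOk N p s pc t0 t1 = true) : PCok N p s pc ∧ (imq p).posOn t0 t1 = true := by
  simp only [pcOk, Bool.and_eq_true, Bool.or_eq_true, decide_eq_true_eq] at h
  obtain ⟨⟨⟨⟨⟨⟨⟨⟨⟨⟨⟨⟨⟨⟨⟨⟨h1, h2⟩, h3⟩, h4⟩, h5⟩, h6⟩, h7⟩, h8⟩, h9⟩, h10⟩, h11⟩, h12⟩, h13⟩, h14⟩,
    h15⟩, h16⟩, h17⟩ := h
  exact ⟨⟨h1, h2, h3, h4, h5, h6, h7, h8, h9, h10, h11, h12, h13, h14, h15, h16⟩, h17⟩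

/-- the form `N z - (X - Y i)` -/
def lin (N : ℕ) (X Y : ℤ) : TA.Lin := ⟨1, N, 0, -X, Y⟩

/-- the constant form -/
def cst (r : ℕ) : TA.Lin := ⟨1, 0, 0, r, 0⟩

theorem nat_sub_of_int {P M : ℕ} {z : ℤ} (h : (P : ℤ) - M = z) (hz : 0 ≤ z) :
    ((P - M : ℕ) : ℤ) = z := by omega

theorem qd_A_nonneg (p : Piece) (s : ℕ) (l : TA.Lin) : 0 ≤ (TA.qd p s l).A := by
  simp only [TA.qd]
  have h1 : (0 : ℤ) ≤ (s : ℤ) ^ 2 * l.m := by positivity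
  exact mul_nonneg h1 (add_nonneg (mul_self_nonneg _) (mul_self_nonneg _))

theorem qd_C_nonneg (p : Piece) (s : ℕ) (l : TA.Lin) : 0 ≤ (TA.qd p s l).C := by
  simp only [TA.qd]
  have h1 : (0 : ℤ) ≤ (s : ℤ) ^ 2 * l.m := by positivity
  exact mul_nonneg h1 (add_nonneg (mul_self_nonneg _) (mul_self_nonneg _))

theorem disc_aux (k u v u' v' : ℤ) : (k * (2 * (u * u' + v * v'))) ^ 2
    ≤ 4 * (k * (u' * u' + v' * v')) * (k * (u * u + v * v)) := by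
  have h : 4 * (k * (u' * u' + v' * v')) * (k * (u * u + v * v))
      = (k * (2 * (u * u' + v * v'))) ^ 2 + (2 * k * (u * v' - v * u')) ^ 2 := by ring
  rw [h]
  linarith [sq_nonneg (2 * k * (u * v' - v * u'))]

theorem qd_disc (p : Piece) (s : ℕ) (l : TA.Lin) :
    (TA.qd p s l).B ^ 2 ≤ 4 * (TA.qd p s l).A * (TA.qd p s l).C := by
  simp only [TA.qd]
  exact disc_aux _ _ _ _ _

/-- numbers represent a quadratic -/
structure Rep (A Bp Bn C : ℕ) (Q : Quad) : Prop where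
  A : (A : ℤ) = Q.A
  B : (Bp : ℤ) - Bn = Q.B
  C : (C : ℤ) = Q.C
  s : Bp = 0 ∨ Bn = 0

theorem Rep.fine {A Bp Bn C : ℕ} {Q : Quad} (h : Rep A Bp Bn C Q)
    (hQ : Q.B ^ 2 ≤ 4 * Q.A * Q.C) (V D : ℕ) : Fine ⟨A, Bp, Bn, C, V, D⟩ := by
  refine ⟨?_, h.s⟩
  have h1 : (((Bp + Bn) ^ 2 : ℕ) : ℤ) ≤ ((4 * A * C : ℕ) : ℤ) := by
    push_cast
    rw [h.A, h.C]
    refine le_trans (le_of_eq ?_) hQ
    rw [← h.B]
    rcases h.s with h2 | h2 <;> rw [h2] <;> push_cast <;> ring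
  exact_mod_cast h1

theorem Rep.ev {A Bp Bn C : ℕ} {Q : Quad} (h : Rep A Bp Bn C Q) (t : ℝ) :
    (A : ℝ) * t ^ 2 + ((Bp : ℝ) - Bn) * t + C = Q.ev t := by
  have e1 : (A : ℝ) = Q.A := by exact_mod_cast congrArg (Int.cast : ℤ → ℝ) h.A
  have e2 : (Bp : ℝ) - Bn = Q.B := by exact_mod_cast congrArg (Int.cast : ℤ → ℝ) h.B
  have e3 : (C : ℝ) = Q.C := by exact_mod_cast congrArg (Int.cast : ℤ → ℝ) h.C
  rw [Quad.ev, e1, e2, e3]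

theorem quadK_gen {N s : ℕ} {p : Piece} {pc : PC} (h : PCok N p s pc) {xp xn y : ℕ}
    (hx : xp = 0 ∨ xn = 0) {Y : ℤ} {c2p c2n b2p b2n a2p a2n : ℕ}
    (hc : ((c2p : ℤ) - c2n) * y = 2 * s ^ 2 * N * (p.ay * p.bx - p.ax * p.By) * Y)
    (hb : ((b2p : ℤ) - b2n) * y = 2 * s ^ 2 * N *
      (p.ay * p.bx' - p.ax * p.by' + (p.ay' * p.bx - p.ax' * p.By)) * Y)
    (ha : ((a2p : ℤ) - a2n) * y = 2 * s ^ 2 * N * (p.ay' * p.bx' - p.ax' * p.by') * Y)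
    (hY : Y * Y = y * y) {k : ℕ → ℕ → ℕ → ℕ → Bool}
    (hk : quadK pc.c0 pc.c1p pc.c1n c2p c2n pc.c3 pc.b0p pc.b0n pc.b1p pc.b1n b2p b2n pc.b3p
      pc.b3n pc.a0 pc.a1p pc.a1n a2p a2n pc.a3 xp xn y ((xp + xn) * (xp + xn) + y * y) k = true) :
    ∃ A Bp Bn C, k A Bp Bn C = true ∧
      Rep A Bp Bn C (TA.qd p s (lin N ((xp : ℤ) - xn) Y)) := by
  rw [quadK_eq] at hk
  refine ⟨_, _, _, _, hk, ?_⟩
  have hxx : ((xp : ℤ) + xn) * (xp + xn) = (xp - xn) * (xp - xn) := by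
    rcases hx with h | h <;> rw [h] <;> push_cast <;> ring
  constructor
  · refine nat_sub_of_int ?_ (qd_A_nonneg _ _ _)
    simp only [TA.qd, lin]
    push_cast
    rw [hxx, h.a0, h.a3]
    linear_combination (-((xp : ℤ) - xn)) * h.a1 + ha
      - (s : ℤ) ^ 2 * (p.bx' * p.bx' + p.by' * p.by') * hY
  · have e : ((((pc.b0p + pc.b1p * xn + pc.b1n * xp + b2p * y
        + pc.b3p * ((xp + xn) * (xp + xn) + y * y))
        - (pc.b0n + pc.b1p * xp + pc.b1n * xn + b2n * y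
        + pc.b3n * ((xp + xn) * (xp + xn) + y * y)) : ℕ)) : ℤ)
        - (((pc.b0n + pc.b1p * xp + pc.b1n * xn + b2n * y
        + pc.b3n * ((xp + xn) * (xp + xn) + y * y))
        - (pc.b0p + pc.b1p * xn + pc.b1n * xp + b2p * y
        + pc.b3p * ((xp + xn) * (xp + xn) + y * y)) : ℕ) : ℤ)
        = ((pc.b0p + pc.b1p * xn + pc.b1n * xp + b2p * y
        + pc.b3p * ((xp + xn) * (xp + xn) + y * y) : ℕ) : ℤ)
        - ((pc.b0n + pc.b1p * xp + pc.b1n * xn + b2n * y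
        + pc.b3n * ((xp + xn) * (xp + xn) + y * y) : ℕ) : ℤ) := by omega
    rw [e]
    simp only [TA.qd, lin]
    push_cast
    rw [hxx]
    linear_combination h.b0 + (-((xp : ℤ) - xn)) * h.b1 + hb
      + (((xp : ℤ) - xn) * (xp - xn) + y * y) * h.b3
      - 2 * (s : ℤ) ^ 2 * (p.bx * p.bx' + p.By * p.by') * hY
  · refine nat_sub_of_int ?_ (qd_C_nonneg _ _ _)
    simp only [TA.qd, lin]
    push_cast
    rw [hxx, h.c0, h.c3]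
    linear_combination (-((xp : ℤ) - xn)) * h.c1 + hc
      - (s : ℤ) ^ 2 * (p.bx * p.bx + p.By * p.By) * hY
  · rcases le_total (pc.b0p + pc.b1p * xn + pc.b1n * xp + b2p * y
        + pc.b3p * ((xp + xn) * (xp + xn) + y * y)) (pc.b0n + pc.b1p * xp + pc.b1n * xn + b2n * y
        + pc.b3n * ((xp + xn) * (xp + xn) + y * y)) with h1 | h1
    · exact Or.inl (Nat.sub_eq_zero_of_le h1)
    · exact Or.inr (Nat.sub_eq_zero_of_le h1)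

/-- the constant form on the piece -/
theorem rep_in {N s : ℕ} {p : Piece} {pc : PC} (h : PCok N p s pc) (r : ℕ) :
    Rep (r * r * pc.a3) (r * r * pc.b3p) (r * r * pc.b3n) (r * r * pc.c3)
      (TA.qd p s (cst r)) := by
  constructor
  · simp only [TA.qd, cst]
    push_cast
    rw [h.a3]
    ring
  · simp only [TA.qd, cst]
    push_cast
    linear_combination (r : ℤ) * r * h.b3
  · simp only [TA.qd, cst]
    push_cast
    rw [h.c3]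
    ring
  · rcases h.b3s with h1 | h1 <;> rw [h1] <;> simp

end Vale.Agent.P030.H440.Bd
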