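import Vale.Agent.P030.H440.Build2

/-!
# P030, route N: correctness of the in-kernel construction of the atoms, third part: one entry
-/

namespace Vale.Agent.P030.H440.Bd

open Vale.Agent.P030.H532
open Vale.Agent.P030.H462

/-- the charges -/
def KEnt.q (e : KEnt) : List ℤ := (List.range 8).map fun b => (fld e.v b : ℤ) - e.sh

/-- the entry in the format of H462 -/
def KEnt.toEnt (N : ℕ) (e : KEnt) : TA.Ent :=
  match e.kd with
  | 0 => ⟨lin N ((e.xp : ℤ) - e.xn) e.y, lin N ((e.xp : ℤ) - e.xn) (-(e.y : ℤ)), false, e.q⟩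
  | 1 => ⟨lin N ((e.xp : ℤ) - e.xn) (-(e.y : ℤ)), cst e.r, true, e.q⟩
  | _ + 2 => ⟨lin N ((e.xp : ℤ) - e.xn) 0, cst e.r, false, e.q⟩

/-- multiplicity -/
def KEnt.mult (e : KEnt) : ℕ :=
  match e.kd with
  | 0 => 1
  | 1 => 2
  | _ + 2 => 1

/-- static conditions on an entry -/
def KEnt.ok (e : KEnt) : Bool :=
  decide ((e.xp = 0 ∨ e.xn = 0) ∧ e.v < 2 ^ 768 ∧ e.d < 2 ^ 31) &&
  ((List.range 8).all fun b => decide (fld e.v b ≤ e.d)) &&
  (match e.kd with
  | 0 => decide (0 < e.y)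
  | 1 => decide (0 < e.r ∧ e.r ≤ e.y)
  | _ + 2 => decide (0 < e.r ∧ e.y = 0))

/-! ### packed charges -/

theorem fld_high {v b : ℕ} (hv : v < 2 ^ 768) (hb : 8 ≤ b) : fld v b = 0 := by
  rw [fld, Nat.div_eq_of_lt, Nat.zero_mod]
  exact lt_of_lt_of_le hv (Nat.pow_le_pow_right (by norm_num) (by omega))

theorem fld_le_of {v d : ℕ} (hv : v < 2 ^ 768)
    (h : ((List.range 8).all fun b => decide (fld v b ≤ d)) = true) (b : ℕ) : fld v b ≤ d := by
  rw [List.all_eq_true] at h
  rcases lt_or_ge b 8 with hb | hb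
  · exact of_decide_eq_true (h b (List.mem_range.2 hb))
  · rw [fld_high hv hb]
    exact Nat.zero_le _

theorem fld_double {v b : ℕ} (hv : v < 2 ^ (96 * 16)) (hf : ∀ b < 16, fld v b < 2 ^ 32)
    (hb : b < 16) : fld (v + v) b = 2 * fld v b := by
  have h := fld_dot [()] (fun _ => v) (fun _ => 2) (fun _ _ => hv) (fun _ _ => hf)
    (fun _ _ => by norm_num) (by simp) hb
  simp only [List.map_cons, List.map_nil, List.sum_cons, List.sum_nil, add_zero] at h
  rw [← two_mul, mul_comm 2 v, h, mul_comm]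

/-! ### logarithm of the maximum of the two forms -/

theorem qd_scale (p : Piece) (s : ℕ) (l : TA.Lin) {t : ℝ} (hd : p.den t ≠ 0) :
    (TA.qd p s l).ev t = (s * ‖p.den t‖) ^ 2 * l.ev (p.z t) := by
  rw [TA.qd_ev, TA.Lin.ev, Piece.z]
  have : l.a * p.num t + l.b * p.den t = (l.a * (p.num t / p.den t) + l.b) * p.den t := by
    field_simp
  rw [this, norm_mul]
  ring

theorem log_max {e : TA.Ent} (hnd : e.nd = true) (p : Piece) {s : ℕ} (hs : 0 < s) {t : ℝ}
    (hd : p.den t ≠ 0) :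
    Real.log (max ((TA.qd p s e.f).ev t) ((TA.qd p s e.g).ev t))
      = 2 * TA.lmax e.f e.g (p.z t) + 2 * Real.log (s * ‖p.den t‖) := by
  have hs' : (0 : ℝ) < s := by exact_mod_cast hs
  have hdn : 0 < ‖p.den t‖ := norm_pos_iff.2 hd
  rw [qd_scale p s e.f hd, qd_scale p s e.g hd, ← mul_max_of_nonneg _ _ (by positivity)]
  have hpos : 0 < max (e.f.ev (p.z t)) (e.g.ev (p.z t)) := by
    have := TA.max_pos hnd (x := p.z t) (y := 1) one_ne_zero
    simpa [TA.Lin.ev] using this
  rw [Real.log_mul (by positivity) hpos.ne', Real.log_pow, TA.lmax]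
  push_cast
  ring

theorem imq_ev (p : Piece) (t : ℝ) :
    (imq p).ev t = (p.num t * (starRingEnd ℂ) (p.den t)).im := by
  simp only [imq, Quad.ev, Piece.num, Piece.den, Complex.mul_im, Complex.mul_re,
    Complex.add_re, Complex.add_im, Complex.ofReal_re, Complex.ofReal_im, Complex.intCast_re,
    Complex.intCast_im, Complex.I_re, Complex.I_im, Complex.conj_re, Complex.conj_im]
  push_cast
  ring

theorem ev_upper (p : Piece) (s N : ℕ) (X : ℤ) (y : ℕ) {t : ℝ} (h : 0 ≤ (imq p).ev t) :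
    (TA.qd p s (lin N X (-(y : ℤ)))).ev t ≤ (TA.qd p s (lin N X y)).ev t := by
  have e : (TA.qd p s (lin N X y)).ev t - (TA.qd p s (lin N X (-(y : ℤ)))).ev t
      = 4 * (s : ℝ) ^ 2 * N * y * (imq p).ev t := by
    simp only [TA.qd, lin, imq, Quad.ev]
    push_cast
    ring
  have : 0 ≤ 4 * (s : ℝ) ^ 2 * N * y * (imq p).ev t := by positivity
  linarith

theorem ev_circ (p : Piece) (s N : ℕ) (X : ℤ) {y r : ℕ} (hr : r ≤ y) {t : ℝ}
    (h : 0 ≤ (imq p).ev t) (hd : p.den t ≠ 0) :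
    (TA.qd p s (cst r)).ev t ≤ (TA.qd p s (lin N X y)).ev t := by
  have hdn : 0 < ‖p.den t‖ := norm_pos_iff.2 hd
  rw [TA.qd_ev, TA.qd_ev]
  have e1 : (cst r).a * p.num t + (cst r).b * p.den t = (r : ℂ) * p.den t := by
    simp [cst, TA.Lin.a, TA.Lin.b]
  set w := (lin N X y).a * p.num t + (lin N X y).b * p.den t with hw
  have him : (w * (starRingEnd ℂ) (p.den t)).im = N * (imq p).ev t + y * ‖p.den t‖ ^ 2 := by
    have e2 : w * (starRingEnd ℂ) (p.den t)
        = (N : ℂ) * (p.num t * (starRingEnd ℂ) (p.den t))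
          + (((-X : ℤ) : ℂ) + ((y : ℤ) : ℂ) * Complex.I) * ((‖p.den t‖ ^ 2 : ℝ) : ℂ) := by
      have e3 : ((‖p.den t‖ ^ 2 : ℝ) : ℂ) = p.den t * (starRingEnd ℂ) (p.den t) := by
        rw [Complex.mul_conj, Complex.normSq_eq_norm_sq]
      rw [e3, hw]
      simp only [lin, TA.Lin.a, TA.Lin.b]
      push_cast
      ring
    rw [e2, imq_ev]
    simp only [Complex.add_im, Complex.mul_im, Complex.natCast_re, Complex.natCast_im,
      Complex.ofReal_re, Complex.ofReal_im, Complex.add_re, Complex.mul_re, Complex.intCast_re,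
      Complex.intCast_im, Complex.I_re, Complex.I_im]
    push_cast
    ring
  have h2 : (y : ℝ) * ‖p.den t‖ ^ 2 ≤ ‖w‖ * ‖p.den t‖ := by
    have h3 : (w * (starRingEnd ℂ) (p.den t)).im ≤ ‖w * (starRingEnd ℂ) (p.den t)‖ :=
      (le_abs_self _).trans (Complex.abs_im_le_norm _)
    rw [norm_mul, Complex.norm_conj, him] at h3
    have h4 : 0 ≤ (N : ℝ) * (imq p).ev t := by positivity
    linarith
  have h5 : (y : ℝ) * ‖p.den t‖ ≤ ‖w‖ := by
    have : ((y : ℝ) * ‖p.den t‖) * ‖p.den t‖ ≤ ‖w‖ * ‖p.den t‖ := by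
      calc ((y : ℝ) * ‖p.den t‖) * ‖p.den t‖ = (y : ℝ) * ‖p.den t‖ ^ 2 := by ring
        _ ≤ _ := h2
    exact le_of_mul_le_mul_right this hdn
  have h6 : ‖(r : ℂ) * p.den t‖ ≤ ‖w‖ := by
    rw [norm_mul, Complex.norm_natCast]
    have hr' : (r : ℝ) ≤ y := by exact_mod_cast hr
    exact (mul_le_mul_of_nonneg_right hr' hdn.le).trans h5
  rw [e1]
  have hm : ((lin N X y).m : ℝ) = (cst r).m := rfl
  rw [hm]
  have h7 : ‖(r : ℂ) * p.den t‖ ^ 2 ≤ ‖w‖ ^ 2 := pow_le_pow_left₀ (norm_nonneg _) h6 2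
  have h8 : (0 : ℝ) ≤ (cst r).m := Nat.cast_nonneg _
  have h9 : (0 : ℝ) ≤ (s : ℝ) ^ 2 := by positivity
  exact mul_le_mul_of_nonneg_left (mul_le_mul_of_nonneg_left h7 h8) h9

theorem lin_cj (N : ℕ) (X Y : ℤ) : (lin N X Y).cj = lin N X (-Y) := by
  simp [lin, TA.Lin.cj]

theorem cst_cj (r : ℕ) : (cst r).cj = cst r := by
  simp [cst, TA.Lin.cj]

theorem nd_K {N y : ℕ} (hN : 0 < N) (hy : 0 < y) (X : ℤ) (m : Bool) (q : List ℤ) :
    (TA.Ent.mk (lin N X y) (lin N X (-(y : ℤ))) m q).nd = true := by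
  have h1 : (0 : ℤ) < N * y := by positivity
  unfold TA.Ent.nd
  rw [decide_eq_true_eq]
  refine ⟨Nat.one_pos, Nat.one_pos, Or.inr ?_⟩
  simp only [lin]
  intro h
  have : (N : ℤ) * y = 0 := by linarith
  omega

theorem nd_C {N r : ℕ} (hN : 0 < N) (hr : 0 < r) (X Y : ℤ) (m : Bool) (q : List ℤ) :
    (TA.Ent.mk (lin N X Y) (cst r) m q).nd = true := by
  have h1 : (0 : ℤ) < N * r := by positivity
  unfold TA.Ent.nd
  rw [decide_eq_true_eq]
  refine ⟨Nat.one_pos, Nat.one_pos, Or.inl ?_⟩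
  simp only [lin, cst]
  intro h
  have : (N : ℤ) * r = 0 := by linarith
  omega

/-! ### one entry -/

/-- what has been built for one entry -/
structure Step (N : ℕ) (p : Piece) (s t0 t1 : ℕ) (e : KEnt) (la : List Atom) : Prop where
  fine : ∀ a ∈ la, Fine a
  V : ∀ a ∈ la, a.V < 2 ^ (96 * 16) ∧ (∀ b < 16, fld a.V b < 2 ^ 32) ∧ ∀ b < 16, fld a.V b ≤ a.D
  fl : ∀ b < 16, (la.map fun a => fld a.V b).sum = e.mult * fld e.v b
  dd : (la.map fun a => a.D).sum = e.mult * e.d
  ev : ∀ t : ℝ, (t0 : ℝ) ≤ t → t ≤ t1 → p.den t ≠ 0 → 0 ≤ (imq p).ev t → ∀ b < 16,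
    (la.map fun a => ((fld a.V b : ℕ) : ℝ) * Real.log (a.ev t)).sum
      = ((fld e.v b : ℕ) : ℝ) * (2 * (e.toEnt N).U (p.z t)
        + e.mult * (2 * Real.log (s * ‖p.den t‖)))
  len : la.length ≤ 2

theorem stepB_spec {N s : ℕ} {p : Piece} {pc : PC} (h : PCok N p s pc) {t0 t1 : ℕ} (e : KEnt)
    (he : e.ok = true) {acc : List Atom} {ih : List Atom → Bool}
    (hk : stepB pc.c0 pc.c1p pc.c1n pc.c2p pc.c2n pc.c3 pc.b0p pc.b0n pc.b1p pc.b1n pc.b2p pc.b2n
      pc.b3p pc.b3n pc.a0 pc.a1p pc.a1n pc.a2p pc.a2n pc.a3 pc.rl t0 t1 e.kd e.xp e.xn e.y e.r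
      e.v e.d acc ih = true) :
    ∃ la, ih (la ++ acc) = true ∧ Step N p s t0 t1 e la := by
  obtain ⟨kd, xp, xn, y, r, v, sh, d⟩ := e
  simp only [KEnt.ok, Bool.and_eq_true] at he
  obtain ⟨⟨he1, he2⟩, he3⟩ := he
  obtain ⟨hx, hv, hd31⟩ := of_decide_eq_true he1
  have hfd := fld_le_of hv he2
  have hv16 : v < 2 ^ (96 * 16) :=
    lt_of_lt_of_le hv (Nat.pow_le_pow_right (by norm_num) (by norm_num))
  have hf32 : ∀ b < 16, fld v b < 2 ^ 32 := fun b _ =>
    lt_of_le_of_lt (hfd b) (lt_trans hd31 (by norm_num))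
  have hYc : ((y : ℕ) : ℤ) * y = y * y := rfl
  have hYu : (-((y : ℕ) : ℤ)) * (-(y : ℤ)) = y * y := by ring
  have hc := h.c2
  have hb := h.b2
  have ha := h.a2
  have hcc : ((pc.c2p : ℤ) - pc.c2n) * y
      = 2 * s ^ 2 * N * (p.ay * p.bx - p.ax * p.By) * ((y : ℕ) : ℤ) := by rw [hc]
  have hbc : ((pc.b2p : ℤ) - pc.b2n) * y = 2 * s ^ 2 * N *
      (p.ay * p.bx' - p.ax * p.by' + (p.ay' * p.bx - p.ax' * p.By)) * ((y : ℕ) : ℤ) := by rw [hb]
  have hac : ((pc.a2p : ℤ) - pc.a2n) * y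
      = 2 * s ^ 2 * N * (p.ay' * p.bx' - p.ax' * p.by') * ((y : ℕ) : ℤ) := by rw [ha]
  have hcu : ((pc.c2n : ℤ) - pc.c2p) * y
      = 2 * s ^ 2 * N * (p.ay * p.bx - p.ax * p.By) * (-(y : ℤ)) := by
    linear_combination (-(y : ℤ)) * hc
  have hbu : ((pc.b2n : ℤ) - pc.b2p) * y = 2 * s ^ 2 * N *
      (p.ay * p.bx' - p.ax * p.by' + (p.ay' * p.bx - p.ax' * p.By)) * (-(y : ℤ)) := by
    linear_combination (-(y : ℤ)) * hb
  have hau : ((pc.a2n : ℤ) - pc.a2p) * y
      = 2 * s ^ 2 * N * (p.ay' * p.bx' - p.ax' * p.by') * (-(y : ℤ)) := by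
    linear_combination (-(y : ℤ)) * ha
  simp only [stepB, force_eq] at hk
  cases kd with
  | zero =>
    have hk' : quadK pc.c0 pc.c1p pc.c1n pc.c2p pc.c2n pc.c3 pc.b0p pc.b0n pc.b1p pc.b1n pc.b2p
      pc.b2n pc.b3p pc.b3n pc.a0 pc.a1p pc.a1n pc.a2p pc.a2n pc.a3 xp xn y
      ((xp + xn) * (xp + xn) + y * y)
      (fun A Bp Bn C => ih (⟨A, Bp, Bn, C, v, d⟩ :: acc)) = true := hk
    obtain ⟨A, Bp, Bn, C, h1, h2⟩ := quadK_gen h hx hcc hbc hac hYc hk'
    have hy : 0 < y := of_decide_eq_true he3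
    refine ⟨[⟨A, Bp, Bn, C, v, d⟩], h1, ?_, ?_, ?_, ?_, ?_, ?_⟩
    · intro a hm
      rw [List.mem_singleton.1 hm]
      exact h2.fine (qd_disc _ _ _) _ _
    · intro a hm
      rw [List.mem_singleton.1 hm]
      exact ⟨hv16, hf32, fun b _ => hfd b⟩
    · intro b _
      simp [KEnt.mult]
    · simp [KEnt.mult]
    · intro t _ _ hd him b _
      simp only [List.map_cons, List.map_nil, List.sum_cons, List.sum_nil, add_zero]
      have h3 : (Atom.mk A Bp Bn C v d).ev t
          = max ((TA.qd p s (lin N ((xp : ℤ) - xn) y)).ev t)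
            ((TA.qd p s (lin N ((xp : ℤ) - xn) (-(y : ℤ)))).ev t) := by
        rw [max_eq_left (ev_upper p s N _ y him), ← h2.ev t]
        rfl
      have h4 := log_max (nd_K h.hN hy ((xp : ℤ) - xn) false
        (KEnt.mk 0 xp xn y r v sh d).q) p h.hs hd
      rw [h3, h4]
      simp only [KEnt.mult, KEnt.toEnt, TA.Ent.U]
      push_cast
      ring
    · simp
  | succ kd =>
    cases kd with
    | zero =>
      obtain ⟨hr0, hry⟩ := of_decide_eq_true he3
      have hnd := nd_C h.hN hr0 ((xp : ℤ) - xn) (-(y : ℤ)) true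
        (KEnt.mk 1 xp xn y r v sh d).q
      have hndc := TA.nd_cj hnd
      simp only [lin_cj, cst_cj, neg_neg] at hndc
      have hUc : ∀ z, TA.lmax (lin N ((xp : ℤ) - xn) (-(y : ℤ))).cj (cst r).cj z
          = TA.lmax (lin N ((xp : ℤ) - xn) y) (cst r) z := by
        intro z
        rw [lin_cj, cst_cj, neg_neg]
      cases hrl : pc.rl with
      | zero =>
        rw [hrl] at hk
        have hk' : quadK pc.c0 pc.c1p pc.c1n pc.c2p pc.c2n pc.c3 pc.b0p pc.b0n pc.b1p pc.b1n
          pc.b2p pc.b2n pc.b3p pc.b3n pc.a0 pc.a1p pc.a1n pc.a2p pc.a2n pc.a3 xp xn y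
          ((xp + xn) * (xp + xn) + y * y)
          (fun A Bp Bn C =>
            quadK pc.c0 pc.c1p pc.c1n pc.c2n pc.c2p pc.c3 pc.b0p pc.b0n pc.b1p pc.b1n
              pc.b2n pc.b2p pc.b3p pc.b3n pc.a0 pc.a1p pc.a1n pc.a2n pc.a2p pc.a3 xp xn y
              ((xp + xn) * (xp + xn) + y * y)
              (fun A' Bp' Bn' C' => pickK A' Bp' Bn' C' pc.a3 pc.b3p pc.b3n pc.c3 r v d t0 t1
                fun a => ih (a :: ⟨A, Bp, Bn, C, v, d⟩ :: acc))) = true := hk
        obtain ⟨A, Bp, Bn, C, h1, h2⟩ := quadK_gen h hx hcc hbc hac hYc hk'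
        obtain ⟨A', Bp', Bn', C', h3, h4⟩ := quadK_gen h hx hcu hbu hau hYu h1
        obtain ⟨a, h5, h6, h7, h8, h9⟩ := pickK_spec h3 (h4.fine (qd_disc _ _ _) _ _)
          ((rep_in h r).fine (qd_disc _ _ _) _ _)
        refine ⟨[a, ⟨A, Bp, Bn, C, v, d⟩], h5, ?_, ?_, ?_, ?_, ?_, ?_⟩
        · intro x hm
          rcases List.mem_cons.1 hm with rfl | hm
          · exact h8
          · rw [List.mem_singleton.1 hm]
            exact h2.fine (qd_disc _ _ _) _ _
        · intro x hm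
          rcases List.mem_cons.1 hm with rfl | hm
          · rw [h6, h7]
            exact ⟨hv16, hf32, fun b _ => hfd b⟩
          · rw [List.mem_singleton.1 hm]
            exact ⟨hv16, hf32, fun b _ => hfd b⟩
        · intro b _
          simp only [List.map_cons, List.map_nil, List.sum_cons, List.sum_nil, KEnt.mult, h6]
          ring
        · simp only [List.map_cons, List.map_nil, List.sum_cons, List.sum_nil, KEnt.mult, h7]
          ring
        · intro t ht0 ht1 hd him b _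
          simp only [List.map_cons, List.map_nil, List.sum_cons, List.sum_nil, add_zero, h6]
          have e1 : (Atom.mk A Bp Bn C v d).ev t
              = max ((TA.qd p s (lin N ((xp : ℤ) - xn) y)).ev t)
                ((TA.qd p s (cst r)).ev t) := by
            rw [max_eq_left (ev_circ p s N _ hry him hd), ← h2.ev t]
            rfl
          have e2 : a.ev t = max ((TA.qd p s (lin N ((xp : ℤ) - xn) (-(y : ℤ)))).ev t)
                ((TA.qd p s (cst r)).ev t) := by
            rw [h9 t ht0 ht1, h4.ev t, ← (rep_in h r).ev t]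
            push_cast
            ring_nf
          have e3 := log_max hndc p h.hs hd
          have e4 := log_max hnd p h.hs hd
          simp only at e3 e4
          rw [e1, e2, e3, e4]
          simp only [KEnt.mult, KEnt.toEnt, TA.Ent.U, if_true, hUc]
          push_cast
          ring
        · simp
      | succ n =>
        rw [hrl] at hk
        have hk' : quadK pc.c0 pc.c1p pc.c1n pc.c2p pc.c2n pc.c3 pc.b0p pc.b0n pc.b1p pc.b1n
          pc.b2p pc.b2n pc.b3p pc.b3n pc.a0 pc.a1p pc.a1n pc.a2p pc.a2n pc.a3 xp xn y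
          ((xp + xn) * (xp + xn) + y * y)
          (fun A Bp Bn C => ih (⟨A, Bp, Bn, C, v + v, d + d⟩ :: acc)) = true := hk
        obtain ⟨A, Bp, Bn, C, h1, h2⟩ := quadK_gen h hx hcc hbc hac hYc hk'
        have hreal : p.isReal = true := by
          rcases h.rl with h3 | h3
          · rw [hrl] at h3
            exact absurd h3 (Nat.succ_ne_zero n)
          · exact h3
        have hvv : v + v < 2 ^ (96 * 16) := by
          have : v + v < 2 ^ 769 := by
            have e : (2 : ℕ) ^ 769 = 2 ^ 768 * 2 := pow_succ 2 768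
            omega
          exact lt_of_lt_of_le this (Nat.pow_le_pow_right (by norm_num) (by norm_num))
        refine ⟨[⟨A, Bp, Bn, C, v + v, d + d⟩], h1, ?_, ?_, ?_, ?_, ?_, ?_⟩
        · intro a hm
          rw [List.mem_singleton.1 hm]
          exact h2.fine (qd_disc _ _ _) _ _
        · intro a hm
          rw [List.mem_singleton.1 hm]
          refine ⟨hvv, fun b hb => ?_, fun b hb => ?_⟩
          · simp only
            rw [fld_double hv16 hf32 hb]
            have h3 := hfd b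
            have e : (2 : ℕ) ^ 32 = 2 ^ 31 + 2 ^ 31 := by norm_num
            omega
          · simp only
            rw [fld_double hv16 hf32 hb]
            have h3 := hfd b
            omega
        · intro b hb
          simp only [List.map_cons, List.map_nil, List.sum_cons, List.sum_nil, KEnt.mult,
            add_zero]
          exact fld_double hv16 hf32 hb
        · simp only [List.map_cons, List.map_nil, List.sum_cons, List.sum_nil, KEnt.mult]
          ring
        · intro t ht0 ht1 hd him b hb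
          simp only [List.map_cons, List.map_nil, List.sum_cons, List.sum_nil, add_zero]
          have e1 : (Atom.mk A Bp Bn C (v + v) (d + d)).ev t
              = max ((TA.qd p s (lin N ((xp : ℤ) - xn) y)).ev t)
                ((TA.qd p s (cst r)).ev t) := by
            rw [max_eq_left (ev_circ p s N _ hry him hd), ← h2.ev t]
            rfl
          have e3 := log_max hndc p h.hs hd
          simp only at e3
          have e5 : TA.lmax (lin N ((xp : ℤ) - xn) (-(y : ℤ))) (cst r) (p.z t)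
              = TA.lmax (lin N ((xp : ℤ) - xn) y) (cst r) (p.z t) := by
            have e6 := TA.lmax_cj (lin N ((xp : ℤ) - xn) (-(y : ℤ))) (cst r) (p.z t)
            rw [TA.isReal_conj hreal, hUc] at e6
            exact e6.symm
          rw [e1, e3, fld_double hv16 hf32 hb]
          simp only [KEnt.mult, KEnt.toEnt, TA.Ent.U, if_true, hUc, e5]
          push_cast
          ring
        · simp
    | succ n =>
      have hk' : quadK pc.c0 pc.c1p pc.c1n pc.c2p pc.c2n pc.c3 pc.b0p pc.b0n pc.b1p pc.b1n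
        pc.b2p pc.b2n pc.b3p pc.b3n pc.a0 pc.a1p pc.a1n pc.a2p pc.a2n pc.a3 xp xn y
        ((xp + xn) * (xp + xn) + y * y)
        (fun A Bp Bn C => pickK A Bp Bn C pc.a3 pc.b3p pc.b3n pc.c3 r v d t0 t1
          fun a => ih (a :: acc)) = true := hk
      obtain ⟨hr0, hy0⟩ := of_decide_eq_true he3
      obtain ⟨A, Bp, Bn, C, h1, h2⟩ := quadK_gen h hx hcc hbc hac hYc hk'
      obtain ⟨a, h5, h6, h7, h8, h9⟩ := pickK_spec h1 (h2.fine (qd_disc _ _ _) _ _)
          ((rep_in h r).fine (qd_disc _ _ _) _ _)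
      refine ⟨[a], h5, ?_, ?_, ?_, ?_, ?_, ?_⟩
      · intro x hm
        rw [List.mem_singleton.1 hm]
        exact h8
      · intro x hm
        rw [List.mem_singleton.1 hm, h6, h7]
        exact ⟨hv16, hf32, fun b _ => hfd b⟩
      · intro b _
        simp [KEnt.mult, h6]
      · simp [KEnt.mult, h7]
      · intro t ht0 ht1 hd him b _
        simp only [List.map_cons, List.map_nil, List.sum_cons, List.sum_nil, add_zero, h6]
        have hy' : ((y : ℕ) : ℤ) = 0 := by
          have hy1 : y = 0 := hy0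
          rw [hy1]
          rfl
        have e2 : a.ev t = max ((TA.qd p s (lin N ((xp : ℤ) - xn) 0)).ev t)
              ((TA.qd p s (cst r)).ev t) := by
          rw [h9 t ht0 ht1, h2.ev t, ← (rep_in h r).ev t, hy']
          push_cast
          ring_nf
        have e4 := log_max (nd_C h.hN hr0 ((xp : ℤ) - xn) 0 false
          (KEnt.mk (n + 2) xp xn y r v sh d).q) p h.hs hd
        simp only at e4
        rw [e2, e4]
        simp only [KEnt.mult, KEnt.toEnt, TA.Ent.U]
        push_cast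
        ring
      · simp

end Vale.Agent.P030.H440.Bd
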