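import Vale.Agent.P030.H532.Engine

/-!
# P030, route N: the atoms of a piece are built in the kernel

Definitions only.  Table entries store packed charges; signed numbers are pairs of natural numbers;
all intermediate values are forced (call by value).
-/

noncomputable section

namespace Vale.Agent.P030.H440.Bd

open Vale.Agent.P030.H532

/-- entry of the table: position `(xp - xn + i y)/N`, radius `r/N`; `kd = 0` Cauchy atom, `kd = 1`
circle and its mirror image, `kd = 2` circle centred on the real line; packed charges `v` (shifted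
by `sh`), `d` = largest shifted charge -/
structure KEnt where
  kd : Nat
  xp : Nat
  xn : Nat
  y : Nat
  r : Nat
  v : Nat
  sh : Nat
  d : Nat

/-- constants of a piece: the coefficients of `s² |N num - c den|²` as affine functions of
`c`, `conj c` and `|c|²` -/
structure PC where
  c0 : Nat
  c1p : Nat
  c1n : Nat
  c2p : Nat
  c2n : Nat
  c3 : Nat
  b0p : Nat
  b0n : Nat
  b1p : Nat
  b1n : Nat
  b2p : Nat
  b2n : Nat
  b3p : Nat
  b3n : Nat
  a0 : Nat
  a1p : Nat
  a1n : Nat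
  a2p : Nat
  a2n : Nat
  a3 : Nat
  rl : Nat

/-- the quadratic `s² |N num - c den|²`, `c = xp - xn - i y`, `S = |c|²` -/
def quadK (c0 c1p c1n c2p c2n c3 b0p b0n b1p b1n b2p b2n b3p b3n a0 a1p a1n a2p a2n a3
    xp xn y S : Nat) (k : Nat → Nat → Nat → Nat → Bool) : Bool :=
  force (Nat.sub (Nat.add (Nat.add (Nat.add (Nat.add a0 (Nat.mul a1p xn)) (Nat.mul a1n xp)) (Nat.mul a2p y)) (Nat.mul a3 S)) (Nat.add (Nat.add (Nat.mul a1p xp) (Nat.mul a1n xn)) (Nat.mul a2n y))) fun A =>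
  force (Nat.add (Nat.add (Nat.add (Nat.add b0p (Nat.mul b1p xn)) (Nat.mul b1n xp)) (Nat.mul b2p y)) (Nat.mul b3p S)) fun P =>
  force (Nat.add (Nat.add (Nat.add (Nat.add b0n (Nat.mul b1p xp)) (Nat.mul b1n xn)) (Nat.mul b2n y)) (Nat.mul b3n S)) fun M =>
  force (Nat.sub P M) fun Bp =>
  force (Nat.sub M P) fun Bn =>
  force (Nat.sub (Nat.add (Nat.add (Nat.add (Nat.add c0 (Nat.mul c1p xn)) (Nat.mul c1n xp)) (Nat.mul c2p y)) (Nat.mul c3 S)) (Nat.add (Nat.add (Nat.mul c1p xp) (Nat.mul c1n xn)) (Nat.mul c2n y))) fun C =>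
  k A Bp Bn C

/-- `(A t + b) t + C ≥ (A' t + b') t + C'` on `[t0, t1]`, given this at `t0` -/
def chk (A b C A' b' C' t0 t1 : Nat) (k : Bool) : Bool :=
  Bool.rec false
    (Bool.rec
      (Bool.rec
        (Bool.rec
          (Bool.rec false
            (Bool.rec false k
              (Nat.ble (Nat.mul (Nat.add (Nat.sub b b') (Nat.sub b' b)) (Nat.add (Nat.sub b b') (Nat.sub b' b))) (Nat.mul (Nat.mul (nat_lit 4) (Nat.sub A A')) (Nat.sub C C'))))
            (Nat.ble C' C))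
          k (Nat.ble (Nat.add (Nat.mul (Nat.mul (nat_lit 2) A) t1) b) (Nat.add (Nat.mul (Nat.mul (nat_lit 2) A') t1) b')))
        k (Nat.ble (Nat.add (Nat.mul (Nat.mul (nat_lit 2) A') t0) b') (Nat.add (Nat.mul (Nat.mul (nat_lit 2) A) t0) b)))
      k (Nat.ble A A'))
    (Nat.ble (Nat.add (Nat.mul (Nat.add (Nat.mul A' t1) b') t1) C') (Nat.add (Nat.mul (Nat.add (Nat.mul A t1) b) t1) C))

/-- outside or inside the disc of radius `r` -/
def pickK (A Bp Bn C a3 b3p b3n c3 r V D t0 t1 : Nat) (k : Atom → Bool) : Bool :=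
  force (Nat.mul r r) fun rr =>
  force (Nat.mul rr a3) fun Ai =>
  force (Nat.mul rr b3p) fun Pi =>
  force (Nat.mul rr b3n) fun Mi =>
  force (Nat.mul rr c3) fun Ci =>
  force (Nat.add Bp Mi) fun b =>
  force (Nat.add Pi Bn) fun b' =>
  Bool.rec
    (chk Ai b' Ci A b C t0 t1 (k (Atom.mk Ai Pi Mi Ci V D)))
    (chk A b C Ai b' Ci t0 t1 (k (Atom.mk A Bp Bn C V D)))
    (Nat.ble (Nat.add (Nat.mul (Nat.add (Nat.mul Ai t0) b') t0) Ci) (Nat.add (Nat.mul (Nat.add (Nat.mul A t0) b) t0) C))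

/-- one entry -/
def stepB (c0 c1p c1n c2p c2n c3 b0p b0n b1p b1n b2p b2n b3p b3n a0 a1p a1n a2p a2n a3 rl
    t0 t1 kd xp xn y r v d : Nat) (acc : List Atom) (ih : List Atom → Bool) : Bool :=
  force (Nat.add (Nat.mul (Nat.add xp xn) (Nat.add xp xn)) (Nat.mul y y)) fun S =>
  Nat.rec
    (quadK c0 c1p c1n c2p c2n c3 b0p b0n b1p b1n b2p b2n b3p b3n a0 a1p a1n a2p a2n a3 xp xn y S
      fun A Bp Bn C => ih (List.cons (Atom.mk A Bp Bn C v d) acc))
    (fun kd' _ => Nat.rec
      (Nat.rec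
        (quadK c0 c1p c1n c2p c2n c3 b0p b0n b1p b1n b2p b2n b3p b3n a0 a1p a1n a2p a2n a3
          xp xn y S fun A Bp Bn C =>
          quadK c0 c1p c1n c2n c2p c3 b0p b0n b1p b1n b2n b2p b3p b3n a0 a1p a1n a2n a2p a3
            xp xn y S fun A' Bp' Bn' C' =>
            pickK A' Bp' Bn' C' a3 b3p b3n c3 r v d t0 t1 fun a =>
              ih (List.cons a (List.cons (Atom.mk A Bp Bn C v d) acc)))
        (fun _ _ =>
          force (Nat.add v v) fun v2 => force (Nat.add d d) fun d2 =>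
          quadK c0 c1p c1n c2p c2n c3 b0p b0n b1p b1n b2p b2n b3p b3n a0 a1p a1n a2p a2n a3
            xp xn y S fun A Bp Bn C => ih (List.cons (Atom.mk A Bp Bn C v2 d2) acc))
        rl)
      (fun _ _ =>
        quadK c0 c1p c1n c2p c2n c3 b0p b0n b1p b1n b2p b2n b3p b3n a0 a1p a1n a2p a2n a3
          xp xn y S fun A Bp Bn C =>
          pickK A Bp Bn C a3 b3p b3n c3 r v d t0 t1 fun a => ih (List.cons a acc))
      kd')
    kd

/-- all entries -/
def bld (c0 c1p c1n c2p c2n c3 b0p b0n b1p b1n b2p b2n b3p b3n a0 a1p a1n a2p a2n a3 rl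
    t0 t1 : Nat) (k : List Atom → Bool) (l : List KEnt) : List Atom → Bool :=
  List.rec (motive := fun _ => List Atom → Bool) (fun acc => k acc)
    (fun e _ ih acc => KEnt.rec (fun kd xp xn y r v _ d =>
      stepB c0 c1p c1n c2p c2n c3 b0p b0n b1p b1n b2p b2n b3p b3n a0 a1p a1n a2p a2n a3 rl
        t0 t1 kd xp xn y r v d acc ih) e) l

/-- **the check of a chunk of cells**: build the atoms, run the engine of H532 -/
def chunk (pc : PC) (ents : List KEnt) (cmps : List Cmp) (cls : List Cell) (t0 t1 : Nat) : Bool :=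
  PC.rec (fun c0 c1p c1n c2p c2n c3 b0p b0n b1p b1n b2p b2n b3p b3n a0 a1p a1n a2p a2n a3 rl =>
    bld c0 c1p c1n c2p c2n c3 b0p b0n b1p b1n b2p b2n b3p b3n a0 a1p a1n a2p a2n a3 rl
      t0 t1 (fun atoms => cells atoms cmps cls t0) ents List.nil) pc

end Vale.Agent.P030.H440.Bd
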