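import Vale.Agent.P030.H440.Rect

/-!
# The Cauchy representation on a rectangular grid

`x 0 < .. < x p`, `y 0 < .. < y q`; `g i j` = function of the cell `[x i, x (i+1)] × [y j, y (j+1)]`
(`i < p`, `j < q`), `ext` = function outside the big rectangle. `grid_inside`, `grid_outside`: the
function of the cell of `a`, at `a`, equals `L + (1/2πi) ∑ over edges of ∫ (jump)(z) / (z - a) dz`,
`L` = the limit of `ext` at infinity.
-/

open Set Filter Topology MeasureTheory Complex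
open scoped Interval Real

noncomputable section

namespace Vale.Agent.P030.H440

/-- a rectangular grid -/
structure Grid where
  p : ℕ
  q : ℕ
  x : ℕ → ℝ
  y : ℕ → ℝ
  x_lt : ∀ i < p, x i < x (i + 1)
  y_lt : ∀ j < q, y j < y (j + 1)

namespace Grid

variable (T : Grid)

/-- closed cell -/
def C (i j : ℕ) : Set ℂ := CR (T.x i) (T.x (i + 1)) (T.y j) (T.y (j + 1))

/-- open cell -/
def O (i j : ℕ) : Set ℂ := OR (T.x i) (T.x (i + 1)) (T.y j) (T.y (j + 1))

/-- the closed big rectangle -/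
def BC : Set ℂ := CR (T.x 0) (T.x T.p) (T.y 0) (T.y T.q)

/-- the open big rectangle -/
def BO : Set ℂ := OR (T.x 0) (T.x T.p) (T.y 0) (T.y T.q)

theorem x_mono {i k : ℕ} (hik : i ≤ k) (hk : k ≤ T.p) : T.x i ≤ T.x k := by
  induction k, hik using Nat.le_induction with
  | base => exact le_rfl
  | succ k hk' ih => exact (ih (by omega)).trans (T.x_lt k (by omega)).le

theorem y_mono {j k : ℕ} (hjk : j ≤ k) (hk : k ≤ T.q) : T.y j ≤ T.y k := by
  induction k, hjk using Nat.le_induction with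
  | base => exact le_rfl
  | succ k hk' ih => exact (ih (by omega)).trans (T.y_lt k (by omega)).le

variable {E : Type*} (g : ℕ → ℕ → ℂ → E) (ext : ℂ → E)

/-- cell functions with a frame: the index `(i + 1, j + 1)` is the cell `(i, j)`, all others are the
exterior -/
def cel (i j : ℕ) : ℂ → E :=
  if 1 ≤ i ∧ i ≤ T.p ∧ 1 ≤ j ∧ j ≤ T.q then g (i - 1) (j - 1) else ext

theorem cel_cell {i j : ℕ} (hi : i < T.p) (hj : j < T.q) : T.cel g ext (i + 1) (j + 1) = g i j := by
  unfold cel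
  rw [if_pos ⟨by omega, by omega, by omega, by omega⟩]
  rfl

theorem cel_left (j : ℕ) : T.cel g ext 0 j = ext := by
  unfold cel
  rw [if_neg (by omega)]

theorem cel_bot (i : ℕ) : T.cel g ext i 0 = ext := by
  unfold cel
  rw [if_neg (by omega)]

theorem cel_right (j : ℕ) : T.cel g ext (T.p + 1) j = ext := by
  unfold cel
  rw [if_neg (by omega)]

theorem cel_top (i : ℕ) : T.cel g ext i (T.q + 1) = ext := by
  unfold cel
  rw [if_neg (by omega)]

variable [NormedAddCommGroup E] [NormedSpace ℂ E]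

/-- jump at the vertical edge `x = x i`, `y j ≤ y ≤ y (j+1)`: left minus right -/
def JV (i j : ℕ) (z : ℂ) : E := T.cel g ext i (j + 1) z - T.cel g ext (i + 1) (j + 1) z

/-- jump at the horizontal edge `y = y j`, `x i ≤ x ≤ x (i+1)`: above minus below -/
def JH (i j : ℕ) (z : ℂ) : E := T.cel g ext (i + 1) (j + 1) z - T.cel g ext (i + 1) j z

/-- the sum over the edges -/
def edgeSum (a : ℂ) : E :=
  (∑ j ∈ Finset.range T.q, ∑ i ∈ Finset.range (T.p + 1),
    VI (fun z => (z - a)⁻¹ • T.JV g ext i j z) (T.x i) (T.y j) (T.y (j + 1))) +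
  ∑ i ∈ Finset.range T.p, ∑ j ∈ Finset.range (T.q + 1),
    HI (fun z => (z - a)⁻¹ • T.JH g ext i j z) (T.x i) (T.x (i + 1)) (T.y j)

/-- regularity of the cell functions -/
structure Reg : Prop where
  cont : ∀ i < T.p, ∀ j < T.q, ContinuousOn (g i j) (T.C i j)
  diff : ∀ i < T.p, ∀ j < T.q, ∀ z ∈ T.O i j, DifferentiableAt ℂ (g i j) z
  cont_ext : ContinuousOn ext T.BOᶜ
  diff_ext : ∀ z ∉ T.BC, DifferentiableAt ℂ ext z

variable {T g ext}

/-- the vertical segments -/
theorem v_mem {i j : ℕ} (hi : i ≤ T.p) (hj : j < T.q) {t : ℝ} (ht : t ∈ [[T.y j, T.y (j + 1)]]) :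
    (i < T.p → (T.x i : ℂ) + t * I ∈ T.C i j) ∧ (0 < i → (T.x i : ℂ) + t * I ∈ T.C (i - 1) j) ∧
      (i = 0 ∨ i = T.p → (T.x i : ℂ) + t * I ∈ T.BOᶜ) := by
  rw [uIcc_of_le (T.y_lt j hj).le] at ht
  refine ⟨fun h => ?_, fun h => ?_, fun h hmem => ?_⟩
  · refine mem_CR.2 ?_
    simp only [re_xy, im_xy]
    exact ⟨⟨le_rfl, (T.x_lt i h).le⟩, ht⟩
  · refine mem_CR.2 ?_
    simp only [re_xy, im_xy]
    have h1 := T.x_lt (i - 1) (by omega)
    rw [Nat.sub_add_cancel h] at h1 ⊢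
    exact ⟨⟨h1.le, le_rfl⟩, ht⟩
  · have h1 := mem_OR.1 hmem
    simp only [re_xy, im_xy] at h1
    rcases h with rfl | rfl
    · exact lt_irrefl _ h1.1.1
    · exact lt_irrefl _ h1.1.2

/-- the horizontal segments -/
theorem h_mem {i j : ℕ} (hi : i < T.p) (hj : j ≤ T.q) {t : ℝ} (ht : t ∈ [[T.x i, T.x (i + 1)]]) :
    (j < T.q → (t : ℂ) + T.y j * I ∈ T.C i j) ∧ (0 < j → (t : ℂ) + T.y j * I ∈ T.C i (j - 1)) ∧
      (j = 0 ∨ j = T.q → (t : ℂ) + T.y j * I ∈ T.BOᶜ) := by
  rw [uIcc_of_le (T.x_lt i hi).le] at ht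
  refine ⟨fun h => ?_, fun h => ?_, fun h hmem => ?_⟩
  · refine mem_CR.2 ?_
    simp only [re_xy, im_xy]
    exact ⟨ht, le_rfl, (T.y_lt j h).le⟩
  · refine mem_CR.2 ?_
    simp only [re_xy, im_xy]
    have h1 := T.y_lt (j - 1) (by omega)
    rw [Nat.sub_add_cancel h] at h1 ⊢
    exact ⟨ht, h1.le, le_rfl⟩
  · have h1 := mem_OR.1 hmem
    simp only [re_xy, im_xy] at h1
    rcases h with rfl | rfl
    · exact lt_irrefl _ h1.2.1
    · exact lt_irrefl _ h1.2.2

/-- continuity of the cell functions along the vertical edges -/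
theorem Reg.cont_v (h : T.Reg g ext) {i j : ℕ} (hi : i ≤ T.p) (hj : j < T.q) :
    ContinuousOn (fun t : ℝ => T.cel g ext i (j + 1) (T.x i + t * I)) [[T.y j, T.y (j + 1)]] ∧
    ContinuousOn (fun t : ℝ => T.cel g ext (i + 1) (j + 1) (T.x i + t * I))
      [[T.y j, T.y (j + 1)]] := by
  constructor
  · rcases Nat.eq_zero_or_pos i with rfl | hi0
    · rw [cel_left]
      exact h.cont_ext.comp (continuous_v _).continuousOn fun t ht =>
        (v_mem hi hj ht).2.2 (Or.inl rfl)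
    · obtain ⟨k, rfl⟩ : ∃ k, i = k + 1 := ⟨i - 1, by omega⟩
      rw [cel_cell T g ext (by omega) hj]
      exact (h.cont k (by omega) j hj).comp (continuous_v _).continuousOn fun t ht =>
        (v_mem hi hj ht).2.1 hi0
  · rcases hi.eq_or_lt with rfl | hi0
    · rw [cel_right]
      exact h.cont_ext.comp (continuous_v _).continuousOn fun t ht =>
        (v_mem hi hj ht).2.2 (Or.inr rfl)
    · rw [cel_cell T g ext hi0 hj]
      exact (h.cont i hi0 j hj).comp (continuous_v _).continuousOn fun t ht =>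
        (v_mem hi hj ht).1 hi0

/-- continuity of the cell functions along the horizontal edges -/
theorem Reg.cont_h (h : T.Reg g ext) {i j : ℕ} (hi : i < T.p) (hj : j ≤ T.q) :
    ContinuousOn (fun t : ℝ => T.cel g ext (i + 1) j (t + T.y j * I)) [[T.x i, T.x (i + 1)]] ∧
    ContinuousOn (fun t : ℝ => T.cel g ext (i + 1) (j + 1) (t + T.y j * I))
      [[T.x i, T.x (i + 1)]] := by
  constructor
  · rcases Nat.eq_zero_or_pos j with rfl | hj0
    · rw [cel_bot]
      exact h.cont_ext.comp (continuous_h _).continuousOn fun t ht =>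
        (h_mem hi hj ht).2.2 (Or.inl rfl)
    · obtain ⟨k, rfl⟩ : ∃ k, j = k + 1 := ⟨j - 1, by omega⟩
      rw [cel_cell T g ext hi (by omega)]
      exact (h.cont i hi k (by omega)).comp (continuous_h _).continuousOn fun t ht =>
        (h_mem hi hj ht).2.1 hj0
  · rcases hj.eq_or_lt with rfl | hj0
    · rw [cel_top]
      exact h.cont_ext.comp (continuous_h _).continuousOn fun t ht =>
        (h_mem hi hj ht).2.2 (Or.inr rfl)
    · rw [cel_cell T g ext hi hj0]
      exact (h.cont i hi j hj0).comp (continuous_h _).continuousOn fun t ht =>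
        (h_mem hi hj ht).1 hj0

/-- `a` is not on the edges -/
def Off (T : Grid) (a : ℂ) : Prop :=
  (∀ i ≤ T.p, ∀ j < T.q, ∀ t ∈ [[T.y j, T.y (j + 1)]], (T.x i : ℂ) + t * I ≠ a) ∧
  ∀ i < T.p, ∀ j ≤ T.q, ∀ t ∈ [[T.x i, T.x (i + 1)]], (t : ℂ) + T.y j * I ≠ a

theorem notMem_C {i j k l : ℕ} (hi : i < T.p) (hj : j < T.q) (hk : k < T.p) (hl : l < T.q)
    (hne : i ≠ k ∨ j ≠ l) {a : ℂ} (ha : a ∈ T.O i j) : a ∉ T.C k l := by
  intro hmem
  obtain ⟨⟨a1, a2⟩, a3, a4⟩ := mem_OR.1 ha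
  obtain ⟨⟨c1, c2⟩, c3, c4⟩ := mem_CR.1 hmem
  rcases hne with h | h
  · rcases lt_or_gt_of_ne h with h | h
    · have h1 := T.x_mono (i := i + 1) (k := k) h (by omega)
      linarith
    · have h1 := T.x_mono (i := k + 1) (k := i) h (by omega)
      linarith
  · rcases lt_or_gt_of_ne h with h | h
    · have h1 := T.y_mono (j := j + 1) (k := l) h (by omega)
      linarith
    · have h1 := T.y_mono (j := l + 1) (k := j) h (by omega)
      linarith

theorem O_subset_BO {i j : ℕ} (hi : i < T.p) (hj : j < T.q) : T.O i j ⊆ T.BO := by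
  intro a ha
  obtain ⟨⟨a1, a2⟩, a3, a4⟩ := mem_OR.1 ha
  have h1 := T.x_mono (i := 0) (k := i) (by omega) (by omega)
  have h2 := T.x_mono (i := i + 1) (k := T.p) (by omega) le_rfl
  have h3 := T.y_mono (j := 0) (k := j) (by omega) (by omega)
  have h4 := T.y_mono (j := j + 1) (k := T.q) (by omega) le_rfl
  exact mem_OR.2 ⟨⟨by linarith, by linarith⟩, by linarith, by linarith⟩

theorem C_subset_BC {i j : ℕ} (hi : i < T.p) (hj : j < T.q) : T.C i j ⊆ T.BC := by
  intro a ha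
  obtain ⟨⟨a1, a2⟩, a3, a4⟩ := mem_CR.1 ha
  have h1 := T.x_mono (i := 0) (k := i) (by omega) (by omega)
  have h2 := T.x_mono (i := i + 1) (k := T.p) (by omega) le_rfl
  have h3 := T.y_mono (j := 0) (k := j) (by omega) (by omega)
  have h4 := T.y_mono (j := j + 1) (k := T.q) (by omega) le_rfl
  exact mem_CR.2 ⟨⟨by linarith, by linarith⟩, by linarith, by linarith⟩

theorem off_of_mem {i j : ℕ} (hi : i < T.p) (hj : j < T.q) {a : ℂ} (ha : a ∈ T.O i j) :
    T.Off a := by
  obtain ⟨⟨a1, a2⟩, a3, a4⟩ := mem_OR.1 ha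
  constructor
  · rintro k hk l hl t - rfl
    simp only [re_xy] at a1 a2
    rcases Nat.lt_or_ge i k with h | h
    · have h1 := T.x_mono (i := i + 1) (k := k) h hk
      linarith
    · have h1 := T.x_mono (i := k) (k := i) h (by omega)
      linarith
  · rintro k hk l hl t - rfl
    simp only [im_xy] at a3 a4
    rcases Nat.lt_or_ge j l with h | h
    · have h1 := T.y_mono (j := j + 1) (k := l) h hl
      linarith
    · have h1 := T.y_mono (j := l) (k := j) h (by omega)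
      linarith

theorem off_of_notMem (hp : 0 < T.p) (hq : 0 < T.q) {a : ℂ} (ha : a ∉ T.BC) : T.Off a := by
  constructor
  · rintro i hi j hj t ht rfl
    rcases Nat.lt_or_ge i T.p with h | h
    · exact ha (C_subset_BC h hj ((v_mem hi hj ht).1 h))
    · have hi0 : 0 < i := by omega
      exact ha (C_subset_BC (by omega) hj ((v_mem hi hj ht).2.1 hi0))
  · rintro i hi j hj t ht rfl
    rcases Nat.lt_or_ge j T.q with h | h
    · exact ha (C_subset_BC hi h ((h_mem hi hj ht).1 h))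
    · have hj0 : 0 < j := by omega
      exact ha (C_subset_BC hi (by omega) ((h_mem hi hj ht).2.1 hj0))

section sums

variable {F : Type*} [AddCommGroup F]

/-- summation by parts -/
theorem sum_parts (n : ℕ) (u : ℕ → ℕ → F) :
    ∑ j ∈ Finset.range (n + 1), (u j (j + 1) - u j j) =
      ∑ j ∈ Finset.range n, (u j (j + 1) - u (j + 1) (j + 1)) + (u n (n + 1) - u 0 0) := by
  rw [Finset.sum_sub_distrib, Finset.sum_sub_distrib, Finset.sum_range_succ,
    Finset.sum_range_succ' (fun j => u j j)]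
  abel

end sums

/-- `K f z = f z / (z - a)` -/
def Kf (a : ℂ) (f : ℂ → E) : ℂ → E := fun z => (z - a)⁻¹ • f z

theorem int_Kv {a : ℂ} {i j : ℕ} {f : ℂ → E}
    (ha : ∀ t ∈ [[T.y j, T.y (j + 1)]], (T.x i : ℂ) + t * I ≠ a)
    (hf : ContinuousOn (fun t : ℝ => f (T.x i + t * I)) [[T.y j, T.y (j + 1)]]) :
    IntervalIntegrable (fun t : ℝ => Kf a f (T.x i + t * I)) volume (T.y j) (T.y (j + 1)) := by
  refine ContinuousOn.intervalIntegrable (ContinuousOn.smul (ContinuousOn.inv₀ ?_ ?_) hf)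
  · fun_prop
  · exact fun t ht => sub_ne_zero.2 (ha t ht)

theorem int_Kh {a : ℂ} {i j : ℕ} {f : ℂ → E}
    (ha : ∀ t ∈ [[T.x i, T.x (i + 1)]], (t : ℂ) + T.y j * I ≠ a)
    (hf : ContinuousOn (fun t : ℝ => f (t + T.y j * I)) [[T.x i, T.x (i + 1)]]) :
    IntervalIntegrable (fun t : ℝ => Kf a f (t + T.y j * I)) volume (T.x i) (T.x (i + 1)) := by
  refine ContinuousOn.intervalIntegrable (ContinuousOn.smul (ContinuousOn.inv₀ ?_ ?_) hf)
  · fun_prop
  · exact fun t ht => sub_ne_zero.2 (ha t ht)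

theorem VI_JV (h : T.Reg g ext) {a : ℂ} (ha : T.Off a) {i j : ℕ} (hi : i ≤ T.p) (hj : j < T.q) :
    VI (fun z => (z - a)⁻¹ • T.JV g ext i j z) (T.x i) (T.y j) (T.y (j + 1)) =
      VI (Kf a (T.cel g ext i (j + 1))) (T.x i) (T.y j) (T.y (j + 1)) -
      VI (Kf a (T.cel g ext (i + 1) (j + 1))) (T.x i) (T.y j) (T.y (j + 1)) := by
  rw [← VI_sub (int_Kv (fun t ht => ha.1 i hi j hj t ht) (h.cont_v hi hj).1)
    (int_Kv (fun t ht => ha.1 i hi j hj t ht) (h.cont_v hi hj).2)]
  unfold JV Kf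
  simp only [smul_sub]

theorem HI_JH (h : T.Reg g ext) {a : ℂ} (ha : T.Off a) {i j : ℕ} (hi : i < T.p) (hj : j ≤ T.q) :
    HI (fun z => (z - a)⁻¹ • T.JH g ext i j z) (T.x i) (T.x (i + 1)) (T.y j) =
      HI (Kf a (T.cel g ext (i + 1) (j + 1))) (T.x i) (T.x (i + 1)) (T.y j) -
      HI (Kf a (T.cel g ext (i + 1) j)) (T.x i) (T.x (i + 1)) (T.y j) := by
  rw [← HI_sub (int_Kh (fun t ht => ha.2 i hi j hj t ht) (h.cont_h hi hj).2)
    (int_Kh (fun t ht => ha.2 i hi j hj t ht) (h.cont_h hi hj).1)]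
  unfold JH Kf
  simp only [smul_sub]

/-- a horizontal side of the big rectangle -/
theorem HI_big {a : ℂ} (ha : T.Off a) (h : ContinuousOn ext T.BOᶜ) {j : ℕ} (hj : j = 0 ∨ j = T.q) :
    ∑ i ∈ Finset.range T.p, HI (Kf a ext) (T.x i) (T.x (i + 1)) (T.y j) =
      HI (Kf a ext) (T.x 0) (T.x T.p) (T.y j) := by
  unfold HI
  refine intervalIntegral.sum_integral_adjacent_intervals (f := fun t : ℝ => Kf a ext (t + T.y j * I))
    (a := T.x) fun i hi => ?_
  have hj' : j ≤ T.q := by omega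
  exact int_Kh (fun t ht => ha.2 i hi j hj' t ht) (h.comp (continuous_h _).continuousOn fun t ht =>
    (h_mem hi hj' ht).2.2 hj)

/-- a vertical side of the big rectangle -/
theorem VI_big {a : ℂ} (ha : T.Off a) (h : ContinuousOn ext T.BOᶜ) {i : ℕ} (hi : i = 0 ∨ i = T.p) :
    ∑ j ∈ Finset.range T.q, VI (Kf a ext) (T.x i) (T.y j) (T.y (j + 1)) =
      VI (Kf a ext) (T.x i) (T.y 0) (T.y T.q) := by
  unfold VI
  rw [← Finset.smul_sum]
  congr 1
  refine intervalIntegral.sum_integral_adjacent_intervals (f := fun t : ℝ => Kf a ext (T.x i + t * I))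
    (a := T.y) fun j hj => ?_
  have hi' : i ≤ T.p := by omega
  exact int_Kv (fun t ht => ha.1 i hi' j hj t ht) (h.comp (continuous_v _).continuousOn fun t ht =>
    (v_mem hi' hj ht).2.2 hi)

/-- **the sum over the edges = the cells minus the exterior** -/
theorem edgeSum_eq (h : T.Reg g ext) {a : ℂ} (ha : T.Off a) :
    T.edgeSum g ext a = (∑ i ∈ Finset.range T.p, ∑ j ∈ Finset.range T.q,
      RI (Kf a (g i j)) (T.x i) (T.x (i + 1)) (T.y j) (T.y (j + 1))) -
      RI (Kf a ext) (T.x 0) (T.x T.p) (T.y 0) (T.y T.q) := by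
  have e1 : ∀ j ∈ Finset.range T.q, ∑ i ∈ Finset.range (T.p + 1),
      VI (fun z => (z - a)⁻¹ • T.JV g ext i j z) (T.x i) (T.y j) (T.y (j + 1)) =
      (∑ i ∈ Finset.range T.p, (VI (Kf a (g i j)) (T.x (i + 1)) (T.y j) (T.y (j + 1)) -
        VI (Kf a (g i j)) (T.x i) (T.y j) (T.y (j + 1)))) +
      (VI (Kf a ext) (T.x 0) (T.y j) (T.y (j + 1)) -
        VI (Kf a ext) (T.x T.p) (T.y j) (T.y (j + 1))) := by
    intro j hj
    rw [Finset.mem_range] at hj
    have h1 := sum_parts T.p fun i k =>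
      VI (Kf a (T.cel g ext k (j + 1))) (T.x i) (T.y j) (T.y (j + 1))
    simp only [cel_left, cel_right] at h1
    have h2 : ∑ i ∈ Finset.range (T.p + 1),
        VI (fun z => (z - a)⁻¹ • T.JV g ext i j z) (T.x i) (T.y j) (T.y (j + 1)) =
        -∑ i ∈ Finset.range (T.p + 1),
          (VI (Kf a (T.cel g ext (i + 1) (j + 1))) (T.x i) (T.y j) (T.y (j + 1)) -
            VI (Kf a (T.cel g ext i (j + 1))) (T.x i) (T.y j) (T.y (j + 1))) := by
      rw [← Finset.sum_neg_distrib]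
      refine Finset.sum_congr rfl fun i hi => ?_
      rw [Finset.mem_range] at hi
      rw [VI_JV h ha (by omega) hj, neg_sub]
    rw [h2, h1, neg_add, ← Finset.sum_neg_distrib, neg_sub]
    congr 1
    refine Finset.sum_congr rfl fun i hi => ?_
    rw [Finset.mem_range] at hi
    rw [cel_cell T g ext hi hj, neg_sub]
  have e2 : ∀ i ∈ Finset.range T.p, ∑ j ∈ Finset.range (T.q + 1),
      HI (fun z => (z - a)⁻¹ • T.JH g ext i j z) (T.x i) (T.x (i + 1)) (T.y j) =
      (∑ j ∈ Finset.range T.q, (HI (Kf a (g i j)) (T.x i) (T.x (i + 1)) (T.y j) -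
        HI (Kf a (g i j)) (T.x i) (T.x (i + 1)) (T.y (j + 1)))) +
      (HI (Kf a ext) (T.x i) (T.x (i + 1)) (T.y T.q) -
        HI (Kf a ext) (T.x i) (T.x (i + 1)) (T.y 0)) := by
    intro i hi
    rw [Finset.mem_range] at hi
    have h1 := sum_parts T.q fun j k =>
      HI (Kf a (T.cel g ext (i + 1) k)) (T.x i) (T.x (i + 1)) (T.y j)
    simp only [cel_bot, cel_top] at h1
    have h2 : ∑ j ∈ Finset.range (T.q + 1),
        HI (fun z => (z - a)⁻¹ • T.JH g ext i j z) (T.x i) (T.x (i + 1)) (T.y j) =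
        ∑ j ∈ Finset.range (T.q + 1),
          (HI (Kf a (T.cel g ext (i + 1) (j + 1))) (T.x i) (T.x (i + 1)) (T.y j) -
            HI (Kf a (T.cel g ext (i + 1) j)) (T.x i) (T.x (i + 1)) (T.y j)) := by
      refine Finset.sum_congr rfl fun j hj => ?_
      rw [Finset.mem_range] at hj
      rw [HI_JH h ha hi (by omega)]
    rw [h2, h1]
    congr 1
    refine Finset.sum_congr rfl fun j hj => ?_
    rw [Finset.mem_range] at hj
    rw [cel_cell T g ext hi hj]
  unfold edgeSum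
  rw [Finset.sum_congr rfl e1, Finset.sum_congr rfl e2, Finset.sum_add_distrib,
    Finset.sum_add_distrib, Finset.sum_sub_distrib, Finset.sum_sub_distrib,
    VI_big ha h.cont_ext (Or.inl rfl), VI_big ha h.cont_ext (Or.inr rfl),
    HI_big ha h.cont_ext (Or.inl rfl), HI_big ha h.cont_ext (Or.inr rfl), Finset.sum_comm]
  have e3 : ∑ i ∈ Finset.range T.p, ∑ j ∈ Finset.range T.q,
      RI (Kf a (g i j)) (T.x i) (T.x (i + 1)) (T.y j) (T.y (j + 1)) =
      (∑ i ∈ Finset.range T.p, ∑ j ∈ Finset.range T.q,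
        (VI (Kf a (g i j)) (T.x (i + 1)) (T.y j) (T.y (j + 1)) -
          VI (Kf a (g i j)) (T.x i) (T.y j) (T.y (j + 1)))) +
      ∑ i ∈ Finset.range T.p, ∑ j ∈ Finset.range T.q,
        (HI (Kf a (g i j)) (T.x i) (T.x (i + 1)) (T.y j) -
          HI (Kf a (g i j)) (T.x i) (T.x (i + 1)) (T.y (j + 1))) := by
    rw [← Finset.sum_add_distrib]
    refine Finset.sum_congr rfl fun i _ => ?_
    rw [← Finset.sum_add_distrib]
    refine Finset.sum_congr rfl fun j _ => ?_
    unfold RI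
    abel
  rw [e3]
  conv_rhs => unfold RI
  abel

variable [CompleteSpace E]

theorem cells_inside (h : T.Reg g ext) {i j : ℕ} (hi : i < T.p) (hj : j < T.q) {a : ℂ}
    (ha : a ∈ T.O i j) :
    ∑ k ∈ Finset.range T.p, ∑ l ∈ Finset.range T.q,
      RI (Kf a (g k l)) (T.x k) (T.x (k + 1)) (T.y l) (T.y (l + 1)) =
      (2 * π * I : ℂ) • g i j a := by
  have h0 : ∀ k < T.p, ∀ l < T.q, (i ≠ k ∨ j ≠ l) →
      RI (Kf a (g k l)) (T.x k) (T.x (k + 1)) (T.y l) (T.y (l + 1)) = 0 := fun k hk l hl hne =>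
    RI_outside (T.x_lt k hk).le (T.y_lt l hl).le (notMem_C hi hj hk hl hne ha) (h.cont k hk l hl)
      (h.diff k hk l hl)
  rw [Finset.sum_eq_single i, Finset.sum_eq_single j]
  · exact cauchy_rect ha (h.cont i hi j hj) (h.diff i hi j hj)
  · intro l hl hne
    exact h0 i hi l (Finset.mem_range.1 hl) (Or.inr hne.symm)
  · intro hj'
    exact absurd (Finset.mem_range.2 hj) hj'
  · intro k hk hne
    exact Finset.sum_eq_zero fun l hl =>
      h0 k (Finset.mem_range.1 hk) l (Finset.mem_range.1 hl) (Or.inl hne.symm)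
  · intro hi'
    exact absurd (Finset.mem_range.2 hi) hi'

theorem cells_outside (h : T.Reg g ext) {a : ℂ} (ha : a ∉ T.BC) :
    ∑ k ∈ Finset.range T.p, ∑ l ∈ Finset.range T.q,
      RI (Kf a (g k l)) (T.x k) (T.x (k + 1)) (T.y l) (T.y (l + 1)) = 0 := by
  refine Finset.sum_eq_zero fun k hk => Finset.sum_eq_zero fun l hl => ?_
  rw [Finset.mem_range] at hk hl
  exact RI_outside (T.x_lt k hk).le (T.y_lt l hl).le (fun hm => ha (C_subset_BC hk hl hm))
    (h.cont k hk l hl) (h.diff k hk l hl)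

/-- **the representation, point in an open cell** -/
theorem grid_inside (h : T.Reg g ext) {L : E} (hL : Tendsto ext (cocompact ℂ) (𝓝 L)) {i j : ℕ}
    (hi : i < T.p) (hj : j < T.q) {a : ℂ} (ha : a ∈ T.O i j) :
    g i j a = L + (2 * π * I : ℂ)⁻¹ • T.edgeSum g ext a := by
  have h1 : RI (Kf a ext) (T.x 0) (T.x T.p) (T.y 0) (T.y T.q) = (2 * π * I : ℂ) • L :=
    cauchy_ext (O_subset_BO hi hj ha) h.cont_ext h.diff_ext hL
  rw [edgeSum_eq h (off_of_mem hi hj ha), cells_inside h hi hj ha, h1, ← smul_sub,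
    inv_smul_smul₀ two_pi_I_ne_zero, add_sub_cancel]

/-- **the representation, point outside the big rectangle** -/
theorem grid_outside (h : T.Reg g ext) {L : E} (hL : Tendsto ext (cocompact ℂ) (𝓝 L))
    (hp : 0 < T.p) (hq : 0 < T.q) {a : ℂ} (ha : a ∉ T.BC) :
    ext a = L + (2 * π * I : ℂ)⁻¹ • T.edgeSum g ext a := by
  have h1 : RI (Kf a ext) (T.x 0) (T.x T.p) (T.y 0) (T.y T.q) = (2 * π * I : ℂ) • (L - ext a) :=
    cauchy_ext' (T.x_mono (Nat.zero_le _) le_rfl) (T.y_mono (Nat.zero_le _) le_rfl) ha h.cont_ext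
      h.diff_ext hL
  rw [edgeSum_eq h (off_of_notMem hp hq ha), cells_outside h ha, h1, zero_sub, ← smul_neg,
    inv_smul_smul₀ two_pi_I_ne_zero, neg_sub, add_sub_cancel]

end Grid

end Vale.Agent.P030.H440
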