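import Vale.Agent.P030.H440.Grid

/-!
# The Cauchy representation on a rectangular grid, with a finite measure space

`W = (Bool × ℕ × ℕ) × ℝ` : a point of an edge (`true` = vertical); `T.mu` = length on the edges,
`T.pt` the point, `T.jmp g ext` the jump times the direction over `2πi`, `T.glue g ext` the glued
function. `rep_glue`: `glue a = L + ∫ (pt w - a)⁻¹ • jmp w dμ`.
-/

open Set Filter Topology MeasureTheory Complex
open scoped Interval Real

noncomputable section

namespace Vale.Agent.P030.H440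

namespace Grid

/-- the points of the edges -/
abbrev W : Type := (Bool × ℕ × ℕ) × ℝ

variable (T : Grid)

/-- the edges; `true` = vertical -/
def edges : Finset (Bool × ℕ × ℕ) :=
  ({true} ×ˢ (Finset.range (T.p + 1) ×ˢ Finset.range T.q)) ∪
    ({false} ×ˢ (Finset.range T.p ×ˢ Finset.range (T.q + 1)))

/-- first end point of the parameter interval of an edge -/
def lo (e : Bool × ℕ × ℕ) : ℝ := if e.1 then T.y e.2.2 else T.x e.2.1

/-- last end point of the parameter interval of an edge -/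
def hi (e : Bool × ℕ × ℕ) : ℝ := if e.1 then T.y (e.2.2 + 1) else T.x (e.2.1 + 1)

/-- the point -/
def pt (w : W) : ℂ := if w.1.1 then (T.x w.1.2.1 : ℂ) + w.2 * I else (w.2 : ℂ) + T.y w.1.2.2 * I

/-- the measure -/
def mu : Measure W := ∑ e ∈ T.edges, (volume.restrict (Ioc (T.lo e) (T.hi e))).map (Prod.mk e)

/-- the total length of the edges -/
def len : ℝ := ∑ e ∈ T.edges, (T.hi e - T.lo e)

theorem mem_edges_true {i j : ℕ} : (true, i, j) ∈ T.edges ↔ i ≤ T.p ∧ j < T.q := by
  simp [edges, Nat.lt_succ_iff]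

theorem mem_edges_false {i j : ℕ} : (false, i, j) ∈ T.edges ↔ i < T.p ∧ j ≤ T.q := by
  simp [edges, Nat.lt_succ_iff]

theorem lo_lt_hi {e : Bool × ℕ × ℕ} (he : e ∈ T.edges) : T.lo e < T.hi e := by
  obtain ⟨b, i, j⟩ := e
  cases b
  · exact T.x_lt i (T.mem_edges_false.1 he).1
  · exact T.y_lt j (T.mem_edges_true.1 he).2

theorem lo_le_hi {e : Bool × ℕ × ℕ} (he : e ∈ T.edges) : T.lo e ≤ T.hi e := (T.lo_lt_hi he).le

theorem continuous_pt (e : Bool × ℕ × ℕ) : Continuous fun t : ℝ => T.pt (e, t) := by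
  obtain ⟨b, i, j⟩ := e
  cases b
  · exact continuous_h (T.y j)
  · exact continuous_v (T.x i)

theorem measurable_pt : Measurable T.pt := by
  unfold pt
  refine Measurable.ite ?_ ?_ ?_
  · have h1 : MeasurableSet {b : Bool × ℕ × ℕ | b.1 = true} := MeasurableSet.of_discrete
    exact measurable_fst h1
  · have h1 : Measurable fun b : Bool × ℕ × ℕ => (T.x b.2.1 : ℂ) := measurable_of_countable _
    exact (h1.comp measurable_fst).add
      ((Complex.measurable_ofReal.comp measurable_snd).mul_const I)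
  · have h1 : Measurable fun b : Bool × ℕ × ℕ => (T.y b.2.2 : ℂ) := measurable_of_countable _
    exact (Complex.measurable_ofReal.comp measurable_snd).add
      ((h1.comp measurable_fst).mul_const I)

theorem ae_sum {s : Finset (Bool × ℕ × ℕ)} {P : W → Prop} {m : Bool × ℕ × ℕ → Measure W}
    (h : ∀ e ∈ s, ∀ᵐ w ∂m e, P w) : ∀ᵐ w ∂(∑ e ∈ s, m e), P w := by
  classical
  induction s using Finset.induction_on with
  | empty => simp
  | insert a s ha ih =>
    rw [Finset.sum_insert ha, ae_add_measure_iff]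
    exact ⟨h a (Finset.mem_insert_self a s), ih fun e he => h e (Finset.mem_insert_of_mem he)⟩

/-- a property of all points of the edges holds almost everywhere -/
theorem ae_mu {P : W → Prop} (h : ∀ e ∈ T.edges, ∀ t ∈ Icc (T.lo e) (T.hi e), P (e, t)) :
    ∀ᵐ w ∂T.mu, P w := by
  refine ae_sum fun e he => ?_
  rw [(measurableEmbedding_prodMk_left e).ae_map_iff, ae_restrict_iff' measurableSet_Ioc]
  exact ae_of_all _ fun t ht => h e he t ⟨ht.1.le, ht.2⟩

instance : IsFiniteMeasure T.mu := by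
  unfold mu
  infer_instance

theorem mu_univ : T.mu.real univ = T.len := by
  have h1 : T.mu univ = ∑ e ∈ T.edges, ENNReal.ofReal (T.hi e - T.lo e) := by
    rw [mu, Measure.finset_sum_apply]
    refine Finset.sum_congr rfl fun e _ => ?_
    rw [(measurableEmbedding_prodMk_left e).map_apply, preimage_univ, Measure.restrict_apply_univ,
      Real.volume_Ioc]
  rw [Measure.real, h1, ← ENNReal.ofReal_sum_of_nonneg fun e he => sub_nonneg.2 (T.lo_le_hi he),
    ENNReal.toReal_ofReal (Finset.sum_nonneg fun e he => sub_nonneg.2 (T.lo_le_hi he))]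
  rfl

variable {T} {E : Type*} [NormedAddCommGroup E]

theorem aestronglyMeasurable_mu {f : W → E}
    (h : ∀ e ∈ T.edges, ContinuousOn (fun t => f (e, t)) (Icc (T.lo e) (T.hi e))) :
    AEStronglyMeasurable f T.mu := by
  have h1 : ∀ e ∈ T.edges, AEStronglyMeasurable f
      ((volume.restrict (Ioc (T.lo e) (T.hi e))).map (Prod.mk e)) := fun e he => by
    rw [(measurableEmbedding_prodMk_left e).aestronglyMeasurable_map_iff]
    exact ((h e he).mono Ioc_subset_Icc_self).aestronglyMeasurable measurableSet_Ioc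
  have h2 : ∀ s : Finset (Bool × ℕ × ℕ), s ⊆ T.edges → AEStronglyMeasurable f
      (∑ e ∈ s, (volume.restrict (Ioc (T.lo e) (T.hi e))).map (Prod.mk e)) := by
    classical
    intro s
    induction s using Finset.induction_on with
    | empty => intro _; simp
    | insert a s ha ih =>
      intro hs
      rw [Finset.sum_insert ha]
      exact (h1 a (hs (Finset.mem_insert_self a s))).add_measure
        (ih fun e he => hs (Finset.mem_insert_of_mem he))
  exact h2 _ (Finset.Subset.refl _)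

theorem integrable_mu {f : W → E}
    (h : ∀ e ∈ T.edges, ContinuousOn (fun t => f (e, t)) (Icc (T.lo e) (T.hi e))) :
    Integrable f T.mu := by
  refine integrable_finsetSum_measure.2 fun e he => ?_
  rw [(measurableEmbedding_prodMk_left e).integrable_map_iff]
  exact (h e he).integrableOn_Icc.mono_set Ioc_subset_Icc_self

variable [NormedSpace ℝ E]

theorem integral_mu {f : W → E}
    (h : ∀ e ∈ T.edges, ContinuousOn (fun t => f (e, t)) (Icc (T.lo e) (T.hi e))) :
    ∫ w, f w ∂T.mu = ∑ e ∈ T.edges, ∫ t in T.lo e..T.hi e, f (e, t) := by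
  have h1 : ∀ e ∈ T.edges, Integrable f
      ((volume.restrict (Ioc (T.lo e) (T.hi e))).map (Prod.mk e)) := fun e he => by
    rw [(measurableEmbedding_prodMk_left e).integrable_map_iff]
    exact (h e he).integrableOn_Icc.mono_set Ioc_subset_Icc_self
  rw [mu, integral_finsetSum_measure h1]
  refine Finset.sum_congr rfl fun e he => ?_
  rw [(measurableEmbedding_prodMk_left e).integral_map,
    intervalIntegral.integral_of_le (T.lo_le_hi he)]

section complex

variable {E : Type*} [NormedAddCommGroup E] [NormedSpace ℂ E] (g : ℕ → ℕ → ℂ → E) (ext : ℂ → E)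

/-- the jump times the direction, over `2πi` -/
def jmp (T : Grid) (g : ℕ → ℕ → ℂ → E) (ext : ℂ → E) (w : W) : E :=
  (2 * π * I : ℂ)⁻¹ • (if w.1.1 then I • T.JV g ext w.1.2.1 w.1.2.2 (T.pt w)
    else T.JH g ext w.1.2.1 w.1.2.2 (T.pt w))

variable {g ext}

theorem continuousOn_jmp (h : T.Reg g ext) {e : Bool × ℕ × ℕ} (he : e ∈ T.edges) :
    ContinuousOn (fun t => T.jmp g ext (e, t)) (Icc (T.lo e) (T.hi e)) := by
  obtain ⟨b, i, j⟩ := e
  cases b
  · obtain ⟨hi, hj⟩ := T.mem_edges_false.1 he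
    have h1 := h.cont_h hi hj
    rw [uIcc_of_le (T.x_lt i hi).le] at h1
    exact continuousOn_const.smul (h1.2.sub h1.1)
  · obtain ⟨hi, hj⟩ := T.mem_edges_true.1 he
    have h1 := h.cont_v hi hj
    rw [uIcc_of_le (T.y_lt j hj).le] at h1
    exact continuousOn_const.smul (continuousOn_const.smul (h1.1.sub h1.2))

theorem off_iff {a : ℂ} :
    T.Off a ↔ ∀ e ∈ T.edges, ∀ t ∈ Icc (T.lo e) (T.hi e), T.pt (e, t) ≠ a := by
  constructor
  · rintro ⟨h1, h2⟩ ⟨b, i, j⟩ he t ht
    cases b
    · obtain ⟨hi, hj⟩ := T.mem_edges_false.1 he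
      exact h2 i hi j hj t (by rw [uIcc_of_le (T.x_lt i hi).le]; exact ht)
    · obtain ⟨hi, hj⟩ := T.mem_edges_true.1 he
      exact h1 i hi j hj t (by rw [uIcc_of_le (T.y_lt j hj).le]; exact ht)
  · intro h
    constructor
    · intro i hi j hj t ht
      rw [uIcc_of_le (T.y_lt j hj).le] at ht
      exact h (true, i, j) (T.mem_edges_true.2 ⟨hi, hj⟩) t ht
    · intro i hi j hj t ht
      rw [uIcc_of_le (T.x_lt i hi).le] at ht
      exact h (false, i, j) (T.mem_edges_false.2 ⟨hi, hj⟩) t ht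

theorem continuousOn_ker (h : T.Reg g ext) {a : ℂ} (ha : T.Off a) {e : Bool × ℕ × ℕ}
    (he : e ∈ T.edges) :
    ContinuousOn (fun t => (T.pt (e, t) - a)⁻¹ • T.jmp g ext (e, t)) (Icc (T.lo e) (T.hi e)) := by
  have h1 : ContinuousOn (fun t => (T.pt (e, t) - a)⁻¹) (Icc (T.lo e) (T.hi e)) :=
    ContinuousOn.inv₀ ((T.continuous_pt e).sub continuous_const).continuousOn
      fun t ht => sub_ne_zero.2 (off_iff.1 ha e he t ht)
  exact h1.smul (continuousOn_jmp h he)

/-- **the sum over the edges as one integral** -/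
theorem edgeSum_eq_integral (h : T.Reg g ext) {a : ℂ} (ha : T.Off a) :
    (2 * π * I : ℂ)⁻¹ • T.edgeSum g ext a = ∫ w, (T.pt w - a)⁻¹ • T.jmp g ext w ∂T.mu := by
  classical
  rw [integral_mu fun e he => continuousOn_ker h ha he, edges, Finset.sum_union ?_,
    Finset.sum_product, Finset.sum_product, Finset.sum_singleton, Finset.sum_singleton,
    Finset.sum_product, Finset.sum_product, edgeSum, smul_add]
  · congr 1
    · rw [Finset.smul_sum, Finset.sum_comm]
      refine Finset.sum_congr rfl fun j _ => ?_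
      rw [Finset.smul_sum]
      refine Finset.sum_congr rfl fun i _ => ?_
      unfold VI
      rw [← intervalIntegral.integral_smul, ← intervalIntegral.integral_smul]
      refine intervalIntegral.integral_congr fun t _ => ?_
      change (2 * π * I : ℂ)⁻¹ • I • ((T.x i : ℂ) + t * I - a)⁻¹ • T.JV g ext i j (T.x i + t * I) =
        ((T.x i : ℂ) + t * I - a)⁻¹ • (2 * π * I : ℂ)⁻¹ • I • T.JV g ext i j (T.x i + t * I)
      simp only [smul_smul]
      congr 1
      ring
    · rw [Finset.smul_sum]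
      refine Finset.sum_congr rfl fun i _ => ?_
      rw [Finset.smul_sum]
      refine Finset.sum_congr rfl fun j _ => ?_
      unfold HI
      rw [← intervalIntegral.integral_smul]
      refine intervalIntegral.integral_congr fun t _ => ?_
      change (2 * π * I : ℂ)⁻¹ • ((t : ℂ) + T.y j * I - a)⁻¹ • T.JH g ext i j (t + T.y j * I) =
        ((t : ℂ) + T.y j * I - a)⁻¹ • (2 * π * I : ℂ)⁻¹ • T.JH g ext i j (t + T.y j * I)
      rw [smul_comm]
  · rw [Finset.disjoint_left]
    rintro ⟨b, i, j⟩ h1 h2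
    simp only [Finset.mem_product, Finset.mem_singleton] at h1 h2
    rw [h1.1] at h2
    exact Bool.noConfusion h2.1

/-! ### the glued function -/

variable (g ext) in
/-- the glued function -/
def glue (T : Grid) (z : ℂ) : E :=
  open Classical in
  if h : ∃ c : ℕ × ℕ, c.1 < T.p ∧ c.2 < T.q ∧ z ∈ T.O c.1 c.2 then g h.choose.1 h.choose.2 z
  else ext z

theorem glue_inside {i j : ℕ} (hi : i < T.p) (hj : j < T.q) {z : ℂ} (hz : z ∈ T.O i j) :
    T.glue g ext z = g i j z := by
  have h : ∃ c : ℕ × ℕ, c.1 < T.p ∧ c.2 < T.q ∧ z ∈ T.O c.1 c.2 := ⟨(i, j), hi, hj, hz⟩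
  unfold glue
  rw [dif_pos h]
  have h1 := h.choose_spec
  by_contra hne
  have h2 : h.choose.1 ≠ i ∨ h.choose.2 ≠ j := by
    by_contra h3
    push Not at h3
    rw [h3.1, h3.2] at hne
    exact hne rfl
  exact notMem_C h1.1 h1.2.1 hi hj h2 h1.2.2 (OR_subset_CR _ _ _ _ hz)

theorem glue_outside {z : ℂ} (hz : z ∉ T.BC) : T.glue g ext z = ext z := by
  unfold glue
  rw [dif_neg]
  rintro ⟨c, h1, h2, h3⟩
  exact hz (C_subset_BC h1 h2 (OR_subset_CR _ _ _ _ h3))

theorem exists_col {u : ℕ → ℝ} {n : ℕ} {t : ℝ} (h0 : u 0 < t) (hn : t < u n) :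
    ∃ i < n, u i ≤ t ∧ t ≤ u (i + 1) := by
  induction n with
  | zero => exact absurd (h0.trans hn) (lt_irrefl _)
  | succ n ih =>
    rcases lt_or_ge t (u n) with h | h
    · obtain ⟨i, h1, h2⟩ := ih h
      exact ⟨i, by omega, h2⟩
    · exact ⟨n, by omega, h, hn.le⟩

theorem Off.cases {a : ℂ} (ha : T.Off a) (hp : 0 < T.p) (hq : 0 < T.q) :
    (∃ i < T.p, ∃ j < T.q, a ∈ T.O i j) ∨ a ∉ T.BC := by
  by_cases hb : a ∈ T.BC
  · left
    obtain ⟨⟨b1, b2⟩, b3, b4⟩ := mem_CR.1 hb
    have haa : (a.re : ℂ) + a.im * I = a := re_add_im a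
    -- closed cell
    have hcx : ∃ i < T.p, T.x i ≤ a.re ∧ a.re ≤ T.x (i + 1) := by
      rcases b1.eq_or_lt with h | h
      · exact ⟨0, hp, by rw [h], by rw [← h]; exact (T.x_lt 0 hp).le⟩
      · rcases b2.eq_or_lt with h' | h'
        · refine ⟨T.p - 1, by omega, ?_, ?_⟩
          · rw [h']
            exact T.x_mono (by omega) le_rfl
          · rw [Nat.sub_add_cancel hp, h']
        · exact exists_col h h'
    have hcy : ∃ j < T.q, T.y j ≤ a.im ∧ a.im ≤ T.y (j + 1) := by
      rcases b3.eq_or_lt with h | h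
      · exact ⟨0, hq, by rw [h], by rw [← h]; exact (T.y_lt 0 hq).le⟩
      · rcases b4.eq_or_lt with h' | h'
        · refine ⟨T.q - 1, by omega, ?_, ?_⟩
          · rw [h']
            exact T.y_mono (by omega) le_rfl
          · rw [Nat.sub_add_cancel hq, h']
        · exact exists_col h h'
    obtain ⟨i, hi, h1, h2⟩ := hcx
    obtain ⟨j, hj, h3, h4⟩ := hcy
    have hv : ∀ k ≤ T.p, T.x k ≠ a.re := fun k hk h =>
      ha.1 k hk j hj a.im (by rw [uIcc_of_le (T.y_lt j hj).le]; exact ⟨h3, h4⟩)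
        (by rw [h, haa])
    have hh : ∀ l ≤ T.q, T.y l ≠ a.im := fun l hl h =>
      ha.2 i hi l hl a.re (by rw [uIcc_of_le (T.x_lt i hi).le]; exact ⟨h1, h2⟩)
        (by rw [h, haa])
    refine ⟨i, hi, j, hj, mem_OR.2 ⟨⟨lt_of_le_of_ne h1 (hv i hi.le), lt_of_le_of_ne h2
      (hv (i + 1) hi).symm⟩, lt_of_le_of_ne h3 (hh j hj.le), lt_of_le_of_ne h4
      (hh (j + 1) hj).symm⟩⟩
  · exact Or.inr hb

variable [CompleteSpace E]

/-- **the Cauchy representation of the glued function** -/
theorem rep_glue (h : T.Reg g ext) {L : E} (hL : Tendsto ext (cocompact ℂ) (𝓝 L)) (hp : 0 < T.p)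
    (hq : 0 < T.q) {a : ℂ} (ha : T.Off a) :
    T.glue g ext a = L + ∫ w, (T.pt w - a)⁻¹ • T.jmp g ext w ∂T.mu := by
  rw [← edgeSum_eq_integral h ha]
  rcases ha.cases hp hq with ⟨i, hi, j, hj, hO⟩ | hb
  · rw [glue_inside hi hj hO]
    exact grid_inside h hL hi hj hO
  · rw [glue_outside hb]
    exact grid_outside h hL hp hq hb

/-- the same, in coordinates -/
theorem rep_glue_coord {m : ℕ} {g : ℕ → ℕ → ℂ → Fin m → ℂ} {ext : ℂ → Fin m → ℂ}
    (h : T.Reg g ext) {L : Fin m → ℂ} (hL : Tendsto ext (cocompact ℂ) (𝓝 L)) (hp : 0 < T.p)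
    (hq : 0 < T.q) {a : ℂ} (ha : T.Off a) (b : Fin m) :
    T.glue g ext a b = L b + ∫ w, T.jmp g ext w b / (T.pt w - a) ∂T.mu := by
  have h1 := congrFun (rep_glue h hL hp hq ha) b
  have h2 : Integrable (fun w => (T.pt w - a)⁻¹ • T.jmp g ext w) T.mu :=
    integrable_mu fun e he => continuousOn_ker h ha he
  have h3 := (ContinuousLinearMap.proj (R := ℂ) (φ := fun _ : Fin m => ℂ) b).integral_comp_comm h2
  rw [h1, Pi.add_apply]
  congr 1
  change (ContinuousLinearMap.proj (R := ℂ) (φ := fun _ : Fin m => ℂ) b)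
    (∫ w, (T.pt w - a)⁻¹ • T.jmp g ext w ∂T.mu) = _
  rw [← h3]
  refine integral_congr_ae (ae_of_all _ fun w => ?_)
  change (T.pt w - a)⁻¹ * T.jmp g ext w b = T.jmp g ext w b / (T.pt w - a)
  rw [div_eq_inv_mul]

end complex

end Grid

end Vale.Agent.P030.H440
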