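import Vale.Agent.P030.H440.Seg

/-!
# P030: pieces of walls in one form, `z(t) = (al0 + t al1)/(be0 + t be1)`
-/

open Finset

namespace Vale.Agent.P030.H440

/-- a piece of a line or of a circle -/
noncomputable def moeb (al0 al1 be0 be1 : ℂ) (t : ℝ) : ℂ := (al0 + t * al1) / (be0 + t * be1)

theorem moeb_sub {al0 al1 be0 be1 : ℂ} {t : ℝ} (hd : be0 + t * be1 ≠ 0) (a : ℂ) :
    moeb al0 al1 be0 be1 t - a
      = ((al0 - a * be0) + t * (al1 - a * be1)) / (be0 + t * be1) := by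
  rw [moeb, eq_div_iff hd, sub_mul, div_mul_cancel₀ _ hd]
  ring

theorem norm_moeb_sub {al0 al1 be0 be1 : ℂ} {t : ℝ} (hd : be0 + t * be1 ≠ 0) (a : ℂ) :
    ‖moeb al0 al1 be0 be1 t - a‖
      = ‖(al0 - a * be0) + t * (al1 - a * be1)‖ / ‖be0 + t * be1‖ := by
  rw [moeb_sub hd, norm_div]

theorem log_norm_moeb_sub {al0 al1 be0 be1 a : ℂ} {t : ℝ} (hd : be0 + t * be1 ≠ 0)
    (h : (al0 - a * be0) + t * (al1 - a * be1) ≠ 0) :
    Real.log ‖moeb al0 al1 be0 be1 t - a‖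
      = Real.log ‖(al0 - a * be0) + t * (al1 - a * be1)‖ - Real.log ‖be0 + t * be1‖ := by
  rw [norm_moeb_sub hd, Real.log_div (norm_ne_zero_iff.2 h) (norm_ne_zero_iff.2 hd)]

/-- a potential on a piece: the atoms of `I` contain the piece in their discs (constant), those of
`A` are outside -/
theorem pot_moeb {ι : Type*} (A : Finset ι) (q : ι → ℝ) (a : ι → ℂ) (rho : ι → ℝ)
    {al0 al1 be0 be1 : ℂ} {t : ℝ} (hd : be0 + t * be1 ≠ 0)
    (h : ∀ k ∈ A, (al0 - a k * be0) + t * (al1 - a k * be1) ≠ 0)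
    (hr : ∀ k ∈ A, rho k * ‖be0 + t * be1‖ ≤ ‖(al0 - a k * be0) + t * (al1 - a k * be1)‖) :
    ∑ k ∈ A, q k * Real.log (max (rho k) ‖moeb al0 al1 be0 be1 t - a k‖)
      = (∑ k ∈ A, q k * Real.log ‖(al0 - a k * be0) + t * (al1 - a k * be1)‖)
        - (∑ k ∈ A, q k) * Real.log ‖be0 + t * be1‖ := by
  rw [sum_mul, ← sum_sub_distrib]
  refine sum_congr rfl fun k hk => ?_
  have hd' : 0 < ‖be0 + t * be1‖ := norm_pos_iff.2 hd
  have h1 : rho k ≤ ‖moeb al0 al1 be0 be1 t - a k‖ := by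
    rw [norm_moeb_sub hd, le_div_iff₀ hd']
    exact hr k hk
  rw [max_eq_right h1, log_norm_moeb_sub hd (h k hk)]
  ring

/-- an atom whose disc contains the point -/
theorem pot_inside {rho : ℝ} {a : ℂ} {al0 al1 be0 be1 : ℂ} {t : ℝ} (hd : be0 + t * be1 ≠ 0)
    (hr : ‖(al0 - a * be0) + t * (al1 - a * be1)‖ ≤ rho * ‖be0 + t * be1‖) :
    Real.log (max rho ‖moeb al0 al1 be0 be1 t - a‖) = Real.log rho := by
  have hd' : 0 < ‖be0 + t * be1‖ := norm_pos_iff.2 hd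
  have h1 : ‖moeb al0 al1 be0 be1 t - a‖ ≤ rho := by
    rw [norm_moeb_sub hd, div_le_iff₀ hd']
    exact hr
  rw [max_eq_left h1]

end Vale.Agent.P030.H440
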