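import Mathlib

/-!
# P030, kernel engine: packed dot products

A list of natural numbers smaller than the base `X` is stored as one natural number; the dot product
of two lists is one digit of the product of the packed numbers.
-/

open Finset Polynomial

namespace Vale.Agent.P030.H440

/-- the packed list, base `X`, first entry in the lowest digit -/
def pk (X : ℕ) : List ℕ → ℕ
  | [] => 0
  | a :: l => a + X * pk X l

/-- dot product -/
def dp : List ℕ → List ℕ → ℕ
  | a :: l, b :: m => a * b + dp l m
  | _, _ => 0

/-- the polynomial with these coefficients -/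
noncomputable def pl : List ℕ → ℕ[X]
  | [] => 0
  | a :: l => C a + X * pl l

theorem eval_pl (x : ℕ) (l : List ℕ) : (pl l).eval x = pk x l := by
  induction l with
  | nil => simp [pl, pk]
  | cons a l ih => simp [pl, pk, ih]

theorem coeff_pl (l : List ℕ) (i : ℕ) : (pl l).coeff i = l.getD i 0 := by
  induction l generalizing i with
  | nil => simp [pl]
  | cons a l ih =>
    cases i with
    | zero => simp [pl]
    | succ i => simp [pl, ih, coeff_C]

theorem natDegree_pl (l : List ℕ) : (pl l).natDegree ≤ l.length := by
  rw [natDegree_le_iff_coeff_eq_zero]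
  intro n hn
  rw [coeff_pl, List.getD_eq_default _ _ hn.le]

theorem dp_eq (a c : List ℕ) (h : a.length = c.length) :
    dp a c = ∑ i ∈ range a.length, a.getD i 0 * c.getD i 0 := by
  induction a generalizing c with
  | nil => simp [dp]
  | cons x a ih =>
    cases c with
    | nil => simp at h
    | cons y c =>
      have h' : a.length = c.length := by simpa using h
      rw [dp, ih c h', List.length_cons, sum_range_succ']
      simp [add_comm]

theorem digit_sum {X : ℕ} (hX : 0 < X) (f : ℕ → ℕ) {N m : ℕ} (hf : ∀ n < N, f n < X)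
    (hm : m < N) : (∑ n ∈ range N, f n * X ^ n) / X ^ m % X = f m := by
  have key : ∀ k, k ≤ N → ∑ n ∈ range k, f n * X ^ n < X ^ k := by
    intro k
    induction k with
    | zero => simp
    | succ k ih =>
      intro hk
      rw [sum_range_succ, pow_succ]
      have h1 := ih (by omega)
      have h2 : f k + 1 ≤ X := hf k (by omega)
      calc ∑ n ∈ range k, f n * X ^ n + f k * X ^ k < X ^ k + f k * X ^ k := by omega
        _ = (f k + 1) * X ^ k := by ring
        _ ≤ X * X ^ k := Nat.mul_le_mul_right _ h2
        _ = X ^ k * X := mul_comm _ _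
  have hsplit : ∑ n ∈ range N, f n * X ^ n = ∑ n ∈ range m, f n * X ^ n
      + X ^ m * (f m + X * ∑ n ∈ range (N - m - 1), f (m + 1 + n) * X ^ n) := by
    have h1 : N = (m + 1) + (N - m - 1) := by omega
    conv_lhs => rw [h1]
    rw [sum_range_add, sum_range_succ, mul_add, add_assoc, mul_comm (f m)]
    congr 2
    rw [mul_sum, mul_sum]
    refine sum_congr rfl fun n _ => ?_
    rw [pow_add, pow_succ]
    ring
  have hXm : 0 < X ^ m := pow_pos hX m
  rw [hsplit, Nat.add_mul_div_left _ _ hXm, Nat.div_eq_of_lt (key m hm.le), zero_add,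
    Nat.add_mul_mod_self_left, Nat.mod_eq_of_lt (hf m hm)]

theorem getD_le {l : List ℕ} {C : ℕ} (h : ∀ x ∈ l, x ≤ C) (i : ℕ) : l.getD i 0 ≤ C := by
  rcases lt_or_ge i l.length with hi | hi
  · rw [List.getD_eq_getElem _ _ hi]
    exact h _ (List.getElem_mem hi)
  · rw [List.getD_eq_default _ _ hi]
    exact Nat.zero_le _

theorem conv_le {a d : List ℕ} {A C : ℕ} (ha : ∀ x ∈ a, x ≤ A) (hd : ∀ x ∈ d, x ≤ C) (n : ℕ) :
    (pl a * pl d).coeff n ≤ a.length * (A * C) := by
  rw [coeff_mul, Finset.Nat.sum_antidiagonal_eq_sum_range_succ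
    (fun i j => (pl a).coeff i * (pl d).coeff j)]
  have h1 : ∀ i ∈ range n.succ, (pl a).coeff i * (pl d).coeff (n - i)
      ≤ if i < a.length then A * C else 0 := by
    intro i _
    split_ifs with hi
    · rw [coeff_pl, coeff_pl]
      exact Nat.mul_le_mul (getD_le ha i) (getD_le hd _)
    · rw [coeff_pl, List.getD_eq_default _ _ (not_lt.1 hi), zero_mul]
  refine (sum_le_sum h1).trans ?_
  rw [← sum_filter, sum_const, smul_eq_mul]
  refine Nat.mul_le_mul_right _ ?_
  calc ((range n.succ).filter (· < a.length)).card ≤ (range a.length).card := by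
        apply card_le_card
        intro i hi
        rw [mem_filter] at hi
        exact mem_range.2 hi.2
    _ = a.length := card_range _

/-- **the packed dot product** -/
theorem dot_packed {X A C : ℕ} (a c : List ℕ) (hl : a.length = c.length) (h0 : 0 < a.length)
    (ha : ∀ x ∈ a, x ≤ A) (hc : ∀ x ∈ c, x ≤ C) (hX : a.length * (A * C) < X) :
    pk X a * pk X c.reverse / X ^ (a.length - 1) % X = dp a c := by
  have hX0 : 0 < X := lt_of_le_of_lt (Nat.zero_le _) hX
  have hc' : ∀ x ∈ c.reverse, x ≤ C := fun x hx => hc x (List.mem_reverse.1 hx)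
  set K := a.length with hK
  have hdeg : (pl a * pl c.reverse).natDegree < 2 * K + 1 := by
    refine Nat.lt_succ_of_le (natDegree_mul_le.trans ?_)
    have h1 := natDegree_pl a
    have h2 := natDegree_pl c.reverse
    rw [List.length_reverse, ← hl] at h2
    omega
  have h1 : pk X a * pk X c.reverse
      = ∑ n ∈ range (2 * K + 1), (pl a * pl c.reverse).coeff n * X ^ n := by
    rw [← eval_pl, ← eval_pl, ← eval_mul, eval_eq_sum_range' hdeg]
  rw [h1, digit_sum hX0 _ (fun n _ => lt_of_le_of_lt (conv_le ha hc' n) hX) (by omega),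
    coeff_mul, Finset.Nat.sum_antidiagonal_eq_sum_range_succ
    (fun i j => (pl a).coeff i * (pl c.reverse).coeff j), dp_eq a c hl]
  have h2 : (K - 1).succ = K := by omega
  rw [h2]
  refine sum_congr rfl fun i hi => ?_
  rw [mem_range] at hi
  rw [coeff_pl, coeff_pl]
  congr 1
  have h3 : i < c.length := by omega
  have h4 : K - 1 - i < c.reverse.length := by rw [List.length_reverse]; omega
  rw [List.getD_eq_getElem _ _ h4, List.getD_eq_getElem _ _ h3, List.getElem_reverse]
  congr 1
  omega

end Vale.Agent.P030.H440
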