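import Mathlib

/-!
# The Cauchy formula for rectangles

`HI`, `VI` : integrals along horizontal and vertical segments, `RI` : integral along the boundary of
a rectangle (counterclockwise). `cauchy_rect`: Cauchy formula inside; `RI_outside`: outside;
`cauchy_ext`, `cauchy_ext'` : the exterior of a rectangle, for functions with a limit at infinity.
-/

open Set Filter Topology MeasureTheory Complex
open scoped Interval Real

noncomputable section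

namespace Vale.Agent.P030.H440

variable {E : Type*} [NormedAddCommGroup E] [NormedSpace ℂ E]

/-- integral along a horizontal segment -/
def HI (f : ℂ → E) (x₀ x₁ y : ℝ) : E := ∫ x : ℝ in x₀..x₁, f (x + y * I)

/-- integral along a vertical segment -/
def VI (f : ℂ → E) (x y₀ y₁ : ℝ) : E := I • ∫ y : ℝ in y₀..y₁, f (x + y * I)

/-- integral along the boundary of a rectangle -/
def RI (f : ℂ → E) (x₀ x₁ y₀ y₁ : ℝ) : E :=
  HI f x₀ x₁ y₀ - HI f x₀ x₁ y₁ + VI f x₁ y₀ y₁ - VI f x₀ y₀ y₁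

/-- closed rectangle -/
def CR (x₀ x₁ y₀ y₁ : ℝ) : Set ℂ := Icc x₀ x₁ ×ℂ Icc y₀ y₁

/-- open rectangle -/
def OR (x₀ x₁ y₀ y₁ : ℝ) : Set ℂ := Ioo x₀ x₁ ×ℂ Ioo y₀ y₁

theorem mem_CR {x₀ x₁ y₀ y₁ : ℝ} {z : ℂ} :
    z ∈ CR x₀ x₁ y₀ y₁ ↔ (x₀ ≤ z.re ∧ z.re ≤ x₁) ∧ (y₀ ≤ z.im ∧ z.im ≤ y₁) := Iff.rfl

theorem mem_OR {x₀ x₁ y₀ y₁ : ℝ} {z : ℂ} :
    z ∈ OR x₀ x₁ y₀ y₁ ↔ (x₀ < z.re ∧ z.re < x₁) ∧ (y₀ < z.im ∧ z.im < y₁) := Iff.rfl

theorem isOpen_OR (x₀ x₁ y₀ y₁ : ℝ) : IsOpen (OR x₀ x₁ y₀ y₁) := isOpen_Ioo.reProdIm isOpen_Ioo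

theorem isClosed_CR (x₀ x₁ y₀ y₁ : ℝ) : IsClosed (CR x₀ x₁ y₀ y₁) :=
  isClosed_Icc.reProdIm isClosed_Icc

theorem OR_subset_CR (x₀ x₁ y₀ y₁ : ℝ) : OR x₀ x₁ y₀ y₁ ⊆ CR x₀ x₁ y₀ y₁ := fun _ h =>
  ⟨⟨h.1.1.le, h.1.2.le⟩, ⟨h.2.1.le, h.2.2.le⟩⟩

@[simp] theorem re_xy (x y : ℝ) : ((x : ℂ) + y * I).re = x := by simp

@[simp] theorem im_xy (x y : ℝ) : ((x : ℂ) + y * I).im = y := by simp

theorem continuous_h (y : ℝ) : Continuous fun x : ℝ => (x : ℂ) + y * I := by fun_prop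

theorem continuous_v (x : ℝ) : Continuous fun y : ℝ => (x : ℂ) + y * I := by fun_prop

/-- integrability on horizontal segments -/
theorem int_h {f : ℂ → E} {S : Set ℂ} (hf : ContinuousOn f S) {x₀ x₁ y : ℝ}
    (h : ∀ x ∈ [[x₀, x₁]], (x : ℂ) + y * I ∈ S) :
    IntervalIntegrable (fun x : ℝ => f (x + y * I)) volume x₀ x₁ :=
  (hf.comp (continuous_h y).continuousOn h).intervalIntegrable

/-- integrability on vertical segments -/
theorem int_v {f : ℂ → E} {S : Set ℂ} (hf : ContinuousOn f S) {x y₀ y₁ : ℝ}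
    (h : ∀ y ∈ [[y₀, y₁]], (x : ℂ) + y * I ∈ S) :
    IntervalIntegrable (fun y : ℝ => f (x + y * I)) volume y₀ y₁ :=
  (hf.comp (continuous_v x).continuousOn h).intervalIntegrable

theorem HI_add {f : ℂ → E} {x₀ x₁ x₂ y : ℝ}
    (h1 : IntervalIntegrable (fun x : ℝ => f (x + y * I)) volume x₀ x₁)
    (h2 : IntervalIntegrable (fun x : ℝ => f (x + y * I)) volume x₁ x₂) :
    HI f x₀ x₁ y + HI f x₁ x₂ y = HI f x₀ x₂ y :=
  intervalIntegral.integral_add_adjacent_intervals h1 h2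

theorem VI_add {f : ℂ → E} {x y₀ y₁ y₂ : ℝ}
    (h1 : IntervalIntegrable (fun y : ℝ => f (x + y * I)) volume y₀ y₁)
    (h2 : IntervalIntegrable (fun y : ℝ => f (x + y * I)) volume y₁ y₂) :
    VI f x y₀ y₁ + VI f x y₁ y₂ = VI f x y₀ y₂ := by
  unfold VI
  rw [← smul_add, intervalIntegral.integral_add_adjacent_intervals h1 h2]

theorem HI_congr {f g : ℂ → E} {x₀ x₁ y : ℝ}
    (h : ∀ x ∈ [[x₀, x₁]], f (x + y * I) = g (x + y * I)) : HI f x₀ x₁ y = HI g x₀ x₁ y :=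
  intervalIntegral.integral_congr h

theorem VI_congr {f g : ℂ → E} {x y₀ y₁ : ℝ}
    (h : ∀ y ∈ [[y₀, y₁]], f (x + y * I) = g (x + y * I)) : VI f x y₀ y₁ = VI g x y₀ y₁ := by
  unfold VI
  rw [intervalIntegral.integral_congr h]

/-- the boundary of a rectangle -/
def BR (x₀ x₁ y₀ y₁ : ℝ) : Set ℂ := CR x₀ x₁ y₀ y₁ \ OR x₀ x₁ y₀ y₁

theorem bottom_mem {x₀ x₁ y₀ y₁ x : ℝ} (hx : x₀ ≤ x₁) (hy : y₀ ≤ y₁) (h : x ∈ [[x₀, x₁]]) :
    (x : ℂ) + y₀ * I ∈ BR x₀ x₁ y₀ y₁ := by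
  rw [uIcc_of_le hx] at h
  refine ⟨mem_CR.2 ?_, fun h' => ?_⟩
  · simp only [re_xy, im_xy]
    exact ⟨h, le_rfl, hy⟩
  · rw [mem_OR] at h'
    simp only [im_xy, lt_self_iff_false, false_and, and_false] at h'

theorem top_mem {x₀ x₁ y₀ y₁ x : ℝ} (hx : x₀ ≤ x₁) (hy : y₀ ≤ y₁) (h : x ∈ [[x₀, x₁]]) :
    (x : ℂ) + y₁ * I ∈ BR x₀ x₁ y₀ y₁ := by
  rw [uIcc_of_le hx] at h
  refine ⟨mem_CR.2 ?_, fun h' => ?_⟩
  · simp only [re_xy, im_xy]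
    exact ⟨h, hy, le_rfl⟩
  · rw [mem_OR] at h'
    simp only [im_xy, lt_self_iff_false, and_false] at h'

theorem left_mem {x₀ x₁ y₀ y₁ y : ℝ} (hx : x₀ ≤ x₁) (hy : y₀ ≤ y₁) (h : y ∈ [[y₀, y₁]]) :
    (x₀ : ℂ) + y * I ∈ BR x₀ x₁ y₀ y₁ := by
  rw [uIcc_of_le hy] at h
  refine ⟨mem_CR.2 ?_, fun h' => ?_⟩
  · simp only [re_xy, im_xy]
    exact ⟨⟨le_rfl, hx⟩, h⟩
  · rw [mem_OR] at h'
    simp only [re_xy, lt_self_iff_false, false_and] at h'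

theorem right_mem {x₀ x₁ y₀ y₁ y : ℝ} (hx : x₀ ≤ x₁) (hy : y₀ ≤ y₁) (h : y ∈ [[y₀, y₁]]) :
    (x₁ : ℂ) + y * I ∈ BR x₀ x₁ y₀ y₁ := by
  rw [uIcc_of_le hy] at h
  refine ⟨mem_CR.2 ?_, fun h' => ?_⟩
  · simp only [re_xy, im_xy]
    exact ⟨⟨hx, le_rfl⟩, h⟩
  · rw [mem_OR] at h'
    simp only [re_xy, lt_self_iff_false, and_false, false_and] at h'

theorem RI_congr {f g : ℂ → E} {x₀ x₁ y₀ y₁ : ℝ} (hx : x₀ ≤ x₁) (hy : y₀ ≤ y₁)
    (h : EqOn f g (BR x₀ x₁ y₀ y₁)) : RI f x₀ x₁ y₀ y₁ = RI g x₀ x₁ y₀ y₁ := by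
  unfold RI
  rw [HI_congr fun x hx' => h (bottom_mem hx hy hx'), HI_congr fun x hx' => h (top_mem hx hy hx'),
    VI_congr fun y hy' => h (right_mem hx hy hy'), VI_congr fun y hy' => h (left_mem hx hy hy')]

theorem HI_sub {f g : ℂ → E} {x₀ x₁ y : ℝ}
    (hf : IntervalIntegrable (fun x : ℝ => f (x + y * I)) volume x₀ x₁)
    (hg : IntervalIntegrable (fun x : ℝ => g (x + y * I)) volume x₀ x₁) :
    HI (fun z => f z - g z) x₀ x₁ y = HI f x₀ x₁ y - HI g x₀ x₁ y :=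
  intervalIntegral.integral_sub hf hg

theorem VI_sub {f g : ℂ → E} {x y₀ y₁ : ℝ}
    (hf : IntervalIntegrable (fun y : ℝ => f (x + y * I)) volume y₀ y₁)
    (hg : IntervalIntegrable (fun y : ℝ => g (x + y * I)) volume y₀ y₁) :
    VI (fun z => f z - g z) x y₀ y₁ = VI f x y₀ y₁ - VI g x y₀ y₁ := by
  unfold VI
  rw [intervalIntegral.integral_sub hf hg, smul_sub]

theorem RI_sub {f g : ℂ → E} {x₀ x₁ y₀ y₁ : ℝ} (hx : x₀ ≤ x₁) (hy : y₀ ≤ y₁)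
    (hf : ContinuousOn f (BR x₀ x₁ y₀ y₁)) (hg : ContinuousOn g (BR x₀ x₁ y₀ y₁)) :
    RI (fun z => f z - g z) x₀ x₁ y₀ y₁ = RI f x₀ x₁ y₀ y₁ - RI g x₀ x₁ y₀ y₁ := by
  unfold RI
  rw [HI_sub (int_h hf fun x hx' => bottom_mem hx hy hx') (int_h hg fun x hx' => bottom_mem hx hy hx'),
    HI_sub (int_h hf fun x hx' => top_mem hx hy hx') (int_h hg fun x hx' => top_mem hx hy hx'),
    VI_sub (int_v hf fun x hx' => right_mem hx hy hx') (int_v hg fun x hx' => right_mem hx hy hx'),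
    VI_sub (int_v hf fun x hx' => left_mem hx hy hx') (int_v hg fun x hx' => left_mem hx hy hx')]
  abel

theorem RI_smul_const [CompleteSpace E] (f : ℂ → ℂ) (c : E) (x₀ x₁ y₀ y₁ : ℝ) :
    RI (fun z => f z • c) x₀ x₁ y₀ y₁ = RI f x₀ x₁ y₀ y₁ • c := by
  unfold RI HI VI
  simp only [intervalIntegral.integral_smul_const, smul_eq_mul]
  rw [sub_smul, add_smul, sub_smul, mul_smul, mul_smul]

/-! ### Cauchy-Goursat -/

variable [CompleteSpace E]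

theorem RI_zero {f : ℂ → E} {x₀ x₁ y₀ y₁ : ℝ} (hx : x₀ ≤ x₁) (hy : y₀ ≤ y₁) {s : Set ℂ}
    (hs : s.Countable) (hc : ContinuousOn f (CR x₀ x₁ y₀ y₁))
    (hd : ∀ z ∈ OR x₀ x₁ y₀ y₁, z ∉ s → DifferentiableAt ℂ f z) : RI f x₀ x₁ y₀ y₁ = 0 := by
  have h := integral_boundary_rect_eq_zero_of_differentiable_on_off_countable f ⟨x₀, y₀⟩ ⟨x₁, y₁⟩
    s hs (by simp only [uIcc_of_le hx, uIcc_of_le hy]; exact hc)
    (by
      simp only [min_eq_left hx, max_eq_right hx, min_eq_left hy, max_eq_right hy]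
      exact fun z hz => hd z hz.1 hz.2)
  exact h

/-- the integral of `1 / z` along a segment -/
theorem int_edge (c p q : ℂ) (hc : c ≠ 0) {s t : ℝ}
    (h : ∀ r ∈ [[s, t]], c * (p + (r : ℝ) * q) ∈ slitPlane) :
    ∫ r : ℝ in s..t, q * (p + r * q)⁻¹ = log (c * (p + t * q)) - log (c * (p + s * q)) := by
  have hne : ∀ r ∈ [[s, t]], p + (r : ℂ) * q ≠ 0 := fun r hr h0 => by
    have h1 := slitPlane_ne_zero (h r hr)
    rw [h0, mul_zero] at h1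
    exact h1 rfl
  refine intervalIntegral.integral_eq_sub_of_hasDerivAt (f := fun r : ℝ => log (c * (p + r * q)))
    (fun r hr => ?_) ?_
  · have h1 : HasDerivAt (fun r : ℝ => c * (p + (r : ℂ) * q)) (c * q) r := by
      have h2 : HasDerivAt (fun r : ℝ => (r : ℂ)) 1 r := Complex.ofRealCLM.hasDerivAt
      have h3 := ((h2.mul_const q).const_add p).const_mul c
      rwa [one_mul] at h3
    refine (h1.clog_real (h r hr)).congr_deriv ?_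
    have h4 := hne r hr
    field_simp
  · refine ContinuousOn.intervalIntegrable ?_
    refine continuousOn_const.mul (ContinuousOn.inv₀ (by fun_prop) hne)

theorem log_I_mul {z : ℂ} (h1 : 0 < z.re) (h2 : z.im < 0) : log (I * z) = log z + π / 2 * I := by
  have hz : z ≠ 0 := fun h => by rw [h] at h1; exact lt_irrefl _ h1
  have h3 : arg z < 0 := arg_neg_iff.2 h2
  have h4 : -(π / 2) < arg z := by
    have h5 := (abs_arg_lt_pi_div_two_iff).2 (Or.inl h1)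
    exact (abs_lt.1 h5).1
  have hpi := Real.pi_pos
  rw [(log_mul_eq_add_log_iff I_ne_zero hz).2 ?_, log_I, add_comm]
  rw [arg_I]
  constructor <;> linarith

/-- the index of a rectangle -/
theorem RI_inv {x₀ x₁ y₀ y₁ : ℝ} {a : ℂ} (ha : a ∈ OR x₀ x₁ y₀ y₁) :
    RI (fun z => (z - a)⁻¹) x₀ x₁ y₀ y₁ = 2 * π * I := by
  rw [mem_OR] at ha
  obtain ⟨⟨ha1, ha2⟩, ha3, ha4⟩ := ha
  have hx : x₀ ≤ x₁ := (ha1.trans ha2).le
  have hy : y₀ ≤ y₁ := (ha3.trans ha4).le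
  -- the four edges
  have hb : HI (fun z => (z - a)⁻¹) x₀ x₁ y₀ =
      log (I * ((x₁ : ℂ) + y₀ * I - a)) - log (I * ((x₀ : ℂ) + y₀ * I - a)) := by
    have h := int_edge I (y₀ * I - a) 1 I_ne_zero (s := x₀) (t := x₁) (fun r _ => by
      rw [mem_slitPlane_iff]
      left
      simp
      linarith)
    simp only [one_mul, mul_one] at h
    rw [show (x₁ : ℂ) + y₀ * I - a = y₀ * I - a + x₁ by ring,
      show (x₀ : ℂ) + y₀ * I - a = y₀ * I - a + x₀ by ring, ← h]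
    unfold HI
    refine intervalIntegral.integral_congr fun r _ => ?_
    change ((r : ℂ) + y₀ * I - a)⁻¹ = _
    rw [show (r : ℂ) + y₀ * I - a = y₀ * I - a + r by ring]
  have ht : HI (fun z => (z - a)⁻¹) x₀ x₁ y₁ =
      log (-I * ((x₁ : ℂ) + y₁ * I - a)) - log (-I * ((x₀ : ℂ) + y₁ * I - a)) := by
    have h := int_edge (-I) (y₁ * I - a) 1 (neg_ne_zero.2 I_ne_zero) (s := x₀) (t := x₁)
      (fun r _ => by
        rw [mem_slitPlane_iff]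
        left
        simp
        linarith)
    simp only [one_mul, mul_one] at h
    rw [show (x₁ : ℂ) + y₁ * I - a = y₁ * I - a + x₁ by ring,
      show (x₀ : ℂ) + y₁ * I - a = y₁ * I - a + x₀ by ring, ← h]
    unfold HI
    refine intervalIntegral.integral_congr fun r _ => ?_
    change ((r : ℂ) + y₁ * I - a)⁻¹ = _
    rw [show (r : ℂ) + y₁ * I - a = y₁ * I - a + r by ring]
  have hr : VI (fun z => (z - a)⁻¹) x₁ y₀ y₁ =
      log ((x₁ : ℂ) + y₁ * I - a) - log ((x₁ : ℂ) + y₀ * I - a) := by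
    have h := int_edge 1 (x₁ - a) I one_ne_zero (s := y₀) (t := y₁) (fun r _ => by
      rw [mem_slitPlane_iff]
      left
      simp
      linarith)
    simp only [one_mul] at h
    rw [show (x₁ : ℂ) + y₁ * I - a = x₁ - a + y₁ * I by ring,
      show (x₁ : ℂ) + y₀ * I - a = x₁ - a + y₀ * I by ring, ← h]
    unfold VI
    rw [smul_eq_mul, ← intervalIntegral.integral_const_mul]
    refine intervalIntegral.integral_congr fun r _ => ?_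
    change I * ((x₁ : ℂ) + r * I - a)⁻¹ = _
    rw [show (x₁ : ℂ) + r * I - a = x₁ - a + r * I by ring]
  have hl : VI (fun z => (z - a)⁻¹) x₀ y₀ y₁ =
      log (-1 * ((x₀ : ℂ) + y₁ * I - a)) - log (-1 * ((x₀ : ℂ) + y₀ * I - a)) := by
    have h := int_edge (-1) (x₀ - a) I (neg_ne_zero.2 one_ne_zero) (s := y₀) (t := y₁)
      (fun r _ => by
        rw [mem_slitPlane_iff]
        left
        simp
        linarith)
    rw [show (x₀ : ℂ) + y₁ * I - a = x₀ - a + y₁ * I by ring,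
      show (x₀ : ℂ) + y₀ * I - a = x₀ - a + y₀ * I by ring, ← h]
    unfold VI
    rw [smul_eq_mul, ← intervalIntegral.integral_const_mul]
    refine intervalIntegral.integral_congr fun r _ => ?_
    change I * ((x₀ : ℂ) + r * I - a)⁻¹ = _
    rw [show (x₀ : ℂ) + r * I - a = x₀ - a + r * I by ring]
  -- the four corners
  have c1 : log (I * ((x₁ : ℂ) + y₀ * I - a)) = log ((x₁ : ℂ) + y₀ * I - a) + π / 2 * I :=
    log_I_mul (by simp; linarith) (by simp; linarith)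
  have c2 : log ((x₁ : ℂ) + y₁ * I - a) = log (-I * ((x₁ : ℂ) + y₁ * I - a)) + π / 2 * I := by
    rw [← log_I_mul (by simp; linarith) (by simp; linarith), ← mul_assoc, mul_neg, I_mul_I,
      neg_neg, one_mul]
  have c3 : log (-I * ((x₀ : ℂ) + y₁ * I - a)) = log (-1 * ((x₀ : ℂ) + y₁ * I - a)) + π / 2 * I := by
    rw [← log_I_mul (by simp; linarith) (by simp; linarith), ← mul_assoc, mul_neg, mul_one]
  have c4 : log (-1 * ((x₀ : ℂ) + y₀ * I - a)) = log (I * ((x₀ : ℂ) + y₀ * I - a)) + π / 2 * I := by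
    rw [← log_I_mul (by simp; linarith) (by simp; linarith), ← mul_assoc, I_mul_I]
  unfold RI
  rw [hb, ht, hr, hl, c1, c2, c3, c4]
  ring

theorem notMem_BR {x₀ x₁ y₀ y₁ : ℝ} {a : ℂ} (ha : a ∈ OR x₀ x₁ y₀ y₁) {z : ℂ}
    (hz : z ∈ BR x₀ x₁ y₀ y₁) : z ≠ a := fun h => hz.2 (h ▸ ha)

theorem notMem_BR' {x₀ x₁ y₀ y₁ : ℝ} {a : ℂ} (ha : a ∉ CR x₀ x₁ y₀ y₁) {z : ℂ}
    (hz : z ∈ CR x₀ x₁ y₀ y₁) : z ≠ a := fun h => ha (h ▸ hz)

theorem cont_inv {S : Set ℂ} {a : ℂ} (h : ∀ z ∈ S, z ≠ a) :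
    ContinuousOn (fun z => (z - a)⁻¹) S :=
  ContinuousOn.inv₀ (by fun_prop) fun z hz => sub_ne_zero.2 (h z hz)

theorem RI_split (f : ℂ → E) (c : E) {x₀ x₁ y₀ y₁ : ℝ} (hx : x₀ ≤ x₁) (hy : y₀ ≤ y₁) {a : ℂ}
    (ha : ContinuousOn (fun z => (z - a)⁻¹) (BR x₀ x₁ y₀ y₁))
    (hf : ContinuousOn f (BR x₀ x₁ y₀ y₁)) :
    RI (fun z => (z - a)⁻¹ • f z - (z - a)⁻¹ • c) x₀ x₁ y₀ y₁ =
      RI (fun z => (z - a)⁻¹ • f z) x₀ x₁ y₀ y₁ - RI (fun z => (z - a)⁻¹) x₀ x₁ y₀ y₁ • c := by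
  have h1 : ContinuousOn (fun z => (z - a)⁻¹ • f z) (BR x₀ x₁ y₀ y₁) := ha.smul hf
  have h2 : ContinuousOn (fun z => (z - a)⁻¹ • c) (BR x₀ x₁ y₀ y₁) := ha.smul continuousOn_const
  rw [RI_sub hx hy h1 h2, RI_smul_const]

/-- **Cauchy formula for a rectangle** -/
theorem cauchy_rect {f : ℂ → E} {x₀ x₁ y₀ y₁ : ℝ} {a : ℂ} (ha : a ∈ OR x₀ x₁ y₀ y₁)
    (hc : ContinuousOn f (CR x₀ x₁ y₀ y₁))
    (hd : ∀ z ∈ OR x₀ x₁ y₀ y₁, DifferentiableAt ℂ f z) :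
    RI (fun z => (z - a)⁻¹ • f z) x₀ x₁ y₀ y₁ = (2 * π * I : ℂ) • f a := by
  obtain ⟨⟨ha1, ha2⟩, ha3, ha4⟩ := mem_OR.1 ha
  have hx : x₀ ≤ x₁ := (ha1.trans ha2).le
  have hy : y₀ ≤ y₁ := (ha3.trans ha4).le
  have hn : CR x₀ x₁ y₀ y₁ ∈ 𝓝 a :=
    mem_of_superset ((isOpen_OR _ _ _ _).mem_nhds ha) (OR_subset_CR _ _ _ _)
  have hcs : ContinuousOn (dslope f a) (CR x₀ x₁ y₀ y₁) :=
    (continuousOn_dslope hn).2 ⟨hc, hd a ha⟩
  have h0 : RI (dslope f a) x₀ x₁ y₀ y₁ = 0 :=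
    RI_zero hx hy (s := {a}) (countable_singleton a) hcs fun z hz hza =>
      (differentiableAt_dslope_of_ne hza).2 (hd z hz)
  have h1 : RI (dslope f a) x₀ x₁ y₀ y₁ =
      RI (fun z => (z - a)⁻¹ • f z - (z - a)⁻¹ • f a) x₀ x₁ y₀ y₁ := by
    refine RI_congr hx hy fun z hz => ?_
    have h2 : z ≠ a := notMem_BR ha hz
    rw [dslope_of_ne f h2, slope_def_module, smul_sub]
  have hci : ContinuousOn (fun z => (z - a)⁻¹) (BR x₀ x₁ y₀ y₁) :=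
    cont_inv fun z hz => notMem_BR ha hz
  rw [h1, RI_split f (f a) hx hy hci (hc.mono fun z hz => hz.1), RI_inv ha, sub_eq_zero] at h0
  exact h0

theorem RI_outside {f : ℂ → E} {x₀ x₁ y₀ y₁ : ℝ} (hx : x₀ ≤ x₁) (hy : y₀ ≤ y₁) {a : ℂ}
    (ha : a ∉ CR x₀ x₁ y₀ y₁) (hc : ContinuousOn f (CR x₀ x₁ y₀ y₁))
    (hd : ∀ z ∈ OR x₀ x₁ y₀ y₁, DifferentiableAt ℂ f z) :
    RI (fun z => (z - a)⁻¹ • f z) x₀ x₁ y₀ y₁ = 0 := by
  refine RI_zero hx hy (s := ∅) countable_empty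
    ((cont_inv fun z hz => notMem_BR' ha hz).smul hc) fun z hz _ => ?_
  have h1 : z - a ≠ 0 := sub_ne_zero.2 (notMem_BR' ha (OR_subset_CR _ _ _ _ hz))
  exact ((differentiableAt_id.sub_const a).inv h1).smul (hd z hz)

/-! ### the exterior -/

/-- the boundary integrals over two nested rectangles -/
theorem RI_nested {g : ℂ → E} {x₀ x₁ y₀ y₁ X₀ X₁ Y₀ Y₁ : ℝ} (hx : x₀ ≤ x₁) (hy : y₀ ≤ y₁)
    (hX₀ : X₀ ≤ x₀) (hX₁ : x₁ ≤ X₁) (hY₀ : Y₀ ≤ y₀) (hY₁ : y₁ ≤ Y₁) {s : Set ℂ}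
    (hs : s.Countable) (hc : ContinuousOn g (OR x₀ x₁ y₀ y₁)ᶜ)
    (hd : ∀ z ∉ CR x₀ x₁ y₀ y₁, z ∉ s → DifferentiableAt ℂ g z) :
    RI g x₀ x₁ y₀ y₁ = RI g X₀ X₁ Y₀ Y₁ := by
  have hout : ∀ {x y : ℝ}, (x ≤ x₀ ∨ x₁ ≤ x ∨ y ≤ y₀ ∨ y₁ ≤ y) →
      (x : ℂ) + y * I ∈ (OR x₀ x₁ y₀ y₁)ᶜ := by
    intro x y h hmem
    rw [mem_OR] at hmem
    simp only [re_xy, im_xy] at hmem
    obtain ⟨⟨m1, m2⟩, m3, m4⟩ := hmem
    rcases h with h | h | h | h <;> linarith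
  have hout' : ∀ {z : ℂ}, (z.re ≤ x₀ ∨ x₁ ≤ z.re ∨ z.im ≤ y₀ ∨ y₁ ≤ z.im) →
      z ∈ (OR x₀ x₁ y₀ y₁)ᶜ := by
    intro z h hmem
    obtain ⟨⟨m1, m2⟩, m3, m4⟩ := mem_OR.1 hmem
    rcases h with h | h | h | h <;> linarith
  have hout2 : ∀ {z : ℂ}, (z.re < x₀ ∨ x₁ < z.re ∨ z.im < y₀ ∨ y₁ < z.im) →
      z ∉ CR x₀ x₁ y₀ y₁ := by
    intro z h hmem
    obtain ⟨⟨m1, m2⟩, m3, m4⟩ := mem_CR.1 hmem
    rcases h with h | h | h | h <;> linarith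
  have hL : RI g X₀ x₀ Y₀ Y₁ = 0 := RI_zero hX₀ (hY₀.trans (hy.trans hY₁)) hs
    (hc.mono fun z hz => hout' (Or.inl (mem_CR.1 hz).1.2))
    fun z hz hzs => hd z (hout2 (Or.inl (mem_OR.1 hz).1.2)) hzs
  have hR : RI g x₁ X₁ Y₀ Y₁ = 0 := RI_zero hX₁ (hY₀.trans (hy.trans hY₁)) hs
    (hc.mono fun z hz => hout' (Or.inr (Or.inl (mem_CR.1 hz).1.1)))
    fun z hz hzs => hd z (hout2 (Or.inr (Or.inl (mem_OR.1 hz).1.1))) hzs
  have hB : RI g x₀ x₁ Y₀ y₀ = 0 := RI_zero hx hY₀ hs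
    (hc.mono fun z hz => hout' (Or.inr (Or.inr (Or.inl (mem_CR.1 hz).2.2))))
    fun z hz hzs => hd z (hout2 (Or.inr (Or.inr (Or.inl (mem_OR.1 hz).2.2)))) hzs
  have hT : RI g x₀ x₁ y₁ Y₁ = 0 := RI_zero hx hY₁ hs
    (hc.mono fun z hz => hout' (Or.inr (Or.inr (Or.inr (mem_CR.1 hz).2.1))))
    fun z hz hzs => hd z (hout2 (Or.inr (Or.inr (Or.inr (mem_OR.1 hz).2.1)))) hzs
  have hh : ∀ {y s t : ℝ}, (y ≤ y₀ ∨ y₁ ≤ y) →
      IntervalIntegrable (fun x : ℝ => g (x + y * I)) volume s t := fun h =>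
    int_h hc fun x _ => hout (Or.inr (Or.inr h))
  have hv : ∀ {x s t : ℝ}, (x ≤ x₀ ∨ x₁ ≤ x) →
      IntervalIntegrable (fun y : ℝ => g (x + y * I)) volume s t := fun h =>
    int_v hc fun y _ => hout (by tauto)
  have e1 := HI_add (f := g) (x₀ := X₀) (x₁ := x₀) (x₂ := X₁) (y := Y₀) (hh (Or.inl hY₀))
    (hh (Or.inl hY₀))
  have e2 := HI_add (f := g) (x₀ := x₀) (x₁ := x₁) (x₂ := X₁) (y := Y₀) (hh (Or.inl hY₀))
    (hh (Or.inl hY₀))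
  have e3 := HI_add (f := g) (x₀ := X₀) (x₁ := x₀) (x₂ := X₁) (y := Y₁) (hh (Or.inr hY₁))
    (hh (Or.inr hY₁))
  have e4 := HI_add (f := g) (x₀ := x₀) (x₁ := x₁) (x₂ := X₁) (y := Y₁) (hh (Or.inr hY₁))
    (hh (Or.inr hY₁))
  have e5 := VI_add (f := g) (x := x₀) (y₀ := Y₀) (y₁ := y₀) (y₂ := Y₁) (hv (Or.inl le_rfl))
    (hv (Or.inl le_rfl))
  have e6 := VI_add (f := g) (x := x₀) (y₀ := y₀) (y₁ := y₁) (y₂ := Y₁) (hv (Or.inl le_rfl))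
    (hv (Or.inl le_rfl))
  have e7 := VI_add (f := g) (x := x₁) (y₀ := Y₀) (y₁ := y₀) (y₂ := Y₁) (hv (Or.inr le_rfl))
    (hv (Or.inr le_rfl))
  have e8 := VI_add (f := g) (x := x₁) (y₀ := y₀) (y₁ := y₁) (y₂ := Y₁) (hv (Or.inr le_rfl))
    (hv (Or.inr le_rfl))
  have key : RI g X₀ X₁ Y₀ Y₁ = RI g x₀ x₁ y₀ y₁ + RI g X₀ x₀ Y₀ Y₁ + RI g x₁ X₁ Y₀ Y₁ +
      RI g x₀ x₁ Y₀ y₀ + RI g x₀ x₁ y₁ Y₁ := by
    unfold RI
    rw [← e1, ← e2, ← e3, ← e4, ← e5, ← e6, ← e7, ← e8]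
    abel
  rw [key, hL, hR, hB, hT]
  abel

theorem norm_HI_le {f : ℂ → E} {x₀ x₁ y C : ℝ} (hx : x₀ ≤ x₁)
    (h : ∀ x ∈ Icc x₀ x₁, ‖f (x + y * I)‖ ≤ C) : ‖HI f x₀ x₁ y‖ ≤ C * (x₁ - x₀) := by
  have h1 := intervalIntegral.norm_integral_le_of_norm_le_const (a := x₀) (b := x₁)
    (f := fun x : ℝ => f (x + y * I)) (C := C) fun x hx' => by
      rw [uIoc_of_le hx] at hx'
      exact h x ⟨hx'.1.le, hx'.2⟩
  rwa [abs_of_nonneg (by linarith)] at h1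

theorem norm_VI_le {f : ℂ → E} {x y₀ y₁ C : ℝ} (hy : y₀ ≤ y₁)
    (h : ∀ y ∈ Icc y₀ y₁, ‖f (x + y * I)‖ ≤ C) : ‖VI f x y₀ y₁‖ ≤ C * (y₁ - y₀) := by
  have h1 := intervalIntegral.norm_integral_le_of_norm_le_const (a := y₀) (b := y₁)
    (f := fun y : ℝ => f (x + y * I)) (C := C) fun y hy' => by
      rw [uIoc_of_le hy] at hy'
      exact h y ⟨hy'.1.le, hy'.2⟩
  rw [abs_of_nonneg (by linarith)] at h1
  unfold VI
  rw [norm_smul, norm_I, one_mul]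
  exact h1

theorem norm_RI_le {f : ℂ → E} {R C : ℝ} (hR : 0 ≤ R)
    (h : ∀ z ∈ BR (-R) R (-R) R, ‖f z‖ ≤ C) : ‖RI f (-R) R (-R) R‖ ≤ 8 * C * R := by
  have hx : -R ≤ R := by linarith
  have h1 : ‖HI f (-R) R (-R)‖ ≤ C * (R - -R) := norm_HI_le hx fun x hx' =>
    h _ (bottom_mem hx hx (by rw [uIcc_of_le hx]; exact hx'))
  have h2 : ‖HI f (-R) R R‖ ≤ C * (R - -R) := norm_HI_le hx fun x hx' =>
    h _ (top_mem hx hx (by rw [uIcc_of_le hx]; exact hx'))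
  have h3 : ‖VI f R (-R) R‖ ≤ C * (R - -R) := norm_VI_le hx fun x hx' =>
    h _ (right_mem hx hx (by rw [uIcc_of_le hx]; exact hx'))
  have h4 : ‖VI f (-R) (-R) R‖ ≤ C * (R - -R) := norm_VI_le hx fun x hx' =>
    h _ (left_mem hx hx (by rw [uIcc_of_le hx]; exact hx'))
  unfold RI
  have h5 := norm_sub_le (HI f (-R) R (-R) - HI f (-R) R R + VI f R (-R) R) (VI f (-R) (-R) R)
  have h6 := norm_add_le (HI f (-R) R (-R) - HI f (-R) R R) (VI f R (-R) R)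
  have h7 := norm_sub_le (HI f (-R) R (-R)) (HI f (-R) R R)
  linarith

/-- on the boundary of a large square the points are large -/
theorem le_norm_of_BR {R : ℝ} {z : ℂ} (h : z ∈ BR (-R) R (-R) R) : R ≤ ‖z‖ := by
  by_contra hlt
  push Not at hlt
  refine h.2 (mem_OR.2 ?_)
  have h1 := (abs_re_le_norm z).trans_lt hlt
  have h2 := (abs_im_le_norm z).trans_lt hlt
  exact ⟨abs_lt.1 h1, abs_lt.1 h2⟩

/-- the integral of `(f - L) / (z - a)` over large squares -/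
theorem tendsto_RI {f : ℂ → E} {L : E} (a : ℂ) (hf : Tendsto f (cocompact ℂ) (𝓝 L)) :
    Tendsto (fun R : ℝ => RI (fun z => (z - a)⁻¹ • (f z - L)) (-R) R (-R) R) atTop (𝓝 0) := by
  rw [Metric.tendsto_atTop]
  intro ε hε
  have h1 : ∀ᶠ z in cocompact ℂ, ‖f z - L‖ < ε / 32 := by
    have h2 := (hf.sub_const L).norm
    rw [sub_self, norm_zero] at h2
    exact h2.eventually (gt_mem_nhds (by positivity))
  rw [← Metric.cobounded_eq_cocompact, Filter.hasBasis_cobounded_norm.eventually_iff] at h1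
  obtain ⟨R₀, -, hR₀⟩ := h1
  refine ⟨max (max R₀ 1) (2 * ‖a‖ + 1), fun R hR => ?_⟩
  have r1 : R₀ ≤ R := ((le_max_left _ _).trans (le_max_left _ _)).trans hR
  have r2 : 1 ≤ R := ((le_max_right _ _).trans (le_max_left _ _)).trans hR
  have r3 : 2 * ‖a‖ + 1 ≤ R := (le_max_right _ _).trans hR
  have hRp : 0 < R := by linarith
  rw [dist_zero_right]
  have h3 : ‖RI (fun z => (z - a)⁻¹ • (f z - L)) (-R) R (-R) R‖ ≤
      8 * (2 / R * (ε / 32)) * R := by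
    refine norm_RI_le hRp.le fun z hz => ?_
    have hz1 := le_norm_of_BR hz
    have hz2 : ‖f z - L‖ < ε / 32 := hR₀ (r1.trans hz1)
    have hz3 : R / 2 ≤ ‖z - a‖ := by
      have h4 := norm_sub_norm_le z a
      linarith [norm_nonneg a]
    rw [norm_smul, norm_inv]
    refine mul_le_mul ?_ hz2.le (norm_nonneg _) (by positivity)
    rw [inv_le_comm₀ (by linarith) (by positivity), inv_div]
    exact hz3
  have h5 : 8 * (2 / R * (ε / 32)) * R = ε / 2 := by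
    field_simp
    ring
  linarith

/-- **exterior Cauchy formula**, point inside the rectangle -/
theorem cauchy_ext {f : ℂ → E} {L : E} {x₀ x₁ y₀ y₁ : ℝ} {a : ℂ} (ha : a ∈ OR x₀ x₁ y₀ y₁)
    (hc : ContinuousOn f (OR x₀ x₁ y₀ y₁)ᶜ) (hd : ∀ z ∉ CR x₀ x₁ y₀ y₁, DifferentiableAt ℂ f z)
    (hL : Tendsto f (cocompact ℂ) (𝓝 L)) :
    RI (fun z => (z - a)⁻¹ • f z) x₀ x₁ y₀ y₁ = (2 * π * I : ℂ) • L := by
  obtain ⟨⟨ha1, ha2⟩, ha3, ha4⟩ := mem_OR.1 ha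
  have hx : x₀ ≤ x₁ := (ha1.trans ha2).le
  have hy : y₀ ≤ y₁ := (ha3.trans ha4).le
  have hci : ContinuousOn (fun z => (z - a)⁻¹) (OR x₀ x₁ y₀ y₁)ᶜ :=
    cont_inv fun z hz h => hz (h ▸ ha)
  have hsub : BR x₀ x₁ y₀ y₁ ⊆ (OR x₀ x₁ y₀ y₁)ᶜ := fun z hz => hz.2
  have hconst : ∀ᶠ R : ℝ in atTop, RI (fun z => (z - a)⁻¹ • (f z - L)) (-R) R (-R) R =
      RI (fun z => (z - a)⁻¹ • (f z - L)) x₀ x₁ y₀ y₁ := by
    filter_upwards [eventually_ge_atTop (max (max |x₀| |x₁|) (max |y₀| |y₁|))] with R hR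
    have r1 : |x₀| ≤ R := ((le_max_left _ _).trans (le_max_left _ _)).trans hR
    have r2 : |x₁| ≤ R := ((le_max_right _ _).trans (le_max_left _ _)).trans hR
    have r3 : |y₀| ≤ R := ((le_max_left _ _).trans (le_max_right _ _)).trans hR
    have r4 : |y₁| ≤ R := ((le_max_right _ _).trans (le_max_right _ _)).trans hR
    refine (RI_nested hx hy (abs_le.1 r1).1 (abs_le.1 r2).2 (abs_le.1 r3).1 (abs_le.1 r4).2
      (s := ∅) countable_empty (hci.smul (hc.sub continuousOn_const)) fun z hz _ => ?_).symm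
    have h1 : z - a ≠ 0 := sub_ne_zero.2 fun h => hz (h ▸ OR_subset_CR _ _ _ _ ha)
    exact ((differentiableAt_id.sub_const a).inv h1).smul ((hd z hz).sub_const L)
  have h0 : RI (fun z => (z - a)⁻¹ • (f z - L)) x₀ x₁ y₀ y₁ = 0 := by
    have h1 := (tendsto_RI a hL).congr' hconst
    exact (tendsto_nhds_unique h1 tendsto_const_nhds).symm
  simp only [smul_sub] at h0
  rw [RI_split f L hx hy (hci.mono hsub) (hc.mono hsub), RI_inv ha, sub_eq_zero] at h0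
  exact h0

/-- **exterior Cauchy formula**, point outside the rectangle -/
theorem cauchy_ext' {f : ℂ → E} {L : E} {x₀ x₁ y₀ y₁ : ℝ} (hx : x₀ ≤ x₁) (hy : y₀ ≤ y₁) {a : ℂ}
    (ha : a ∉ CR x₀ x₁ y₀ y₁)
    (hc : ContinuousOn f (OR x₀ x₁ y₀ y₁)ᶜ) (hd : ∀ z ∉ CR x₀ x₁ y₀ y₁, DifferentiableAt ℂ f z)
    (hL : Tendsto f (cocompact ℂ) (𝓝 L)) :
    RI (fun z => (z - a)⁻¹ • f z) x₀ x₁ y₀ y₁ = (2 * π * I : ℂ) • (L - f a) := by
  have hn : (OR x₀ x₁ y₀ y₁)ᶜ ∈ 𝓝 a :=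
    mem_of_superset ((isClosed_CR _ _ _ _).isOpen_compl.mem_nhds ha)
      (compl_subset_compl.2 (OR_subset_CR _ _ _ _))
  have hcs : ContinuousOn (dslope f a) (OR x₀ x₁ y₀ y₁)ᶜ :=
    (continuousOn_dslope hn).2 ⟨hc, hd a ha⟩
  have hB : ∀ {z}, z ∈ BR x₀ x₁ y₀ y₁ → z ≠ a := fun hz => notMem_BR' ha hz.1
  have hci : ContinuousOn (fun z => (z - a)⁻¹) (BR x₀ x₁ y₀ y₁) := cont_inv fun z hz => hB hz
  have hsub : BR x₀ x₁ y₀ y₁ ⊆ (OR x₀ x₁ y₀ y₁)ᶜ := fun z hz => hz.2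
  have hconst : ∀ᶠ R : ℝ in atTop, RI (fun z => (z - a)⁻¹ • (f z - L)) (-R) R (-R) R +
      (2 * π * I : ℂ) • (L - f a) = RI (dslope f a) x₀ x₁ y₀ y₁ := by
    filter_upwards [eventually_ge_atTop (max (max |x₀| |x₁|) (max |y₀| |y₁|)),
      eventually_gt_atTop ‖a‖] with R hR hRa
    have r1 : |x₀| ≤ R := ((le_max_left _ _).trans (le_max_left _ _)).trans hR
    have r2 : |x₁| ≤ R := ((le_max_right _ _).trans (le_max_left _ _)).trans hR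
    have r3 : |y₀| ≤ R := ((le_max_left _ _).trans (le_max_right _ _)).trans hR
    have r4 : |y₁| ≤ R := ((le_max_right _ _).trans (le_max_right _ _)).trans hR
    have haR : a ∈ OR (-R) R (-R) R :=
      mem_OR.2 ⟨abs_lt.1 ((abs_re_le_norm a).trans_lt hRa),
        abs_lt.1 ((abs_im_le_norm a).trans_lt hRa)⟩
    have hRR : -R ≤ R := by linarith [norm_nonneg a]
    have hsq : BR (-R) R (-R) R ⊆ (OR x₀ x₁ y₀ y₁)ᶜ := by
      intro z hz hmem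
      obtain ⟨⟨m1, m2⟩, m3, m4⟩ := mem_OR.1 hmem
      exact hz.2 (mem_OR.2 ⟨⟨(abs_le.1 r1).1.trans_lt m1, m2.trans_le (abs_le.1 r2).2⟩,
        (abs_le.1 r3).1.trans_lt m3, m4.trans_le (abs_le.1 r4).2⟩)
    have hciR : ContinuousOn (fun z => (z - a)⁻¹) (BR (-R) R (-R) R) :=
      cont_inv fun z hz => notMem_BR haR hz
    rw [RI_nested hx hy (abs_le.1 r1).1 (abs_le.1 r2).2 (abs_le.1 r3).1 (abs_le.1 r4).2
      (s := {a}) (countable_singleton a) hcs fun z hz hza =>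
        (differentiableAt_dslope_of_ne hza).2 (hd z hz)]
    have h2 : RI (dslope f a) (-R) R (-R) R =
        RI (fun z => (z - a)⁻¹ • (f z - L) - (z - a)⁻¹ • (f a - L)) (-R) R (-R) R := by
      refine RI_congr hRR hRR fun z hz => ?_
      rw [dslope_of_ne f (notMem_BR haR hz), slope_def_module, ← smul_sub, sub_sub_sub_cancel_right]
    rw [h2, RI_split (fun z => f z - L) (f a - L) hRR hRR hciR
      ((hc.mono hsq).sub continuousOn_const), RI_inv haR, ← neg_sub L (f a), smul_neg,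
      sub_neg_eq_add]
  have h0 : RI (dslope f a) x₀ x₁ y₀ y₁ = (2 * π * I : ℂ) • (L - f a) := by
    have h1 := ((tendsto_RI a hL).add_const ((2 * π * I : ℂ) • (L - f a))).congr' hconst
    rw [zero_add] at h1
    exact tendsto_nhds_unique tendsto_const_nhds h1
  have h1 : RI (dslope f a) x₀ x₁ y₀ y₁ =
      RI (fun z => (z - a)⁻¹ • f z - (z - a)⁻¹ • f a) x₀ x₁ y₀ y₁ := by
    refine RI_congr hx hy fun z hz => ?_
    rw [dslope_of_ne f (hB hz), slope_def_module, smul_sub]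
  have h2 : RI (fun z => (z - a)⁻¹) x₀ x₁ y₀ y₁ = 0 := by
    refine RI_zero hx hy (s := ∅) countable_empty (cont_inv fun z hz => notMem_BR' ha hz)
      fun z hz _ => ?_
    exact (differentiableAt_id.sub_const a).inv
      (sub_ne_zero.2 (notMem_BR' ha (OR_subset_CR _ _ _ _ hz)))
  rw [h1, RI_split f (f a) hx hy hci (hc.mono hsub), h2, zero_smul, sub_zero] at h0
  exact h0

end Vale.Agent.P030.H440
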