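import Vale.Agent.P030.H69.ChunkI
import Vale.Agent.P030.H532.Main

/-!
# P030, route N: from the chunks to the pieces
-/

namespace Vale.Agent.P030.H440.Bd

open Vale.Agent.P030.H532
open Vale.Agent.P030.H69

/-- the comparisons are the machine form of the pairs -/
def cmpsOk (sd : ℕ) (cs : List ℕ) : List (ℕ × ℕ) → List Cmp → Bool
  | [], [] => true
  | x :: l, c :: m =>
    decide (c.si = 96 * x.1 ∧ c.sj = 96 * x.2 ∧ c.al = cs.getD x.1 0 + 610 * sd ∧
      c.be = cs.getD x.2 0) && cmpsOk sd cs l m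
  | _, _ => false

theorem cmps_of {D : KTab} {cs : List ℕ} {sd : ℕ} (hs : D.SD = sd) :
    ∀ {prs : List (ℕ × ℕ)} {cmps : List Cmp}, cmpsOk sd cs prs cmps = true →
    cmps = prs.map (D.mkC cs)
  | [], [], _ => rfl
  | x :: l, c :: m, h => by
    rw [cmpsOk, Bool.and_eq_true, decide_eq_true_eq] at h
    obtain ⟨⟨h1, h2, h3, h4⟩, h5⟩ := h
    rw [List.map_cons, ← cmps_of hs h5]
    obtain ⟨si, sj, al, be⟩ := c
    simp only at h1 h2 h3 h4
    rw [KTab.mkC, hs, h1, h2, h3, h4]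
  | [], c :: m, h => by simp [cmpsOk] at h
  | x :: l, [], h => by simp [cmpsOk] at h

/-- everything static about a piece -/
def fixOk (sd N : ℕ) (cs : List ℕ) (p : Piece) (s : ℕ) (pc : PC) (prs : List (ℕ × ℕ))
    (cmps : List Cmp) : Bool :=
  pcOkI N p s pc && (prs.all fun x => decide (x.1 < 8 ∧ x.2 < 8)) && cmpsOk sd cs prs cmps

/-- the conclusion for a parameter interval of a piece -/
def On (D : KTab) (p : Piece) (prs : List (ℕ × ℕ)) (t0 t1 : ℕ) : Prop :=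
  ∀ t : ℝ, (t0 : ℝ) ≤ t → t ≤ t1 → p.den t ≠ 0 → 0 ≤ (p.z t).im →
    ∀ x ∈ prs, D.toTab.W x.1 (p.z t) ≤ D.toTab.W x.2 (p.z t)

theorem On.trans {D : KTab} {p : Piece} {prs : List (ℕ × ℕ)} {a b c : ℕ}
    (h1 : On D p prs a b) (h2 : On D p prs b c) : On D p prs a c := by
  intro t ht0 ht1 hd him
  rcases le_total t b with h | h
  · exact h1 t ht0 h hd him
  · exact h2 t h ht1 hd him

/-- **one chunk** -/
theorem on_chunk {D : KTab} (hD : D.ok = true) {sd : ℕ} (hs : D.SD = sd) {cs : List ℕ}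
    (hcs : csOk cs D.G = true) {p : Piece} {s : ℕ} {pc : PC} {prs : List (ℕ × ℕ)}
    {cmps : List Cmp} (hf : fixOk sd D.N cs p s pc prs cmps = true) {cls : List Cell}
    {t0 t1 : ℕ} (h : chunk pc D.ents cmps cls t0 t1 = true)
    (hl : (t0 < t1 ∧ t1 ≤ t0 + len cls)) : On D p prs t0 t1 := by
  rw [fixOk, Bool.and_eq_true, Bool.and_eq_true, List.all_eq_true] at hf
  obtain ⟨⟨f1, f2⟩, f3⟩ := hf
  intro t ht0 ht1 hd him
  refine chunk_soundI Lw.lgSpec hD f1 hcs (fun x hx => of_decide_eq_true (f2 x hx))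
    (cmps_of hs f3) ?_ h ht0 ht1 (ht1.trans ?_) hd him
  · rintro rfl
    simp [len] at hl
    omega
  · exact_mod_cast hl.2

end Vale.Agent.P030.H440.Bd
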