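import Vale.Agent.P030.H440.Run
import Vale.Agent.P030.H250.Chunk

/-!
# P030, route N: from the chunks to the pieces, in the form of H250
-/

namespace Vale.Agent.P030.H440.Bd

open Vale.Agent.P030.H532

/-- in the form of H250 -/
theorem On.onI {D : KTab} {p : Piece} {prs : List (ℕ × ℕ)} {a b : ℕ} {a' b' : ℤ}
    (h : On D p prs a b) (ha : a' = a) (hb : b' = b) : H250.OnI D.toTab.W p prs a' b' := by
  subst ha hb
  intro t h0 h1 hd him
  exact h t (by simpa using h0) (by simpa using h1) hd him

end Vale.Agent.P030.H440.Bd
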