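import Mathlib

/-!
# P030, archimedean certificate: logarithmic potentials on one cell of a curve

`F e0 e al be s = e0 + Σ e_k log ‖al_k + s be_k‖` for real `s`.  Straight pieces and arcs of circles
both lead to this form.  On a cell `s = s0 + h σ`, `|σ| ≤ 1`, it is a polynomial in `σ` up to an
explicit remainder; the linear and quadratic terms of all poles are combined.
-/

open Finset

namespace Vale.Agent.P030.H440

/-! ### one pole -/

/-- Taylor polynomial of `log ‖1 + σ z‖` -/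
noncomputable def tay (M : ℕ) (z : ℂ) (σ : ℝ) : ℝ :=
  ∑ m ∈ range M, σ ^ (m + 1) * ((-1) ^ m / ((m : ℝ) + 1) * (z ^ (m + 1)).re)

theorem tay_eq (M : ℕ) (z : ℂ) (σ : ℝ) :
    tay M z σ = (Complex.logTaylor (M + 1) (σ * z)).re := by
  rw [Complex.logTaylor, sum_range_succ', Complex.add_re, Complex.re_sum, tay]
  simp only [Nat.cast_zero, div_zero, Complex.zero_re, add_zero]
  refine sum_congr rfl fun m _ => ?_
  have h : ((-1 : ℂ) ^ (m + 1 + 1) * ((σ : ℂ) * z) ^ (m + 1) / ((m + 1 : ℕ) : ℂ))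
      = ((σ ^ (m + 1) * ((-1) ^ m / ((m : ℝ) + 1)) : ℝ) : ℂ) * z ^ (m + 1) := by
    push_cast
    rw [mul_pow]
    ring
  rw [h, Complex.re_ofReal_mul]
  ring

theorem log_tay {M : ℕ} {z : ℂ} {r σ : ℝ} (hz : ‖z‖ ≤ r) (hr : r < 1) (hσ : |σ| ≤ 1) :
    |Real.log ‖1 + σ * z‖ - tay M z σ| ≤ r ^ (M + 1) / ((M + 1) * (1 - r)) := by
  have h0 : ‖(σ : ℂ) * z‖ ≤ r := by
    rw [norm_mul, Complex.norm_real, Real.norm_eq_abs]
    calc |σ| * ‖z‖ ≤ 1 * ‖z‖ := mul_le_mul_of_nonneg_right hσ (norm_nonneg _)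
      _ ≤ r := by rw [one_mul]; exact hz
  have h1 := Complex.norm_log_sub_logTaylor_le M (lt_of_le_of_lt h0 hr)
  have h2 : |Real.log ‖1 + σ * z‖ - tay M z σ|
      ≤ ‖Complex.log (1 + σ * z) - Complex.logTaylor (M + 1) (σ * z)‖ := by
    rw [tay_eq, ← Complex.log_re, ← Complex.sub_re]
    exact Complex.abs_re_le_norm _
  refine h2.trans (h1.trans ?_)
  have hr0 : 0 ≤ r := le_trans (norm_nonneg _) h0
  rw [← div_eq_mul_inv, div_div, mul_comm (1 - ‖(σ : ℂ) * z‖)]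
  have h3 : (0 : ℝ) < ((M : ℝ) + 1) * (1 - r) := mul_pos (by positivity) (by linarith)
  refine div_le_div₀ (pow_nonneg hr0 _) (pow_le_pow_left₀ (norm_nonneg _) h0 _) h3 ?_
  exact mul_le_mul_of_nonneg_left (by linarith) (by positivity)

theorem log_pert {z w : ℂ} {r ε σ : ℝ} (hz : ‖z‖ ≤ r) (hw : ‖w - z‖ ≤ ε) (hr : r + ε < 1)
    (hσ : |σ| ≤ 1) :
    |Real.log ‖1 + σ * w‖ - Real.log ‖1 + σ * z‖| ≤ ε / (1 - r - ε) := by
  have hε : 0 ≤ ε := le_trans (norm_nonneg _) hw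
  have hd : 0 < 1 - r - ε := by linarith
  have hσz : ‖(σ : ℂ) * z‖ ≤ r := by
    rw [norm_mul, Complex.norm_real, Real.norm_eq_abs]
    calc |σ| * ‖z‖ ≤ 1 * ‖z‖ := mul_le_mul_of_nonneg_right hσ (norm_nonneg _)
      _ ≤ r := by rw [one_mul]; exact hz
  have hdiff : ‖(σ : ℂ) * w - σ * z‖ ≤ ε := by
    rw [← mul_sub, norm_mul, Complex.norm_real, Real.norm_eq_abs]
    calc |σ| * ‖w - z‖ ≤ 1 * ‖w - z‖ := mul_le_mul_of_nonneg_right hσ (norm_nonneg _)
      _ ≤ ε := by rw [one_mul]; exact hw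
  have hb : 1 - r - ε ≤ ‖1 + (σ : ℂ) * z‖ := by
    have := norm_sub_norm_le (1 : ℂ) (-((σ : ℂ) * z))
    rw [norm_one, norm_neg, sub_neg_eq_add] at this
    linarith
  have hab : |‖1 + (σ : ℂ) * w‖ - ‖1 + (σ : ℂ) * z‖| ≤ ε := by
    refine (abs_norm_sub_norm_le _ _).trans ?_
    rw [add_sub_add_left_eq_sub]
    exact hdiff
  have ha : 1 - r - ε ≤ ‖1 + (σ : ℂ) * w‖ := by
    have h1 := (abs_le.1 (abs_norm_sub_norm_le (1 + (σ : ℂ) * w) (1 + (σ : ℂ) * z))).1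
    have := norm_sub_norm_le (1 : ℂ) (-((σ : ℂ) * z))
    rw [norm_one, norm_neg, sub_neg_eq_add] at this
    rw [add_sub_add_left_eq_sub] at h1
    linarith
  have key : ∀ a b : ℝ, 1 - r - ε ≤ a → 1 - r - ε ≤ b → |a - b| ≤ ε →
      Real.log a - Real.log b ≤ ε / (1 - r - ε) := by
    intro a b ha hb hab
    have ha0 : 0 < a := lt_of_lt_of_le hd ha
    have hb0 : 0 < b := lt_of_lt_of_le hd hb
    rw [← Real.log_div ha0.ne' hb0.ne']
    refine (Real.log_le_sub_one_of_pos (div_pos ha0 hb0)).trans ?_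
    rw [div_sub_one hb0.ne']
    exact div_le_div₀ hε ((le_abs_self _).trans hab) hd hb
  rw [abs_le]
  constructor
  · have := key _ _ hb ha (by rw [abs_sub_comm]; exact hab)
    linarith
  · exact key _ _ ha hb hab

theorem log_split {al be : ℂ} {s0 h σ : ℝ} (h0 : al + s0 * be ≠ 0) {z : ℂ} {r ε : ℝ}
    (hz : ‖z‖ ≤ r) (hw : ‖(h : ℂ) * be / (al + s0 * be) - z‖ ≤ ε) (hr : r + ε < 1)
    (hσ : |σ| ≤ 1) :
    Real.log ‖al + ((s0 + h * σ : ℝ) : ℂ) * be‖ = Real.log ‖al + s0 * be‖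
      + Real.log ‖1 + σ * ((h : ℂ) * be / (al + s0 * be))‖ := by
  have e : al + ((s0 + h * σ : ℝ) : ℂ) * be
      = (al + s0 * be) * (1 + σ * ((h : ℂ) * be / (al + s0 * be))) := by
    push_cast
    field_simp
    ring
  have hne : (1 : ℂ) + σ * ((h : ℂ) * be / (al + s0 * be)) ≠ 0 := by
    intro hc
    have h1 : ‖(σ : ℂ) * ((h : ℂ) * be / (al + s0 * be))‖ = 1 := by
      have : (σ : ℂ) * ((h : ℂ) * be / (al + s0 * be)) = -1 := by linear_combination hc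
      rw [this, norm_neg, norm_one]
    have h2 : ‖(h : ℂ) * be / (al + s0 * be)‖ ≤ r + ε := by
      have := norm_add_le z ((h : ℂ) * be / (al + s0 * be) - z)
      rw [add_sub_cancel] at this
      linarith
    rw [norm_mul, Complex.norm_real, Real.norm_eq_abs] at h1
    have h3 : |σ| * ‖(h : ℂ) * be / (al + s0 * be)‖ ≤ 1 * ‖(h : ℂ) * be / (al + s0 * be)‖ :=
      mul_le_mul_of_nonneg_right hσ (norm_nonneg _)
    linarith
  rw [e, norm_mul, Real.log_mul (norm_ne_zero_iff.2 h0) (norm_ne_zero_iff.2 hne)]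

/-- one pole, one cell -/
theorem log_cell {al be : ℂ} {s0 h σ : ℝ} (h0 : al + s0 * be ≠ 0) {z : ℂ} {r ε : ℝ} (M : ℕ)
    (hz : ‖z‖ ≤ r) (hw : ‖(h : ℂ) * be / (al + s0 * be) - z‖ ≤ ε) (hr : r + ε < 1)
    (hσ : |σ| ≤ 1) :
    |Real.log ‖al + ((s0 + h * σ : ℝ) : ℂ) * be‖ - (Real.log ‖al + s0 * be‖ + tay M z σ)|
      ≤ r ^ (M + 1) / ((M + 1) * (1 - r)) + ε / (1 - r - ε) := by
  have hε : 0 ≤ ε := le_trans (norm_nonneg _) hw
  rw [log_split h0 hz hw hr hσ]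
  have h1 := abs_le.1 (log_tay (M := M) hz (by linarith) hσ)
  have h2 := abs_le.1 (log_pert hz hw hr hσ)
  rw [abs_le]
  constructor <;> linarith [h1.1, h1.2, h2.1, h2.2]

/-! ### all poles -/

/-- `e0 + Σ e_k log ‖al_k + s be_k‖` -/
noncomputable def F {ι : Type*} (A : Finset ι) (e0 : ℝ) (e : ι → ℝ) (al be : ι → ℂ) (s : ℝ) : ℝ :=
  e0 + ∑ k ∈ A, e k * Real.log ‖al k + s * be k‖

theorem cell_taylor {ι : Type*} (A : Finset ι) (e0 : ℝ) (e : ι → ℝ) (al be z : ι → ℂ)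
    (r : ι → ℝ) {s0 h σ ε : ℝ} (M : ℕ) (h0 : ∀ k ∈ A, al k + s0 * be k ≠ 0)
    (hz : ∀ k ∈ A, ‖z k‖ ≤ r k)
    (hw : ∀ k ∈ A, ‖(h : ℂ) * be k / (al k + s0 * be k) - z k‖ ≤ ε)
    (hr : ∀ k ∈ A, r k + ε < 1) (hσ : |σ| ≤ 1) :
    |F A e0 e al be (s0 + h * σ) - (F A e0 e al be s0
      + ∑ m ∈ range M, σ ^ (m + 1) * ((-1) ^ m / ((m : ℝ) + 1) *
          ∑ k ∈ A, e k * (z k ^ (m + 1)).re))|
      ≤ ∑ k ∈ A, |e k| * (r k ^ (M + 1) / ((M + 1) * (1 - r k)) + ε / (1 - r k - ε)) := by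
  have e1 : ∑ m ∈ range M, σ ^ (m + 1) * ((-1) ^ m / ((m : ℝ) + 1) *
      ∑ k ∈ A, e k * (z k ^ (m + 1)).re) = ∑ k ∈ A, e k * tay M (z k) σ := by
    simp only [tay, mul_sum]
    rw [sum_comm]
    refine sum_congr rfl fun k _ => sum_congr rfl fun m _ => ?_
    ring
  have e2 : F A e0 e al be (s0 + h * σ) - (F A e0 e al be s0
      + ∑ k ∈ A, e k * tay M (z k) σ)
      = ∑ k ∈ A, e k * (Real.log ‖al k + ((s0 + h * σ : ℝ) : ℂ) * be k‖
        - (Real.log ‖al k + s0 * be k‖ + tay M (z k) σ)) := by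
    simp only [F, mul_sub, mul_add, sum_sub_distrib, sum_add_distrib]
    ring
  rw [e1, e2]
  refine (abs_sum_le_sum_abs _ _).trans (sum_le_sum fun k hk => ?_)
  rw [abs_mul]
  exact mul_le_mul_of_nonneg_left
    (log_cell (h0 k hk) M (hz k hk) (hw k hk) (hr k hk) hσ) (abs_nonneg _)

/-! ### positivity of the Taylor polynomial -/

theorem quad_nonneg {a b c σ : ℝ} (hσ : |σ| ≤ 1)
    (h : |b| + max 0 (-c) ≤ a ∨ (0 ≤ a ∧ 0 ≤ c ∧ b ^ 2 ≤ 4 * c * a)) :
    0 ≤ a + σ * b + σ ^ 2 * c := by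
  rcases h with h | ⟨ha, hc, h⟩
  · have h1 : -|b| ≤ σ * b := by
      have : |σ * b| ≤ |b| := by
        rw [abs_mul]
        calc |σ| * |b| ≤ 1 * |b| := mul_le_mul_of_nonneg_right hσ (abs_nonneg _)
          _ = |b| := one_mul _
      exact (abs_le.1 this).1
    have h2 : -max 0 (-c) ≤ σ ^ 2 * c := by
      have h3 : σ ^ 2 ≤ 1 := by
        rw [← sq_abs]
        exact pow_le_one₀ (abs_nonneg _) hσ
      rcases le_total 0 c with hc | hc
      · have : max 0 (-c) = 0 := max_eq_left (by linarith)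
        rw [this, neg_zero]
        exact mul_nonneg (sq_nonneg _) hc
      · have : max 0 (-c) = -c := max_eq_right (by linarith)
        rw [this]
        nlinarith [sq_nonneg σ]
    linarith
  · rcases hc.eq_or_lt with hc | hc
    · have hb : b = 0 := by
        rw [← hc] at h
        have : b ^ 2 ≤ 0 := by linarith
        exact pow_eq_zero_iff (two_ne_zero) |>.1 (le_antisymm this (sq_nonneg _))
      rw [← hc, hb]
      linarith
    · have h1 : 0 ≤ 4 * c * (a + σ * b + σ ^ 2 * c) := by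
        have : 4 * c * (a + σ * b + σ ^ 2 * c) = (4 * c * a - b ^ 2) + (b + 2 * c * σ) ^ 2 := by
          ring
        rw [this]
        have := sq_nonneg (b + 2 * c * σ)
        linarith
      by_contra hn
      push Not at hn
      have : 4 * c * (a + σ * b + σ ^ 2 * c) < 0 := mul_neg_of_pos_of_neg (by linarith) hn
      linarith

theorem abs_pow_mul_le {σ t : ℝ} (hσ : |σ| ≤ 1) (m : ℕ) : |σ ^ m * t| ≤ |t| := by
  rw [abs_mul, abs_pow]
  calc |σ| ^ m * |t| ≤ 1 * |t| :=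
        mul_le_mul_of_nonneg_right (pow_le_one₀ (abs_nonneg _) hσ) (abs_nonneg _)
    _ = |t| := one_mul _

/-- `T0 + Σ_{m < M+2} σ^(m+1) c_m ≥ 0` up to `R` -/
theorem poly_nonneg {M : ℕ} {T0 R H σ : ℝ} {c : ℕ → ℝ} (hσ : |σ| ≤ 1)
    (hH : ∑ m ∈ range M, |c (m + 2)| ≤ H)
    (h : |c 0| + max 0 (-c 1) ≤ T0 - R - H
      ∨ (0 ≤ T0 - R - H ∧ 0 ≤ c 1 ∧ (c 0) ^ 2 ≤ 4 * c 1 * (T0 - R - H))) :
    R ≤ T0 + ∑ m ∈ range (M + 2), σ ^ (m + 1) * c m := by
  have h1 : ∑ m ∈ range (M + 2), σ ^ (m + 1) * c m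
      = σ * c 0 + σ ^ 2 * c 1 + ∑ m ∈ range M, σ ^ (m + 3) * c (m + 2) := by
    rw [sum_range_succ', sum_range_succ']
    simp only [zero_add, pow_one]
    ring
  have h2 : -H ≤ ∑ m ∈ range M, σ ^ (m + 3) * c (m + 2) := by
    have : |∑ m ∈ range M, σ ^ (m + 3) * c (m + 2)| ≤ H :=
      (abs_sum_le_sum_abs _ _).trans ((sum_le_sum fun m _ => abs_pow_mul_le hσ _).trans hH)
    exact (abs_le.1 this).1
  have h3 := quad_nonneg hσ h
  rw [h1]
  linarith

/-- **one cell**: lower bound of `F` on `[s0 - h, s0 + h]` -/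
theorem cell_ge {ι : Type*} (A : Finset ι) (e0 : ℝ) (e : ι → ℝ) (al be z : ι → ℂ)
    (r : ι → ℝ) {s0 h ε R H δ : ℝ} (M : ℕ) (c : ℕ → ℝ)
    (h0 : ∀ k ∈ A, al k + s0 * be k ≠ 0)
    (hz : ∀ k ∈ A, ‖z k‖ ≤ r k)
    (hw : ∀ k ∈ A, ‖(h : ℂ) * be k / (al k + s0 * be k) - z k‖ ≤ ε)
    (hr : ∀ k ∈ A, r k + ε < 1)
    (hc : ∀ m < M + 2, c m = (-1) ^ m / ((m : ℝ) + 1) * ∑ k ∈ A, e k * (z k ^ (m + 1)).re)
    (hR : ∑ k ∈ A, |e k| * (r k ^ (M + 3) / ((M + 3) * (1 - r k)) + ε / (1 - r k - ε)) ≤ R)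
    (hH : ∑ m ∈ range M, |c (m + 2)| ≤ H)
    (hq : |c 0| + max 0 (-c 1) ≤ F A e0 e al be s0 - δ - R - H
      ∨ (0 ≤ F A e0 e al be s0 - δ - R - H ∧ 0 ≤ c 1
        ∧ (c 0) ^ 2 ≤ 4 * c 1 * (F A e0 e al be s0 - δ - R - H)))
    {s : ℝ} (hs : |s - s0| ≤ h) : δ ≤ F A e0 e al be s := by
  have hh : 0 ≤ h := le_trans (abs_nonneg _) hs
  obtain ⟨σ, hσ, rfl⟩ : ∃ σ : ℝ, |σ| ≤ 1 ∧ s = s0 + h * σ := by
    rcases hh.eq_or_lt with hh | hh
    · refine ⟨0, by simp, ?_⟩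
      rw [← hh] at hs
      have := abs_nonpos_iff.1 hs
      linarith
    · refine ⟨(s - s0) / h, ?_, by field_simp; ring⟩
      rw [abs_div, abs_of_pos hh]
      exact (div_le_one hh).2 hs
  have h1 := cell_taylor A e0 e al be z r (s0 := s0) (h := h) (M + 2) h0 hz hw hr hσ
  have h2 : ∑ m ∈ range (M + 2), σ ^ (m + 1) * ((-1) ^ m / ((m : ℝ) + 1) *
      ∑ k ∈ A, e k * (z k ^ (m + 1)).re) = ∑ m ∈ range (M + 2), σ ^ (m + 1) * c m :=
    sum_congr rfl fun m hm => by rw [hc m (mem_range.1 hm)]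
  rw [h2] at h1
  have h3 : ((M + 2 : ℕ) : ℝ) + 1 = (M : ℝ) + 3 := by push_cast; ring
  rw [h3] at h1
  have h4 := (abs_le.1 (h1.trans hR)).1
  have h5 := poly_nonneg (M := M) (T0 := F A e0 e al be s0 - δ) (R := R) (c := c) hσ hH
    (by simpa only using hq)
  linarith

/-! ### cells covering an interval -/

theorem forall_of_cells {P : ℝ → Prop} (n : ℕ) (t : ℕ → ℝ)
    (h : ∀ j < n, ∀ s, t j ≤ s → s ≤ t (j + 1) → P s) {s : ℝ} (h0 : t 0 ≤ s) (h1 : s ≤ t n)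
    (hn : 0 < n) : P s := by
  induction n with
  | zero => exact absurd hn (lt_irrefl _)
  | succ n ih =>
    rcases le_total s (t n) with hs | hs
    · rcases Nat.eq_zero_or_pos n with rfl | hn'
      · exact h 0 (Nat.lt_succ_self _) s h0 h1
      · exact ih (fun j hj => h j (Nat.lt_succ_of_lt hj)) hs hn'
    · exact h n (Nat.lt_succ_self _) s hs h1

/-! ### normal forms of the curves -/

/-- the arc `c0 + w0 (1 + i s)/(1 - i s)` -/
noncomputable def arc (c0 w0 : ℂ) (s : ℝ) : ℂ :=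
  c0 + w0 * ((1 + Complex.I * s) / (1 - Complex.I * s))

theorem one_sub_I_mul_ne (s : ℝ) : (1 : ℂ) - Complex.I * s ≠ 0 := by
  intro h
  have := congrArg Complex.re h
  simp at this

theorem arc_sub (c0 w0 p : ℂ) (s : ℝ) :
    arc c0 w0 s - p = ((c0 + w0 - p) + s * (Complex.I * (w0 - c0 + p)))
      / (1 - Complex.I * s) := by
  have h := one_sub_I_mul_ne s
  rw [arc, eq_div_iff h]
  field_simp
  ring

theorem norm_arc_sub (c0 w0 : ℂ) (s : ℝ) : ‖arc c0 w0 s - c0‖ = ‖w0‖ := by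
  have h : ‖(1 : ℂ) + Complex.I * s‖ = ‖(1 : ℂ) - Complex.I * s‖ := by
    have : (1 : ℂ) + Complex.I * s = (starRingEnd ℂ) (1 - Complex.I * s) := by simp
    rw [this, Complex.norm_conj]
  have h0 : ‖(1 : ℂ) - Complex.I * s‖ ≠ 0 := norm_ne_zero_iff.2 (one_sub_I_mul_ne s)
  rw [arc, add_sub_cancel_left, norm_mul, norm_div, h, div_self h0, mul_one]

theorem log_norm_arc_sub {c0 w0 p : ℂ} {s : ℝ} (h : arc c0 w0 s ≠ p) :
    Real.log ‖arc c0 w0 s - p‖
      = Real.log ‖(c0 + w0 - p) + s * (Complex.I * (w0 - c0 + p))‖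
        - Real.log ‖(1 : ℂ) + s * (-Complex.I)‖ := by
  have h0 := one_sub_I_mul_ne s
  have h1 : (c0 + w0 - p) + s * (Complex.I * (w0 - c0 + p)) ≠ 0 := by
    intro hc
    have := arc_sub c0 w0 p s
    rw [hc, zero_div, sub_eq_zero] at this
    exact h this
  have h2 : (1 : ℂ) + s * (-Complex.I) = 1 - Complex.I * s := by ring
  rw [arc_sub, norm_div, Real.log_div (norm_ne_zero_iff.2 h1) (norm_ne_zero_iff.2 h0), h2]

/-- the arc with `s ∈ [-1, 1]` is the half circle around `c0 + w0` -/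
theorem exists_arc {c0 w0 y : ℂ} (hw : w0 ≠ 0) (hy : ‖y - c0‖ = ‖w0‖)
    (hr : 0 ≤ ((y - c0) / w0).re) : ∃ s : ℝ, |s| ≤ 1 ∧ y = arc c0 w0 s := by
  set v := (y - c0) / w0 with hv
  have hw' : ‖w0‖ ≠ 0 := norm_ne_zero_iff.2 hw
  have hv1 : ‖v‖ = 1 := by rw [hv, norm_div, hy, div_self hw']
  have hn : v.re * v.re + v.im * v.im = 1 := by
    have := Complex.normSq_eq_norm_sq v
    rw [hv1, one_pow, Complex.normSq_apply] at this
    exact this
  have h1 : 0 < 1 + v.re := by linarith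
  refine ⟨v.im / (1 + v.re), ?_, ?_⟩
  · rw [abs_div, abs_of_pos h1, div_le_one h1, abs_le]
    constructor <;> nlinarith
  · have hy2 : y = c0 + w0 * v := by
      rw [hv]
      field_simp
      ring
    have h2 := one_sub_I_mul_ne (v.im / (1 + v.re))
    have hs : (v.im / (1 + v.re)) * (1 + v.re) = v.im := div_mul_cancel₀ _ h1.ne'
    have h3 : (1 + Complex.I * ((v.im / (1 + v.re) : ℝ) : ℂ))
        / (1 - Complex.I * ((v.im / (1 + v.re) : ℝ) : ℂ)) = v := by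
      rw [div_eq_iff h2]
      generalize v.im / (1 + v.re) = t at hs
      have h4 : t * v.im = 1 - v.re := by
        have h5 : (1 + v.re) * (t * v.im) = (1 + v.re) * (1 - v.re) := by
          have : (1 + v.re) * (t * v.im) = (t * (1 + v.re)) * v.im := by ring
          rw [this, hs]
          linarith
        exact mul_left_cancel₀ h1.ne' h5
      apply Complex.ext
      · simp only [Complex.add_re, Complex.one_re, Complex.mul_re, Complex.I_re, Complex.I_im,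
          Complex.ofReal_re, Complex.ofReal_im, Complex.sub_re, Complex.sub_im, Complex.one_im,
          Complex.mul_im]
        linarith
      · simp only [Complex.add_im, Complex.one_re, Complex.mul_re, Complex.I_re, Complex.I_im,
          Complex.ofReal_re, Complex.ofReal_im, Complex.sub_re, Complex.sub_im, Complex.one_im,
          Complex.mul_im]
        linarith
    rw [arc, h3]
    exact hy2

theorem norm_conj_sub (y p : ℂ) :
    ‖(starRingEnd ℂ) y - p‖ = ‖y - (starRingEnd ℂ) p‖ := by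
  rw [← Complex.norm_conj, map_sub, Complex.conj_conj]

end Vale.Agent.P030.H440
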